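import Vale.Agent.P179.H524.Quot7
import Vale.Agent.P179.H143.CStat
import Vale.Agent.P179.H166.MainFun

/-! (C2) The number of simple modules in a block, in terms of the functional `nL`. -/

namespace P179C.C2

open Subgroup P179H524 P179A MonoidAlgebra

universe u

section classes

variable (p : ℕ) [hp : Fact p.Prime] {G : Type} [Group G] [Finite G]

/-- The classes of `p`-regular elements. -/
abbrev Om (p : ℕ) (G : Type) [Group G] := MulAction.orbitRel.Quotient G (Reg p G)

omit hp in
theorem ord_ne (y : G) : orderOf y ≠ 0 := (isOfFinOrder_of_finite y).orderOf_pos.ne'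

/-- The `p`-regular part, as an element of `Reg p G`. -/
noncomputable def regPr (g : G) : Reg p G := ⟨pr p g, Q7.pr_regular p g (ord_ne g)⟩

/-- The class of the `p`-regular part. -/
noncomputable def cls (g : G) : Om p G := Quotient.mk'' (regPr p g)

theorem cls_reg (x : Reg p G) : cls p x.1 = (Quotient.mk'' x : Om p G) := by
  rw [cls]
  congr 1
  exact Subtype.ext (Q7.pr_of_regular p x.1 (ord_ne x.1) x.2)

theorem cls_conj (t g : G) : cls p (t * g * t⁻¹) = cls p g := by
  apply Quotient.sound'
  refine ⟨t, Subtype.ext ?_⟩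
  change t * pr p g * t⁻¹ = pr p (t * g * t⁻¹)
  rw [Q7.pr_conj p t g (ord_ne g)]

open scoped Classical in
/-- The integer `nL z / |G|`. -/
noncomputable def tau (z : G → ℤ) : ℤ :=
  ∑ᶠ ω : Om p G, ∑ᶠ g : G, z g * (if cls p (g * ω.out.1) = ω then 1 else 0)

open scoped Classical in
omit hp [Finite G] in
theorem card_fib {X : Type*} [MulAction G X] (x y : X) :
    Nat.card {g : G // g • x = y} = if (Quotient.mk'' y : MulAction.orbitRel.Quotient G X) =
      Quotient.mk'' x then Nat.card (MulAction.stabilizer G x) else 0 := by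
  split_ifs with h
  · obtain ⟨t, ht⟩ := Quotient.exact' h
    dsimp only at ht
    refine Nat.card_congr
      { toFun := fun g => ⟨t⁻¹ * g.1, ?_⟩
        invFun := fun g => ⟨t * g.1, ?_⟩
        left_inv := fun g => Subtype.ext (by simp)
        right_inv := fun g => Subtype.ext (by simp) }
    · rw [MulAction.mem_stabilizer_iff, mul_smul, g.2, ← ht, inv_smul_smul]
    · rw [mul_smul, (MulAction.mem_stabilizer_iff.1 g.2), ht]
  · rw [Nat.card_eq_zero]
    left
    refine ⟨fun g => h ?_⟩
    exact Quotient.sound' ⟨g.1, g.2⟩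

open scoped Classical in
theorem cntL_eq [Fintype (Reg p G)] (g : G) : (Q7.cntL p g : ℤ) =
    ∑ h : Reg p G, (Nat.card (MulAction.stabilizer G h) : ℤ) *
      (if cls p (g * h.1) = Quotient.mk'' h then 1 else 0) := by
  rw [Q7.cntL, Nat.card_congr (Q7.cntEquiv p g)]
  let E : {s : Reg p G × G // s.2 * s.1.1 * s.2⁻¹ = pr p (g * s.1.1)} ≃
      Σ h : Reg p G, {x : G // x • h = regPr p (g * h.1)} :=
    { toFun := fun s => ⟨s.1.1, s.1.2, Subtype.ext s.2⟩
      invFun := fun s => ⟨(s.1, s.2.1), congrArg Subtype.val s.2.2⟩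
      left_inv := fun _ => rfl
      right_inv := fun _ => rfl }
  rw [Nat.card_congr E, Nat.card_sigma, Nat.cast_sum]
  apply Finset.sum_congr rfl
  intro h _
  rw [card_fib]
  change (((if cls p (g * h.1) = Quotient.mk'' h then Nat.card (MulAction.stabilizer G h)
    else 0 : ℕ)) : ℤ) = _
  split_ifs <;> simp

theorem nL_eq_tau (z : G → ℤ) (hz : IsCF z) : nL p z = Nat.card G * tau p z := by
  classical
  have := Fintype.ofFinite G
  have := Fintype.ofFinite (Reg p G)
  have : Finite (Om p G) := Quotient.finite _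
  have := Fintype.ofFinite (Om p G)
  rw [Q7.nL_eq_sum_cntL, tau, finsum_eq_sum_of_fintype]
  simp only [cntL_eq, Finset.mul_sum]
  rw [Finset.sum_comm]
  have h1 := orbSum (G := G) (X := Reg p G) (R := ℤ)
    (fun h => ∑ g : G, z g * (if cls p (g * h.1) = Quotient.mk'' h then 1 else 0)) (by
      intro t h
      rw [← Equiv.sum_comp (MulAut.conj t).toEquiv]
      apply Finset.sum_congr rfl
      intro g _
      have e1 : (MulAut.conj t).toEquiv g = t * g * t⁻¹ := rfl
      have e2 : (t • h).1 = t * h.1 * t⁻¹ := rfl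
      have e3 : (Quotient.mk'' (t • h) : Om p G) = Quotient.mk'' h :=
        Quotient.sound' ⟨t, rfl⟩
      have e4 : t * g * t⁻¹ * (t * h.1 * t⁻¹) = t * (g * h.1) * t⁻¹ := by group
      rw [e1, hz, e2, e3, e4, cls_conj])
  rw [← Finset.mul_sum]
  simp only [finsum_eq_sum_of_fintype]
  calc _ = ∑ h : Reg p G, (Nat.card (MulAction.stabilizer G h) : ℤ) *
        ∑ g : G, z g * (if cls p (g * h.1) = Quotient.mk'' h then 1 else 0) := by
        apply Finset.sum_congr rfl
        intro h _
        rw [Finset.mul_sum]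
        apply Finset.sum_congr rfl
        intro g _
        ring
    _ = _ := by
        rw [h1]
        congr 1
        apply Finset.sum_congr rfl
        intro ω _
        apply Finset.sum_congr rfl
        intro g _
        have : (Quotient.mk'' ω.out : Om p G) = ω := Quotient.out_eq' ω
        rw [this]

end classes

section trace

variable (p : ℕ) [hp : Fact p.Prime] {k : Type u} [Field k] [CharP k p] {G : Type} [Group G]
  [Finite G] {r : ℕ} {d : Fin r → ℕ}

omit [CharP k p] hp [Finite G] in
/-- The class functions on the classes of `p`-regular elements attached to the simple modules. -/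
noncomputable def phi (f : MonoidAlgebra k G →ₐ[k] Π i, Matrix (Fin (d i)) (Fin (d i)) k) :
    (Fin r → k) →ₗ[k] (Om p G → k) where
  toFun c ω := Quotient.liftOn' ω (fun x => trFun f c x.1) (by
    rintro x y ⟨g, rfl⟩
    exact trFun_conj f c y.1 g)
  map_add' := by
    intro c c'
    funext ω
    induction ω using Quotient.inductionOn' with
    | h x =>
    change trFun f (c + c') x.1 = trFun f c x.1 + trFun f c' x.1
    simp only [trFun, Pi.add_apply, add_mul, Finset.sum_add_distrib]
  map_smul' := by
    intro a c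
    funext ω
    induction ω using Quotient.inductionOn' with
    | h x =>
    change trFun f (a • c) x.1 = a * trFun f c x.1
    simp only [trFun, Pi.smul_apply, smul_eq_mul, Finset.mul_sum, mul_assoc]

omit [CharP k p] hp [Finite G] in
theorem phi_mk (f : MonoidAlgebra k G →ₐ[k] Π i, Matrix (Fin (d i)) (Fin (d i)) k)
    (c : Fin r → k) (x : Reg p G) : phi p f c (Quotient.mk'' x) = trFun f c x.1 := rfl

theorem phi_bijective [∀ i, NeZero (d i)]
    (f : MonoidAlgebra k G →ₐ[k] Π i, Matrix (Fin (d i)) (Fin (d i)) k)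
    (hf : Function.Surjective f)
    (hker : ∀ x, f x = 0 → x ∈ Ring.jacobson (MonoidAlgebra k G)) :
    Function.Bijective (phi p f) := by
  classical
  have : Finite (Om p G) := Quotient.finite _
  have := Fintype.ofFinite (Om p G)
  constructor
  · rw [injective_iff_map_eq_zero]
    intro c hc
    apply coeff_eq_zero f hf
    apply trFun_eq_zero
    apply trFun_regular p
    intro g hg
    rw [← phi_mk p f c ⟨g, hg⟩, hc]
    rfl
  · rw [← LinearMap.range_eq_top, eq_top_iff]
    intro h _
    rw [← Finset.univ_sum_single h]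
    apply Submodule.sum_mem
    intro ω _
    induction ω using Quotient.inductionOn' with
    | h x =>
    obtain ⟨X, hX, hact, e, he, h1, h2⟩ := exists_equivariant p x.1 x.2
    obtain ⟨c, hc⟩ := exists_trFun_of_equivariant f hf hker X e he
    have hne : (Nat.card {b : X // x.1 • e b = b} : k) ≠ 0 := by
      rw [Ne, CharP.cast_eq_zero_iff k p]
      exact h1
    have h3 : Pi.single (Quotient.mk'' x : Om p G) (h (Quotient.mk'' x)) =
        phi p f ((h (Quotient.mk'' x) * (Nat.card {b : X // x.1 • e b = b} : k)⁻¹) • c) := by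
      funext ω'
      induction ω' using Quotient.inductionOn' with
      | h y =>
      rw [map_smul, Pi.smul_apply, phi_mk, hc, smul_eq_mul]
      by_cases hxy : (Quotient.mk'' y : Om p G) = Quotient.mk'' x
      · have h4 : trFun f c y.1 = trFun f c x.1 := by
          rw [← phi_mk, ← phi_mk, hxy]
        rw [← hc y.1, h4, hc x.1, hxy, Pi.single_eq_same, mul_assoc, inv_mul_cancel₀ hne, mul_one]
      · rw [Pi.single_eq_of_ne hxy, h2 y.1 y.2, Nat.cast_zero, mul_zero]
        rintro ⟨a, ha⟩
        apply hxy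
        rw [Quotient.eq'']
        symm
        refine ⟨a⁻¹, Subtype.ext ?_⟩
        change a⁻¹ * y.1 * a⁻¹⁻¹ = x.1
        rw [inv_inv]
        exact ha
    rw [h3]
    exact LinearMap.mem_range_self _ _

theorem trFun_pr (f : MonoidAlgebra k G →ₐ[k] Π i, Matrix (Fin (d i)) (Fin (d i)) k)
    (c : Fin r → k) (g : G) : trFun f c (pr p g) = trFun f c g := by
  rw [trFun, trFun]
  apply Finset.sum_congr rfl
  intro i _
  congr 1
  have hpow : ∀ (x : MonoidAlgebra k G) (N : ℕ), f x i ^ N = f (x ^ N) i := by
    intro x N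
    rw [map_pow, Pi.pow_apply]
  obtain ⟨h3, h4⟩ := Q7.prExp_spec p (ord_ne g)
  have h5 : (pr p g) ^ p ^ (orderOf g).factorization p = g ^ p ^ (orderOf g).factorization p := by
    rw [pr, ← pow_mul, pow_eq_pow_iff_modEq]
    have h6 := Nat.ModEq.mul_left' (ordProj[p] (orderOf g)) h4
    rw [mul_one, Nat.ordProj_mul_ordCompl_eq_self] at h6
    rw [mul_comm (prExp p (orderOf g))]
    exact h6
  apply trace_eq_of_pow p _ _ _ ((orderOf g).factorization p)
  · rw [hpow, hpow, MonoidAlgebra.single_pow, MonoidAlgebra.single_pow, h5]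
  · have : Commute (single (pr p g) 1 : MonoidAlgebra k G) (single g 1) := by
      rw [Commute, SemiconjBy, MonoidAlgebra.single_mul_single, MonoidAlgebra.single_mul_single,
        pr, ← pow_succ, ← pow_succ']
    have h2 := this.map f
    exact congrFun h2 i

omit hp [CharP k p] [Finite G] in
theorem sum_coeff_mul_trFun [Fintype G]
    (f : MonoidAlgebra k G →ₐ[k] Π i, Matrix (Fin (d i)) (Fin (d i)) k)
    (c : Fin r → k) (B : MonoidAlgebra k G) (h : G) :
    ∑ g : G, B.coeff g * trFun f c (g * h) = ∑ i, c i * (f B i * f (single h 1) i).trace := by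
  have hB : B = ∑ g : G, B.coeff g • single g (1 : k) := by
    apply MonoidAlgebra.ext
    ext x
    simp [MonoidAlgebra.coeff_sum]
  have h1 : ∀ i, (f B i * f (single h 1) i).trace =
      ∑ g : G, B.coeff g * (f (single (g * h) 1) i).trace := by
    intro i
    conv_lhs => rw [hB]
    rw [map_sum, Finset.sum_apply, Finset.sum_mul, Matrix.trace_sum]
    apply Finset.sum_congr rfl
    intro g _
    rw [map_smul, Pi.smul_apply, smul_mul_assoc, Matrix.trace_smul, smul_eq_mul, ← Pi.mul_apply,
      ← map_mul, MonoidAlgebra.single_mul_single, one_mul]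
  simp only [h1, trFun, Finset.mul_sum]
  rw [Finset.sum_comm]
  apply Finset.sum_congr rfl
  intro i _
  apply Finset.sum_congr rfl
  intro g _
  ring

open scoped Classical in
theorem trace_formula [∀ i, NeZero (d i)]
    (f : MonoidAlgebra k G →ₐ[k] Π i, Matrix (Fin (d i)) (Fin (d i)) k)
    (hf : Function.Surjective f)
    (hker : ∀ x, f x = 0 → x ∈ Ring.jacobson (MonoidAlgebra k G)) [Fintype G] [Fintype (Om p G)]
    (B : MonoidAlgebra k G) (l : Fin r → k) (hl : ∀ i, f B i = Matrix.scalar _ (l i)) :
    ∑ i, l i = ∑ ω : Om p G, ∑ g : G, B.coeff g * (if cls p (g * ω.out.1) = ω then 1 else 0) := by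
  let e := LinearEquiv.ofBijective (phi p f) (phi_bijective p f hf hker)
  let T : (Om p G → k) →ₗ[k] (Om p G → k) :=
    { toFun := fun ψ ω => ∑ g : G, B.coeff g * ψ (cls p (g * ω.out.1))
      map_add' := by
        intro ψ ψ'
        funext ω
        simp only [Pi.add_apply, mul_add, Finset.sum_add_distrib]
      map_smul' := by
        intro a ψ
        funext ω
        simp only [Pi.smul_apply, smul_eq_mul, RingHom.id_apply, Finset.mul_sum]
        apply Finset.sum_congr rfl
        intro g _
        ring }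
  let D : (Fin r → k) →ₗ[k] (Fin r → k) := Matrix.toLin' (Matrix.diagonal l)
  have hD : ∀ c, D c = fun i => l i * c i := by
    intro c
    funext i
    simp [D, Matrix.mulVec_diagonal]
  have hT : T = e.conj D := by
    apply LinearMap.ext
    intro ψ
    obtain ⟨c, rfl⟩ := e.surjective ψ
    rw [LinearEquiv.conj_apply_apply, e.symm_apply_apply, hD]
    funext ω
    change ∑ g : G, B.coeff g * (phi p f c) (cls p (g * ω.out.1)) = phi p f (fun i => l i * c i) ω
    conv_rhs => rw [← Quotient.out_eq' ω]
    rw [phi_mk]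
    have h1 : ∀ g, (phi p f c) (cls p (g * ω.out.1)) = trFun f c (g * ω.out.1) := by
      intro g
      rw [cls, phi_mk]
      exact trFun_pr p f c _
    simp only [h1]
    rw [sum_coeff_mul_trFun, trFun]
    apply Finset.sum_congr rfl
    intro i _
    rw [hl, Matrix.scalar_apply, ← Matrix.smul_eq_diagonal_mul, Matrix.trace_smul, smul_eq_mul]
    ring
  have h1 : LinearMap.trace k _ T = ∑ i, l i := by
    rw [hT, LinearMap.trace_conj', Matrix.trace_toLin'_eq, Matrix.trace_diagonal]
  rw [← h1, LinearMap.trace_eq_matrix_trace k (Pi.basisFun k (Om p G)), Matrix.trace]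
  apply Finset.sum_congr rfl
  intro ω _
  rw [Matrix.diag_apply, LinearMap.toMatrix_apply, Pi.basisFun_apply]
  change ∑ g : G, B.coeff g * (Pi.single ω 1 : Om p G → k) (cls p (g * ω.out.1)) = _
  apply Finset.sum_congr rfl
  intro g _
  rw [Pi.single_apply]

end trace

section block

variable {k : Type u} [Field k] {G : Type} [Group G] {r : ℕ} {d : Fin r → ℕ}

theorem coeff_conj (B : MonoidAlgebra k G) (hB : B ∈ Subalgebra.center k (MonoidAlgebra k G))
    (g x : G) : B.coeff (g * x * g⁻¹) = B.coeff x := by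
  have h := (Subalgebra.mem_center_iff.1 hB) (single g 1)
  have h1 := congrArg (fun z => z.coeff (g * x)) h
  simp only [coeff_single_mul_apply, coeff_mul_single_apply] at h1
  simpa using h1.symm

theorem coeff_out (B : MonoidAlgebra k G) (hB : B ∈ Subalgebra.center k (MonoidAlgebra k G))
    (g : G) : B.coeff (ConjClasses.mk g).out = B.coeff g := by
  have h : ConjClasses.mk (ConjClasses.mk g).out = ConjClasses.mk g := Quotient.out_eq' _
  rw [ConjClasses.mk_eq_mk_iff_isConj, isConj_iff] at h
  obtain ⟨c, hc⟩ := h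
  have h1 := coeff_conj B hB c (ConjClasses.mk g).out
  rw [hc] at h1
  exact h1.symm

theorem exists_scalar (f : MonoidAlgebra k G →ₐ[k] Π i, Matrix (Fin (d i)) (Fin (d i)) k)
    (hf : Function.Surjective f) (B : MonoidAlgebra k G)
    (hB : B ∈ Subalgebra.center k (MonoidAlgebra k G)) :
    ∃ l : Fin r → k, ∀ i, f B i = Matrix.scalar _ (l i) := by
  classical
  have h : ∀ i, ∃ l : k, f B i = Matrix.scalar _ l := by
    intro i
    have h1 : f B i ∈ Set.range (Matrix.scalar (Fin (d i))) := by
      rw [Matrix.mem_range_scalar_iff_commute_single']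
      intro a b
      obtain ⟨x, hx⟩ := hf (Pi.single i (Matrix.single a b 1))
      have h2 := congrFun (congrArg f ((Subalgebra.mem_center_iff.1 hB) x)) i
      rw [map_mul, map_mul, Pi.mul_apply, Pi.mul_apply, hx, Pi.single_eq_same] at h2
      exact h2
    obtain ⟨l, hl⟩ := h1
    exact ⟨l, hl.symm⟩
  choose l hl using h
  exact ⟨l, hl⟩

theorem scalar_inj {n : ℕ} [NeZero n] (a b : k)
    (h : Matrix.scalar (Fin n) a = Matrix.scalar (Fin n) b) : a = b := by
  have h1 := congrFun (congrFun h 0) 0
  simpa using h1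

theorem scalar_idem [∀ i, NeZero (d i)]
    (f : MonoidAlgebra k G →ₐ[k] Π i, Matrix (Fin (d i)) (Fin (d i)) k)
    (B : MonoidAlgebra k G) (hB2 : B * B = B) (l : Fin r → k)
    (hl : ∀ i, f B i = Matrix.scalar _ (l i)) (i : Fin r) : l i = 0 ∨ l i = 1 := by
  have h1 := congrFun (congrArg f hB2) i
  rw [map_mul, Pi.mul_apply, hl, ← map_mul] at h1
  have h2 : l i * l i = l i := scalar_inj _ _ h1
  rcases eq_or_ne (l i) 0 with h | h
  · exact Or.inl h
  · right
    exact mul_left_cancel₀ h (by rw [h2, mul_one])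

theorem inBlock_iff [∀ i, NeZero (d i)]
    (f : MonoidAlgebra k G →ₐ[k] Π i, Matrix (Fin (d i)) (Fin (d i)) k)
    (hf : Function.Surjective f) (B : MonoidAlgebra k G) (l : Fin r → k)
    (hl : ∀ i, f B i = Matrix.scalar _ (l i)) (i : Fin r) :
    InBlock (compIrr f hf i) B ↔ l i = 1 := by
  change (compRep f i).asAlgebraHom B = 1 ↔ _
  rw [compRep_asAlgebraHom, hl]
  have h1 : (1 : Module.End k (Fin (d i) → k)) = Matrix.toLin' (Matrix.scalar (Fin (d i)) 1) := by
    rw [map_one, Matrix.toLin'_one]
    rfl
  rw [h1, Matrix.toLin'.injective.eq_iff]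
  exact ⟨scalar_inj _ _, fun h => by rw [h]⟩

theorem inBlock_of_iso {a b : IrrRep k G} (h : IrrRep.Iso a b) (B : MonoidAlgebra k G)
    (ha : InBlock a B) : InBlock b B := by
  obtain ⟨T⟩ := h
  have key : ∀ (x : MonoidAlgebra k G) (v : Fin a.1.1 → k),
      T.toLinearEquiv (a.1.2.asAlgebraHom x v) =
        b.1.2.asAlgebraHom x (T.toLinearEquiv v) := by
    intro x v
    induction x using MonoidAlgebra.induction_linear with
    | zero => simp
    | add x y hx hy => simp only [map_add, LinearMap.add_apply, hx, hy]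
    | single g a =>
      rw [Representation.asAlgebraHom_single, LinearMap.smul_apply, map_smul,
        Representation.asAlgebraHom_single, LinearMap.smul_apply]
      congr 1
      exact LinearMap.congr_fun (T.isIntertwining' g) v
  apply LinearMap.ext
  intro w
  obtain ⟨v, rfl⟩ := T.toLinearEquiv.surjective w
  rw [← key, ha]
  rfl

theorem numSimpleIn_eq_card [∀ i, NeZero (d i)]
    (f : MonoidAlgebra k G →ₐ[k] Π i, Matrix (Fin (d i)) (Fin (d i)) k)
    (hf : Function.Surjective f)
    (hker : ∀ x, f x = 0 → x ∈ Ring.jacobson (MonoidAlgebra k G)) (B : MonoidAlgebra k G)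
    (l : Fin r → k) (hl : ∀ i, f B i = Matrix.scalar _ (l i)) :
    numSimpleIn B = Nat.card {i : Fin r // l i = 1} := by
  symm
  have heq : Equivalence (fun a b : {a : IrrRep k G // InBlock a B} => IrrRep.Iso a.1 b.1) :=
    ⟨fun a => iso_equivalence.refl a.1, fun h => iso_equivalence.symm h,
      fun h h' => iso_equivalence.trans h h'⟩
  refine Nat.card_congr (Equiv.ofBijective
    (fun i => Quot.mk _ ⟨compIrr f hf i.1, (inBlock_iff f hf B l hl i.1).2 i.2⟩) ⟨?_, ?_⟩)
  · intro i j hij
    dsimp only at hij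
    rw [Quot.eq, heq.eqvGen_iff] at hij
    exact Subtype.ext (compRep_not_iso f hf i.1 j.1 hij)
  · intro q
    induction q using Quot.ind with
    | mk a =>
      have := a.1.2
      obtain ⟨i, hi⟩ := exists_iso_compRep f hf hker a.1.1.2
      have hi' : IrrRep.Iso (compIrr f hf i) a.1 := hi
      refine ⟨⟨i, (inBlock_iff f hf B l hl i).1
        (inBlock_of_iso (iso_equivalence.symm hi') B a.2)⟩, ?_⟩
      exact Quot.sound hi'

end block

section final

variable (p : ℕ) [hp : Fact p.Prime] {k : Type u} [Field k] [IsAlgClosed k] [CharP k p] {G : Type}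
  [Group G] [Finite G]

open scoped Classical in
theorem numSimpleIn_eq_sum [Fintype G] [Fintype (Om p G)]
    (B : MonoidAlgebra k G) (hB : B ∈ Subalgebra.center k (MonoidAlgebra k G))
    (hB2 : B * B = B) :
    (numSimpleIn B : k) =
      ∑ ω : Om p G, ∑ g : G, B.coeff g * (if cls p (g * ω.out.1) = ω then 1 else 0) := by
  obtain ⟨r, d, hd, f, hf, hker⟩ := exists_wedderburn k G
  obtain ⟨l, hl⟩ := exists_scalar f hf B hB
  rw [← trace_formula p f hf hker B l hl, numSimpleIn_eq_card f hf hker B l hl]
  rw [Nat.card_eq_fintype_card, Fintype.card_subtype, Finset.card_filter, Nat.cast_sum]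
  apply Finset.sum_congr rfl
  intro i _
  rcases scalar_idem f B hB2 l hl i with h | h
  · rw [h, if_neg zero_ne_one, Nat.cast_zero]
  · rw [h, if_pos rfl, Nat.cast_one]

theorem tau_cast (C : ConjClasses G) : ((nL p (ind C) / (Nat.card G : ℤ) : ℤ)) = tau p (ind C) := by
  rw [nL_eq_tau p (ind C)]
  · exact Int.mul_ediv_cancel_left _ (by exact_mod_cast Nat.card_pos.ne')
  · intro g x
    classical
    have : ConjClasses.mk (g * x * g⁻¹) = ConjClasses.mk x := by
      rw [ConjClasses.mk_eq_mk_iff_isConj]
      exact (isConj_iff.2 ⟨g, rfl⟩).symm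
    simp only [ind, this]

end final

end P179C.C2

namespace P179C

open Subgroup P179H524 P179A MonoidAlgebra

universe u

variable (p : ℕ) [Fact p.Prime] {k : Type u} [Field k] [IsAlgClosed k] [CharP k p]
  {G : Type} [Group G] [Finite G]

/-- The number of simple modules in a block. -/
theorem numSimpleIn_eq (B : MonoidAlgebra k G) (hB : B ∈ Subalgebra.center k (MonoidAlgebra k G))
    (hB2 : B * B = B) :
    (numSimpleIn B : k) =
      ∑ᶠ C : ConjClasses G, B.coeff C.out * ((nL p (ind C) / (Nat.card G : ℤ) : ℤ) : k) := by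
  classical
  have := Fintype.ofFinite G
  have : Finite (C2.Om p G) := Quotient.finite _
  have := Fintype.ofFinite (C2.Om p G)
  have := Fintype.ofFinite (ConjClasses G)
  rw [C2.numSimpleIn_eq_sum p B hB hB2, finsum_eq_sum_of_fintype]
  simp only [C2.tau_cast, C2.tau, finsum_eq_sum_of_fintype, Int.cast_sum, Finset.mul_sum]
  rw [Finset.sum_comm (s := (Finset.univ : Finset (ConjClasses G)))]
  apply Finset.sum_congr rfl
  intro ω _
  rw [Finset.sum_comm (s := (Finset.univ : Finset (ConjClasses G)))]
  apply Finset.sum_congr rfl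
  intro g _
  rw [Finset.sum_eq_single (ConjClasses.mk g)]
  · rw [C2.coeff_out B hB, ind, if_pos rfl]
    split_ifs <;> simp
  · intro C _ hC
    rw [ind, if_neg (Ne.symm hC)]
    simp
  · intro h
    exact absurd (Finset.mem_univ _) h

omit [IsAlgClosed k] [CharP k p] in
theorem dvd_nL (z : G → ℤ) (hz : IsCF z) : (Nat.card G : ℤ) ∣ nL p z :=
  ⟨C2.tau p z, C2.nL_eq_tau p z hz⟩

end P179C
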