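import Vale.Agent.P179.H143.CFun

/-! The `p`-regular part of an element. -/

namespace P179C.Q7

open Subgroup P179H524 P179A

section pr

variable (p : ℕ) [hp : Fact p.Prime]

theorem prExp_spec {n : ℕ} (hn : n ≠ 0) :
    ordProj[p] n ∣ prExp p n ∧ prExp p n ≡ 1 [MOD ordCompl[p] n] := by
  classical
  have h : ∃ e : ℕ, ordProj[p] n ∣ e ∧ e ≡ 1 [MOD ordCompl[p] n] := by
    have hcop : Nat.Coprime (ordProj[p] n) (ordCompl[p] n) := by
      exact Nat.Coprime.pow_left _ (Nat.coprime_ordCompl hp.out hn)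
    obtain ⟨e, he1, he2⟩ := Nat.chineseRemainder hcop 0 1
    exact ⟨e, (Nat.modEq_zero_iff_dvd).1 he1, he2⟩
  rw [prExp, dif_pos h]
  exact h.choose_spec

variable {G H : Type*} [Group G] [Group H]

theorem pow_eq_pr (y : G) (hy : orderOf y ≠ 0) (e : ℕ) (h1 : ordProj[p] (orderOf y) ∣ e)
    (h2 : e ≡ 1 [MOD ordCompl[p] (orderOf y)]) : y ^ e = pr p y := by
  obtain ⟨h3, h4⟩ := prExp_spec p hy
  rw [pr, pow_eq_pow_iff_modEq]
  have hcop : Nat.Coprime (ordProj[p] (orderOf y)) (ordCompl[p] (orderOf y)) :=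
    Nat.Coprime.pow_left _ (Nat.coprime_ordCompl hp.out hy)
  have h5 : e ≡ prExp p (orderOf y) [MOD ordProj[p] (orderOf y)] :=
    ((Nat.modEq_zero_iff_dvd).2 h1).trans ((Nat.modEq_zero_iff_dvd).2 h3).symm
  have h6 := (Nat.modEq_and_modEq_iff_modEq_mul hcop).1 ⟨h5, h2.trans h4.symm⟩
  rwa [Nat.ordProj_mul_ordCompl_eq_self] at h6

theorem map_pr (f : G →* H) (y : G) (hy : orderOf y ≠ 0) : f (pr p y) = pr p (f y) := by
  obtain ⟨h3, h4⟩ := prExp_spec p hy
  have hd : orderOf (f y) ∣ orderOf y := orderOf_map_dvd f y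
  have hfy : orderOf (f y) ≠ 0 := ne_zero_of_dvd_ne_zero hy hd
  rw [pr, map_pow]
  apply pow_eq_pr p (f y) hfy
  · exact (Nat.ordProj_dvd_ordProj_of_dvd hy hd p).trans h3
  · exact h4.of_dvd (Nat.ordCompl_dvd_ordCompl_of_dvd hd p)

theorem pr_conj (x y : G) (hy : orderOf y ≠ 0) : pr p (x * y * x⁻¹) = x * pr p y * x⁻¹ := by
  have := map_pr p (MulAut.conj x).toMonoidHom y hy
  simpa using this.symm

theorem pr_regular (y : G) (hy : orderOf y ≠ 0) : ¬ p ∣ orderOf (pr p y) := by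
  obtain ⟨h3, h4⟩ := prExp_spec p hy
  have h1 : orderOf (pr p y) ∣ ordCompl[p] (orderOf y) := by
    apply orderOf_dvd_of_pow_eq_one
    rw [pr, ← pow_mul, ← orderOf_dvd_iff_pow_eq_one]
    conv_lhs => rw [← Nat.ordProj_mul_ordCompl_eq_self (orderOf y) p]
    exact Nat.mul_dvd_mul h3 dvd_rfl
  exact fun h => Nat.not_dvd_ordCompl hp.out hy (h.trans h1)

theorem pr_of_regular (y : G) (hy : orderOf y ≠ 0) (h : ¬ p ∣ orderOf y) : pr p y = y := by
  have h1 : (orderOf y).factorization p = 0 := Nat.factorization_eq_zero_of_not_dvd h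
  rw [← pow_eq_pr p y hy 1]
  · exact pow_one y
  · rw [h1, pow_zero]
  · exact Nat.ModEq.refl 1

end pr

end P179C.Q7
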