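import Vale.Agent.P179.H525.Step1
import Vale.Agent.P179.H143.Words
import Vale.Agent.P179.H524.Pr
import Vale.Agent.P179.H166.NumW

/-! (C3) Sections and characters of defect zero. -/

namespace P179C.C3

open Finset P179H524 Vale.Agent.P179.H525 IsLocalRing

section matrices

variable {K : Type*} [Group K] [Fintype K]
variable {ι : Type*} [Fintype ι] {d : ι → ℕ} (φ : MonoidAlgebra ℂ K ≃ₐ[ℂ] MatAlg d)

theorem exists_y (hd : ∀ i, NeZero (d i)) (O : ValuationSubring ℂ) (i : ι) :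
    ∃ y : MonoidAlgebra O K, y * y = ((Fintype.card K / d i : ℕ) : O) • y ∧
      ∀ (z : K → ℤ) (ω : ℂ),
        ∑ g, (z g : ℂ) • rho φ g i = ω • (1 : Matrix (Fin (d i)) (Fin (d i)) ℂ) →
        ω = ((lin (fun g => ((z g⁻¹ : ℤ) : O)) y : O) : ℂ) := by
  classical
  have hdi : d i ≠ 0 := NeZero.ne (d i)
  have hdiC : (d i : ℂ) ≠ 0 := by exact_mod_cast hdi
  have hK : (Fintype.card K : ℂ) ≠ 0 := by exact_mod_cast Fintype.card_ne_zero
  let a : Fin (d i) := ⟨0, Nat.pos_of_ne_zero hdi⟩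
  let F : K → ℂ := fun g => rho φ g i a a
  obtain ⟨g0, hg0⟩ := Finite.exists_max (fun g => O.valuation (F g))
  have hF1 : F 1 = 1 := by simp [F, rho_one]
  have hF0 : F g0 ≠ 0 := by
    intro h
    have := hg0 1
    rw [h, hF1, map_zero, map_one] at this
    exact absurd this (by simp)
  let E : Matrix (Fin (d i)) (Fin (d i)) ℂ := (F g0)⁻¹ • (rho φ g0 i * Matrix.single a a 1)
  have htr : ∀ g, (E * rho φ g i).trace = (F g0)⁻¹ * F (g * g0) := by
    intro g
    rw [Matrix.smul_mul, Matrix.trace_smul, smul_eq_mul, Matrix.trace_mul_comm, ← Matrix.mul_assoc,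
      trace_mul_single', ← Pi.mul_apply, ← rho_mul]
  have hE : E * E = E := by
    have h1 : rho φ g0 i * Matrix.single a a (1 : ℂ) * (rho φ g0 i * Matrix.single a a (1 : ℂ)) =
        F g0 • (rho φ g0 i * Matrix.single a a (1 : ℂ)) := by
      rw [Matrix.mul_assoc, ← Matrix.mul_assoc _ (rho φ g0 i), single_mul_mul_single',
        Matrix.mul_smul]
    rw [Matrix.smul_mul, Matrix.mul_smul, h1, smul_smul, smul_smul, mul_assoc,
      inv_mul_cancel₀ hF0, mul_one]
  set c : ℕ := Fintype.card K / d i with hc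
  have hcC : (c : ℂ) = Fintype.card K / d i := by
    rw [hc, Nat.cast_div (dvd_card φ hd i) hdiC]
  let x : MonoidAlgebra ℂ K := φ.symm (Pi.single i ((c : ℂ) • E))
  have hφx : φ x = Pi.single i ((c : ℂ) • E) := φ.apply_symm_apply _
  have hx : ∀ g, x.coeff g⁻¹ = (F g0)⁻¹ * F (g * g0) := by
    intro g
    have h1 := coeff_eq φ x g
    rw [Finset.sum_eq_single i] at h1
    · rw [hφx, Pi.single_eq_same, Matrix.smul_mul, Matrix.trace_smul, htr, smul_eq_mul, hcC] at h1
      have h2 : (d i : ℂ) * ((Fintype.card K : ℂ) / d i * ((F g0)⁻¹ * F (g * g0))) =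
          (Fintype.card K : ℂ) * ((F g0)⁻¹ * F (g * g0)) := by
        field_simp
      rw [h2] at h1
      exact mul_left_cancel₀ hK h1
    · intro j _ hj
      rw [hφx, Pi.single_eq_of_ne hj]
      simp
    · simp
  have hxx : x * x = (c : ℂ) • x := by
    apply φ.injective
    rw [map_mul, map_smul, hφx, ← Pi.single_mul, ← Pi.single_smul, Matrix.smul_mul, Matrix.mul_smul,
      hE]
  have hmem : ∀ g, x.coeff g ∈ O := by
    intro g
    have := hx g⁻¹
    rw [inv_inv] at this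
    rw [this, ← ValuationSubring.valuation_le_one_iff, map_mul, map_inv₀]
    have h2 := hg0 (g⁻¹ * g0)
    have h3 : 0 < O.valuation (F g0) := by
      rw [zero_lt_iff]
      exact (Valuation.ne_zero_iff _).mpr hF0
    calc (O.valuation (F g0))⁻¹ * O.valuation (F (g⁻¹ * g0)) ≤
        (O.valuation (F g0))⁻¹ * O.valuation (F g0) := by gcongr
      _ = 1 := inv_mul_cancel₀ h3.ne'
  let y : MonoidAlgebra O K := ∑ g : K, MonoidAlgebra.single g (⟨x.coeff g, hmem g⟩ : O)
  have hy : ∀ g, y.coeff g = (⟨x.coeff g, hmem g⟩ : O) := by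
    intro g
    simp only [y, MonoidAlgebra.coeff_sum, Finsupp.finsetSum_apply, MonoidAlgebra.coeff_single]
    rw [Finset.sum_eq_single g]
    · rw [Finsupp.single_eq_same]
    · intro h _ hne
      rw [Finsupp.single_eq_of_ne (Ne.symm hne)]
    · intro h
      exact absurd (Finset.mem_univ _) h
  have hyx : MonoidAlgebra.mapRingHom K O.subtype y = x := by
    apply MonoidAlgebra.ext
    ext g
    rw [MonoidAlgebra.coeff_mapRingHom, hy]
    rfl
  have hinj : Function.Injective (MonoidAlgebra.mapRingHom K O.subtype) := by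
    intro u v huv
    apply MonoidAlgebra.ext
    ext g
    have h := congrArg (fun w => w.coeff g) huv
    simp only [MonoidAlgebra.coeff_mapRingHom] at h
    exact h
  refine ⟨y, ?_, ?_⟩
  · apply hinj
    rw [map_mul, hyx, hxx]
    apply MonoidAlgebra.ext
    ext g
    rw [MonoidAlgebra.coeff_mapRingHom, MonoidAlgebra.coeff_smul_apply,
      MonoidAlgebra.coeff_smul_apply, hy, smul_eq_mul, smul_eq_mul, map_mul, map_natCast]
    rfl
  · intro z ω hω
    have h1 : ((lin (fun g => ((z g⁻¹ : ℤ) : O)) y : O) : ℂ) = ∑ g, x.coeff g * (z g⁻¹ : ℂ) := by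
      rw [lin]
      push_cast
      apply Finset.sum_congr rfl
      intro g _
      rw [hy]
    have h2 : ∑ g, x.coeff g * (z g⁻¹ : ℂ) = ∑ g, (z g : ℂ) * (E * rho φ g i).trace := by
      rw [← Equiv.sum_comp (Equiv.inv K)]
      apply Finset.sum_congr rfl
      intro g _
      rw [Equiv.inv_apply, inv_inv, hx, htr]
      ring
    have h3 : ∑ g, (z g : ℂ) * (E * rho φ g i).trace = (E * ∑ g, (z g : ℂ) • rho φ g i).trace := by
      rw [Finset.mul_sum, Matrix.trace_sum]
      apply Finset.sum_congr rfl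
      intro g _
      rw [Matrix.mul_smul, Matrix.trace_smul, smul_eq_mul]
    have h4 := htr 1
    rw [rho_one, Pi.one_apply, Matrix.mul_one, one_mul, inv_mul_cancel₀ hF0] at h4
    rw [h1, h2, h3, hω, Matrix.mul_smul, Matrix.mul_one, Matrix.trace_smul, smul_eq_mul, h4,
      mul_one]

omit [Fintype K] in
theorem pow_of_sq {R : Type*} [CommRing R] (y : MonoidAlgebra R K) (c : R) (h : y * y = c • y)
    (m : ℕ) : y ^ (m + 1) = c ^ m • y := by
  induction m with
  | zero => simp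
  | succ m ih => rw [pow_succ, ih, smul_mul_assoc, h, smul_smul, pow_succ]

/-- A large power of `p` as exponent gives the `p`-regular part. -/
theorem exists_pow_eq_pr (p : ℕ) [hp : Fact p.Prime] (G : Type*) [Group G] [Finite G] :
    ∃ m : ℕ, 1 ≤ m ∧ ∀ g : G, g ^ p ^ m = pr p g := by
  set N := Nat.card G with hN
  have hN0 : N ≠ 0 := Nat.card_pos.ne'
  have hc : Nat.Coprime p (ordCompl[p] N) := Nat.coprime_ordCompl hp.out hN0
  set t := Nat.totient (ordCompl[p] N) with ht
  have ht0 : 0 < t := Nat.totient_pos.2 (Nat.ordCompl_pos p hN0)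
  refine ⟨t * N, Nat.mul_pos ht0 (Nat.pos_of_ne_zero hN0), ?_⟩
  intro g
  have hdvd : orderOf g ∣ N := orderOf_dvd_natCard g
  apply Q7.pow_eq_pr p g (orderOf_pos g).ne'
  · apply pow_dvd_pow
    have h1 : (orderOf g).factorization p ≤ N := by
      have h2 := (Nat.factorization_lt p (orderOf_pos g).ne').le
      have h3 : orderOf g ≤ N := Nat.le_of_dvd (Nat.pos_of_ne_zero hN0) hdvd
      exact h2.trans h3
    exact h1.trans (Nat.le_mul_of_pos_left _ ht0)
  · have h1 : ordCompl[p] (orderOf g) ∣ ordCompl[p] N := Nat.ordCompl_dvd_ordCompl_of_dvd hdvd p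
    have h2 : p ^ (t * N) ≡ 1 [MOD ordCompl[p] N] := by
      rw [pow_mul]
      have := (Nat.ModEq.pow_totient hc).pow N
      rwa [one_pow] at this
    exact h2.of_dvd h1

theorem exists_residue (hd : ∀ i, NeZero (d i)) (p : ℕ) [hp : Fact p.Prime]
    (O : ValuationSubring ℂ) [CharP (ResidueField O) p] (i : ι) (z : K → ℤ) (hz : IsCF z) (ω : ℂ)
    (hω : ∑ g, (z g : ℂ) • rho φ g i = ω • (1 : Matrix (Fin (d i)) (Fin (d i)) ℂ)) :
    ∃ (h : ω ∈ O) (x : K → ResidueField O),
      residue O ⟨ω, h⟩ = ∑ g, x g * ((z g⁻¹ : ℤ) : ResidueField O) ∧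
      ∀ n, ((Fintype.card K / d i : ℕ) : ResidueField O) ^ (p ^ n - 1) * residue O ⟨ω, h⟩ =
        ∑ g, x g ^ p ^ n * ((z (g ^ p ^ n)⁻¹ : ℤ) : ResidueField O) := by
  obtain ⟨y, hy1, hy2⟩ := exists_y φ hd O i
  have h1 := hy2 z ω hω
  have hmem : ω ∈ O := by
    rw [h1]
    exact SetLike.coe_mem _
  have h2 : (⟨ω, hmem⟩ : O) = lin (fun g => ((z g⁻¹ : ℤ) : O)) y := Subtype.ext h1
  let x : MonoidAlgebra (ResidueField O) K := MonoidAlgebra.mapRingHom K (residue O) y
  have hx : ∀ g, x.coeff g = residue O (y.coeff g) := fun g =>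
    MonoidAlgebra.coeff_mapRingHom _ _ _
  have h3 : residue O ⟨ω, hmem⟩ = lin (fun g => ((z g⁻¹ : ℤ) : ResidueField O)) x := by
    rw [h2, lin, lin, map_sum]
    apply Finset.sum_congr rfl
    intro g _
    rw [hx, map_mul, map_intCast]
  have hxx : x * x = ((Fintype.card K / d i : ℕ) : ResidueField O) • x := by
    have h4 := congrArg (MonoidAlgebra.mapRingHom K (residue O)) hy1
    rw [map_mul] at h4
    change x * x = _ at h4
    rw [h4]
    apply MonoidAlgebra.ext
    ext g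
    rw [MonoidAlgebra.coeff_mapRingHom, MonoidAlgebra.coeff_smul_apply,
      MonoidAlgebra.coeff_smul_apply, hx, smul_eq_mul, smul_eq_mul, map_mul, map_natCast]
  refine ⟨hmem, x.coeff, h3, ?_⟩
  intro n
  have hN : p ^ n ≠ 0 := pow_ne_zero _ hp.out.ne_zero
  have h5 := lin_pow p n (fun g => ((z g⁻¹ : ℤ) : ResidueField O)) (by
    intro g h
    have h6 : (g * h * g⁻¹)⁻¹ = g * h⁻¹ * g⁻¹ := by group
    simp only [h6, hz g h⁻¹]) x
  rw [← h5]
  obtain ⟨m, hm⟩ : ∃ m, p ^ n = m + 1 := ⟨p ^ n - 1, by omega⟩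
  rw [hm, Nat.add_sub_cancel, pow_of_sq x _ hxx, h3, lin, lin, Finset.mul_sum]
  apply Finset.sum_congr rfl
  intro g _
  rw [MonoidAlgebra.coeff_smul_apply, smul_eq_mul, mul_assoc]

/-- Class functions supported on `p`-singular elements vanish at the characters of defect zero. -/
theorem residue_sing (hd : ∀ i, NeZero (d i)) (p : ℕ) [hp : Fact p.Prime]
    (O : ValuationSubring ℂ) [CharP (ResidueField O) p] (i : ι) (z : K → ℤ) (hz : IsCF z)
    (hz' : ∀ g : K, z g ≠ 0 → p ∣ orderOf g) (hi : ¬ p ∣ Fintype.card K / d i) (ω : ℂ)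
    (hω : ∑ g, (z g : ℂ) • rho φ g i = ω • (1 : Matrix (Fin (d i)) (Fin (d i)) ℂ)) :
    O.valuation ω < 1 := by
  obtain ⟨hmem, x, -, hx⟩ := exists_residue φ hd p O i z hz ω hω
  obtain ⟨m, -, hm⟩ := exists_pow_eq_pr p K
  have h1 := hx m
  rw [Finset.sum_eq_zero] at h1
  · have hc0 : ((Fintype.card K / d i : ℕ) : ResidueField O) ≠ 0 := fun h =>
      hi ((CharP.cast_eq_zero_iff (ResidueField O) p _).mp h)
    have h2 := (mul_eq_zero.1 h1).resolve_left (pow_ne_zero _ hc0)
    rw [residue_eq_zero_iff] at h2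
    exact (O.valuation_lt_one_iff _).mp h2
  · intro g _
    have h3 : z (g ^ p ^ m)⁻¹ = 0 := by
      by_contra h4
      have h5 := hz' _ h4
      rw [orderOf_inv, hm] at h5
      exact Q7.pr_regular p g (orderOf_pos g).ne' h5
    rw [h3, Int.cast_zero, mul_zero]

/-- Class functions which are constant on sections vanish at the characters of positive defect. -/
theorem residue_section (hd : ∀ i, NeZero (d i)) (p : ℕ) [hp : Fact p.Prime]
    (O : ValuationSubring ℂ) [CharP (ResidueField O) p] (i : ι) (z : K → ℤ) (hz : IsCF z)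
    (hz' : ∀ u v : K, u * v = v * u → (∃ n : ℕ, v ^ p ^ n = 1) → z (u * v) = z u)
    (hi : p ∣ Fintype.card K / d i) (ω : ℂ)
    (hω : ∑ g, (z g : ℂ) • rho φ g i = ω • (1 : Matrix (Fin (d i)) (Fin (d i)) ℂ)) :
    O.valuation ω < 1 := by
  obtain ⟨hmem, x, hx1, hx⟩ := exists_residue φ hd p O i z hz ω hω
  obtain ⟨m, hm1, hm⟩ := exists_pow_eq_pr p K
  have h1 := hx m
  have hN : 1 < p ^ m := Nat.one_lt_pow (by omega) hp.out.one_lt
  rw [(CharP.cast_eq_zero_iff (ResidueField O) p _).mpr hi, zero_pow (by omega), zero_mul] at h1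
  have h2 : ∀ g : K, z (g ^ p ^ m)⁻¹ = z g⁻¹ := by
    intro g
    have h3 : (g * (pr p g)⁻¹) ^ p ^ (m * 1) = 1 := by
      have hc : Commute g (pr p g)⁻¹ := by
        rw [pr]
        exact ((Commute.refl g).pow_right _).inv_right
      rw [mul_one, hc.mul_pow, inv_pow, hm, ← hm g, ← pow_mul]
      have h4 : g ^ (p ^ m * p ^ m) = g ^ p ^ m := by
        rw [pow_mul, hm, hm, Q7.pr_of_regular p _ (orderOf_pos _).ne'
          (Q7.pr_regular p g (orderOf_pos g).ne')]
      rw [h4, mul_inv_cancel]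
    have hc : Commute g (pr p g) := by
      rw [pr]
      exact (Commute.refl g).pow_right _
    have h5 := hz' (pr p g)⁻¹ ((g * (pr p g)⁻¹)⁻¹) (by
      have : Commute (pr p g)⁻¹ (g * (pr p g)⁻¹)⁻¹ :=
        ((hc.symm.mul_right (Commute.refl _).inv_right).inv_right).inv_left
      exact this) ⟨m * 1, by rw [inv_pow, h3, inv_one]⟩
    have h6 : (pr p g)⁻¹ * (g * (pr p g)⁻¹)⁻¹ = g⁻¹ := by
      have : Commute (pr p g) g := hc.symm
      rw [mul_inv_rev, inv_inv, ← mul_assoc, inv_mul_cancel, one_mul]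
    rw [h6] at h5
    rw [hm, h5]
  have h7 : (residue O ⟨ω, hmem⟩) ^ p ^ m = 0 := by
    rw [hx1, sum_pow_char_pow, h1]
    apply Finset.sum_congr rfl
    intro g _
    rw [h2, mul_pow]
    congr 1
    have := map_intCast (iterateFrobenius (ResidueField O) p m) (z g⁻¹)
    rwa [iterateFrobenius_def] at this
  have h8 := pow_eq_zero_iff (by omega) |>.mp h7
  rw [residue_eq_zero_iff] at h8
  exact (O.valuation_lt_one_iff _).mp h8

/-- Class functions act by scalars. -/
theorem exists_omega (hd : ∀ i, NeZero (d i)) (z : K → ℤ) (hz : IsCF z) :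
    ∃ ω : ι → ℂ, ∀ i, ∑ g, (z g : ℂ) • rho φ g i =
      ω i • (1 : Matrix (Fin (d i)) (Fin (d i)) ℂ) := by
  refine ⟨fun i => (∑ g, (z g : ℂ) • rho φ g i).trace / d i, fun i =>
    scalar_of_commute φ i _ fun k => ?_⟩
  rw [Finset.mul_sum, Finset.sum_mul]
  refine Finset.sum_bij (fun g _ => k * g * k⁻¹) ?_ ?_ ?_ ?_
  · intro g _
    exact mem_univ _
  · intro g _ g' _ h
    simpa using h
  · intro g _
    exact ⟨k⁻¹ * g * k, mem_univ _, by group⟩
  · intro g _
    rw [hz, mul_smul_comm, smul_mul_assoc, ← Pi.mul_apply, ← Pi.mul_apply, ← rho_mul, ← rho_mul,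
      inv_mul_cancel_right]

theorem comSum_coeff_inv (y : K) : (comSum ℂ K).coeff y⁻¹ = (comSum ℂ K).coeff y := by
  classical
  simp only [comSum, MonoidAlgebra.coeff_sum, Finsupp.finsetSum_apply, MonoidAlgebra.coeff_single,
    Finsupp.single_apply]
  rw [← Equiv.sum_comp (Equiv.prodComm K K)]
  apply Finset.sum_congr rfl
  intro t _
  have h1 : (Equiv.prodComm K K) t = (t.2, t.1) := rfl
  rw [h1]
  have h2 : t.2 * t.1 * t.2⁻¹ * t.1⁻¹ = (t.1 * t.2 * t.1⁻¹ * t.2⁻¹)⁻¹ := by group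
  dsimp only
  rw [h2]
  simp only [inv_inj]

theorem nTr_eq (hd : ∀ i, NeZero (d i)) (z : K → ℤ) (ω : ι → ℂ)
    (hω : ∀ i, ∑ g, (z g : ℂ) • rho φ g i = ω i • (1 : Matrix (Fin (d i)) (Fin (d i)) ℂ)) :
    (nTr z : ℂ) = Fintype.card K * ∑ i, ω i := by
  classical
  have hK : (Fintype.card K : ℂ) ≠ 0 := by exact_mod_cast Fintype.card_ne_zero
  have h1 : (nTr z : ℂ) = ∑ y : K, (z y : ℂ) * (comSum ℂ K).coeff y⁻¹ := by
    rw [nTr, finsum_eq_sum_of_fintype]
    simp only [comSum_coeff_inv]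
    simp only [comSum, MonoidAlgebra.coeff_sum, Finsupp.finsetSum_apply,
      MonoidAlgebra.coeff_single, Finsupp.single_apply, Finset.mul_sum]
    rw [Finset.sum_comm]
    push_cast
    apply Finset.sum_congr rfl
    intro t _
    rw [Finset.sum_eq_single (t.1 * t.2 * t.1⁻¹ * t.2⁻¹)]
    · simp
    · intro y _ hy
      rw [if_neg (Ne.symm hy), mul_zero]
    · intro h
      exact absurd (mem_univ _) h
  apply mul_left_cancel₀ hK
  rw [h1, Finset.mul_sum]
  have h2 : ∀ y : K, (Fintype.card K : ℂ) * ((z y : ℂ) * (comSum ℂ K).coeff y⁻¹) =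
      ∑ i, (d i : ℂ) * ((Fintype.card K : ℂ) / d i) ^ 2 * ((z y : ℂ) * (rho φ y i).trace) := by
    intro y
    rw [mul_left_comm, coeff_eq φ (comSum ℂ K) y, Finset.mul_sum]
    apply Finset.sum_congr rfl
    intro i _
    rw [map_comSum φ hd, Matrix.smul_mul, Matrix.one_mul, Matrix.trace_smul, smul_eq_mul]
    ring
  simp only [h2]
  rw [Finset.sum_comm, Finset.mul_sum, Finset.mul_sum]
  apply Finset.sum_congr rfl
  intro i _
  have hdi : (d i : ℂ) ≠ 0 := by exact_mod_cast (NeZero.ne (d i))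
  have h3 : ∑ y : K, (z y : ℂ) * (rho φ y i).trace = ω i * d i := by
    have h4 := congrArg Matrix.trace (hω i)
    rw [Matrix.trace_sum, Matrix.trace_smul, Matrix.trace_one, Fintype.card_fin, smul_eq_mul] at h4
    rw [← h4]
    apply Finset.sum_congr rfl
    intro y _
    rw [Matrix.trace_smul, smul_eq_mul]
  rw [← Finset.mul_sum, h3]
  field_simp

end matrices

section dz

universe v

variable {K : Type v} [Group K] [Fintype K] {r : ℕ} {d : Fin r → ℕ}

theorem dz_eq (φ : MonoidAlgebra ℂ K ≃ₐ[ℂ] MatAlg d) (hd : ∀ i, NeZero (d i)) (p : ℕ)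
    [hp : Fact p.Prime] (z : K → ℤ) (ω : Fin r → ℂ)
    (hω : ∀ i, ∑ g, (z g : ℂ) • rho φ g i = ω i • (1 : Matrix (Fin (d i)) (Fin (d i)) ℂ)) :
    dz p z = ∑ i with ¬ p ∣ Fintype.card K / d i, ω i := by
  classical
  let f : MonoidAlgebra ℂ K →ₐ[ℂ] Π i, Matrix (Fin (d i)) (Fin (d i)) ℂ := φ.toAlgHom
  have hf : Function.Surjective f := φ.surjective
  have hker : ∀ x, f x = 0 → x ∈ Ring.jacobson (MonoidAlgebra ℂ K) := fun x hx => by
    have h0 : x = 0 := φ.injective (by rw [map_zero]; exact hx)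
    rw [h0]
    exact zero_mem _
  have hfac : ∀ i, ¬ p ∣ Fintype.card K / d i ↔
      (d i).factorization p = (Nat.card K).factorization p := by
    intro i
    rw [Nat.card_eq_fintype_card,
      factorization_eq_iff hp.out (NeZero.ne _) Fintype.card_ne_zero (dvd_card φ hd i)]
  let E : {i : Fin r // ¬ p ∣ Fintype.card K / d i} ≃ {χ : K → ℂ // IsDefectZeroChar p χ} :=
    Equiv.ofBijective (fun i => ⟨(compRep f i.1).character,
      (isIrrChar_iff f hf hker _).2 ⟨i.1, rfl⟩, d i.1, by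
        rw [Representation.char_one]
        simp, (hfac i.1).1 i.2⟩) ⟨by
      intro i j hij
      exact Subtype.ext (character_injective f hf (Subtype.ext_iff.1 hij)), by
      rintro ⟨χ, hχ, n, hn, hn2⟩
      obtain ⟨i, rfl⟩ := (isIrrChar_iff f hf hker _).1 hχ
      rw [Representation.char_one] at hn
      have : d i = n := by
        have h2 : ((d i : ℕ) : ℂ) = n := by simpa using hn
        exact_mod_cast h2
      subst this
      exact ⟨⟨i, (hfac i).2 hn2⟩, rfl⟩⟩
  rw [dz, ← finsum_comp_equiv E, finsum_eq_sum_of_fintype]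
  rw [Finset.sum_subtype (p := fun i => ¬ p ∣ Fintype.card K / d i)]
  · apply Finset.sum_congr rfl
    intro i _
    have hdi : (d i.1 : ℂ) ≠ 0 := by exact_mod_cast (NeZero.ne (d i.1))
    change om (compRep f i.1).character z = ω i.1
    rw [om, finsum_eq_sum_of_fintype]
    have h1 : (compRep f i.1).character 1 = d i.1 := by
      rw [Representation.char_one]
      simp
    have h2 : ∑ g, (z g : ℂ) * (compRep f i.1).character g = ω i.1 * d i.1 := by
      have h4 := congrArg Matrix.trace (hω i.1)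
      rw [Matrix.trace_sum, Matrix.trace_smul, Matrix.trace_one, Fintype.card_fin, smul_eq_mul]
        at h4
      rw [← h4]
      apply Finset.sum_congr rfl
      intro y _
      rw [Matrix.trace_smul, smul_eq_mul, compRep_character]
      rfl
    rw [h1, h2, mul_div_cancel_right₀ _ hdi]
  · intro i
    simp

theorem exists_wedderburn_complex' (K : Type v) [Group K] [Finite K] :
    ∃ (r : ℕ) (d : Fin r → ℕ) (_ : ∀ i, NeZero (d i)),
      Nonempty (MonoidAlgebra ℂ K ≃ₐ[ℂ] Π i, Matrix (Fin (d i)) (Fin (d i)) ℂ) := by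
  have := Fintype.ofFinite K
  have : NeZero (Nat.card K : ℂ) := ⟨by exact_mod_cast Nat.card_pos.ne'⟩
  have : Module.Finite ℂ (MonoidAlgebra ℂ K) := Module.Finite.of_basis (MonoidAlgebra.basis K ℂ)
  obtain ⟨n, d, hd, h⟩ :=
    IsSemisimpleRing.exists_algEquiv_pi_matrix_of_isAlgClosed ℂ (MonoidAlgebra ℂ K)
  exact ⟨n, d, hd, h⟩

end dz

end P179C.C3

namespace P179C

open P179H524 P179A Finset

universe u

/-- (C3a) Sections. -/
theorem sec_cong (p : ℕ) [Fact p.Prime] (O : ValuationSubring ℂ)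
    [CharP (IsLocalRing.ResidueField O) p] {K : Type u} [Group K] [Finite K]
    (z : K → ℤ) (hz : IsCF z)
    (hz' : ∀ u v : K, u * v = v * u → (∃ n : ℕ, v ^ p ^ n = 1) → z (u * v) = z u) :
    Cong O (Nat.card K) (nTr z) (Nat.card K * dz p z) := by
  classical
  have := Fintype.ofFinite K
  obtain ⟨r, d, hd, ⟨φ⟩⟩ := C3.exists_wedderburn_complex' K
  obtain ⟨ω, hω⟩ := C3.exists_omega φ hd z hz
  have hK : (Nat.card K : ℂ) ≠ 0 := by exact_mod_cast Nat.card_pos.ne'
  rw [Cong, C3.nTr_eq φ hd z ω hω, C3.dz_eq φ hd p z ω hω, ← Nat.card_eq_fintype_card (α := K),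
    ← mul_sub, mul_div_cancel_left₀ _ hK]
  have h1 : ∑ i, ω i - ∑ i with ¬ p ∣ Nat.card K / d i, ω i =
      ∑ i with p ∣ Nat.card K / d i, ω i := by
    rw [← Finset.sum_filter_add_sum_filter_not Finset.univ (fun i => p ∣ Nat.card K / d i),
      add_sub_cancel_right]
  rw [h1]
  apply valuation_sum_lt
  intro i hi
  rw [Finset.mem_filter, Nat.card_eq_fintype_card] at hi
  exact C3.residue_section φ hd p O i z hz hz' hi.2 (ω i) (hω i)

/-- (C3b) Characters of defect zero vanish on `p`-singular classes. -/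
theorem dz_sing (p : ℕ) [Fact p.Prime] (O : ValuationSubring ℂ)
    [CharP (IsLocalRing.ResidueField O) p] {K : Type u} [Group K] [Finite K]
    (z : K → ℤ) (hz : IsCF z) (hz' : ∀ g : K, z g ≠ 0 → p ∣ orderOf g) :
    Cong O 1 (dz p z) 0 := by
  classical
  have := Fintype.ofFinite K
  obtain ⟨r, d, hd, ⟨φ⟩⟩ := C3.exists_wedderburn_complex' K
  obtain ⟨ω, hω⟩ := C3.exists_omega φ hd z hz
  rw [Cong, C3.dz_eq φ hd p z ω hω, sub_zero, Nat.cast_one, div_one]
  apply valuation_sum_lt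
  intro i hi
  exact C3.residue_sing φ hd p O i z hz hz' (Finset.mem_filter.1 hi).2 (ω i) (hω i)

/-- (C3c) `dz p z` is integral. -/
theorem dz_mem (p : ℕ) [Fact p.Prime] (O : ValuationSubring ℂ) {K : Type u} [Group K] [Finite K]
    (z : K → ℤ) (hz : IsCF z) : dz p z ∈ O := by
  have := Fintype.ofFinite {χ : K → ℂ // IsDefectZeroChar p χ}
  rw [dz, finsum_eq_sum_of_fintype]
  apply sum_mem
  intro χ _
  have h1 := isIntegral_om χ.2.1 hz
  have h2 : IsIntegral O (om χ.1 z) := h1.tower_top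
  obtain ⟨y, hy⟩ := (IsIntegrallyClosed.isIntegral_iff (R := O) (K := ℂ)).1 h2
  rw [← hy]
  exact SetLike.coe_mem y

end P179C
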