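import Vale.Agent.P179.H524.Wr3
import Vale.Agent.P179.H905.Ord

/-!
# Theorem R, weight side: weights as functions on the group
-/

namespace P179R

open Subgroup P179H524 P179C P179A P179P

open scoped Classical

/-- a weight `(R, χ)`: `χ` is a function on `G`, zero outside of `N_G(R)`, whose restriction to
`N_G(R)` is the inflation of a defect zero character of `N_G(R)/R` -/
structure WF (p : ℕ) (G : Type) [Group G] where
  R : Subgroup G
  χ : G → ℂ
  pgp : IsPGroup p R
  supp : ∀ x, x ∉ normalizer (R : Set G) → χ x = 0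
  irr : IsIrrChar (fun n : normalizer (R : Set G) => χ n)
  triv : ∀ r ∈ R, ∀ x, χ (x * r) = χ x
  dz : ∃ d : ℕ, χ 1 = d ∧
    (d * Nat.card R).factorization p = (Nat.card (normalizer (R : Set G))).factorization p

/-- conjugacy -/
def WF.Rel {p : ℕ} {G : Type} [Group G] (a b : WF p G) : Prop :=
  ∃ g : G, (∀ x, x ∈ b.R ↔ g⁻¹ * x * g ∈ a.R) ∧ ∀ x, b.χ x = a.χ (g⁻¹ * x * g)

/-- the weight lies in the central idempotent `e` -/
def WF.In {p : ℕ} {k : Type*} [Field k] (red : integralClosure ℤ ℂ →+* k) {G : Type} [Group G]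
    (w : WF p G) (e : MonoidAlgebra k G) : Prop :=
  lam red (fun n : normalizer (w.R : Set G) => w.χ n)
    (fun n : normalizer (w.R : Set G) => e.coeff n) = 1

/-- the number of classes of weights in `e` -/
noncomputable def numW (p : ℕ) {k : Type*} [Field k] (red : integralClosure ℤ ℂ →+* k) {G : Type} [Group G]
    (e : MonoidAlgebra k G) : ℕ :=
  Nat.card (Quot fun a b : {w : WF p G // w.In red e} => WF.Rel a.1 b.1)

end P179R
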