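import Vale.Agent.P179.H526.KY

/-!
# Conjugacy of the defect groups of Brauer pairs (abelian case)
-/

namespace P179Y

open Subgroup Finset P179H524 P179C P179A P179P

open scoped Classical

section Cent

variable {G : Type*} [Group G]

theorem conj_mem_centralizer {D : Subgroup G} {n : G} (hn : n ∈ normalizer (D : Set G)) {x : G}
    (hx : x ∈ centralizer (D : Set G)) : n * x * n⁻¹ ∈ centralizer (D : Set G) :=
  (conj_mem_cent hn x).2 hx

end Cent

section IndM

variable (k : Type*) [Field k] {G : Type*} [Group G]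

/-- indicator of a conjugacy class of `M`, on `G` -/
noncomputable def indM (M : Subgroup G) (κ : ConjClasses M) : G → k :=
  fun g => if h : g ∈ M then (if ConjClasses.mk (⟨g, h⟩ : M) = κ then 1 else 0) else 0

theorem indM_invOn (M : Subgroup G) (κ : ConjClasses M) : InvOn M (indM k M κ) := by
  constructor
  · intro h hh x
    unfold indM
    by_cases hx : x ∈ M
    · have hx' : h * x * h⁻¹ ∈ M := mul_mem (mul_mem hh hx) (inv_mem hh)
      rw [dif_pos hx, dif_pos hx']
      have : ConjClasses.mk (⟨h * x * h⁻¹, hx'⟩ : M) = ConjClasses.mk (⟨x, hx⟩ : M) := by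
        rw [ConjClasses.mk_eq_mk_iff_isConj]
        exact (isConj_iff.2 ⟨⟨h, hh⟩, rfl⟩ : IsConj (⟨x, hx⟩ : M) _).symm
      rw [this]
    · have hx' : h * x * h⁻¹ ∉ M := by
        intro h1
        apply hx
        have := mul_mem (mul_mem (inv_mem hh) h1) hh
        have e1 : h⁻¹ * (h * x * h⁻¹) * h = x := by group
        rwa [e1] at this
      rw [dif_neg hx, dif_neg hx']
  · intro x hx
    unfold indM
    rw [dif_neg hx]

variable {k} in
theorem sum_indM (M : Subgroup G) [Fintype (ConjClasses M)] {y : G → k}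
    (hy : ∀ m ∈ M, ∀ x, y (m * x * m⁻¹) = y x) {x : G} (hx : x ∈ M) :
    y x = (∑ κ : ConjClasses M, y (κ.out : M) • indM k M κ) x := by
  rw [Finset.sum_apply, Finset.sum_eq_single (ConjClasses.mk (⟨x, hx⟩ : M))]
  · unfold indM
    simp only [Pi.smul_apply, smul_eq_mul, dif_pos hx, if_true, mul_one]
    have h1 : ConjClasses.mk (ConjClasses.mk (⟨x, hx⟩ : M)).out = ConjClasses.mk (⟨x, hx⟩ : M) :=
      Quot.out_eq _
    obtain ⟨c, hc⟩ := isConj_iff.1 (ConjClasses.mk_eq_mk_iff_isConj.1 h1)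
    have h2 := hy c c.2 ((ConjClasses.mk (⟨x, hx⟩ : M)).out : M)
    have h3 : (c : G) * ((ConjClasses.mk (⟨x, hx⟩ : M)).out : M) * (c : G)⁻¹ = x :=
      congrArg Subtype.val hc
    rw [h3] at h2
    exact h2
  · intro κ _ hκ
    unfold indM
    simp only [Pi.smul_apply, smul_eq_mul, dif_pos hx, if_neg (Ne.symm hκ), mul_zero]
  · intro h; exact absurd (mem_univ _) h

/-- conjugation by an element of the normaliser on the centraliser -/
def cjM {R : Subgroup G} (n : G) (hn : n ∈ normalizer (R : Set G)) :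
    centralizer (R : Set G) →* centralizer (R : Set G) where
  toFun m := ⟨n * m * n⁻¹, conj_mem_centralizer hn m.2⟩
  map_one' := Subtype.ext (by simp)
  map_mul' a b := Subtype.ext (by simp [mul_assoc])

theorem cjM_mul {R : Subgroup G} {a b : G} (ha : a ∈ normalizer (R : Set G))
    (hb : b ∈ normalizer (R : Set G)) {c : G} (hc : c = a * b) (hc' : c ∈ normalizer (R : Set G))
    (κ : ConjClasses (centralizer (R : Set G))) :
    ConjClasses.map (cjM c hc') κ = ConjClasses.map (cjM a ha) (ConjClasses.map (cjM b hb) κ) := by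
  subst hc
  induction κ using Quotient.inductionOn with
  | h x =>
    change ConjClasses.mk _ = ConjClasses.mk _
    congr 1
    apply Subtype.ext
    change (a * b) * x * (a * b)⁻¹ = a * (b * x * b⁻¹) * a⁻¹
    group

theorem cjM_one {R : Subgroup G} {c : G} (hc : c = 1) (hc' : c ∈ normalizer (R : Set G))
    (κ : ConjClasses (centralizer (R : Set G))) : ConjClasses.map (cjM c hc') κ = κ := by
  subst hc
  induction κ using Quotient.inductionOn with
  | h x =>
    change ConjClasses.mk _ = ConjClasses.mk _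
    congr 1
    apply Subtype.ext
    change 1 * (x : G) * 1⁻¹ = x
    group

theorem cjM_inj {R : Subgroup G} {a : G} (ha : a ∈ normalizer (R : Set G))
    {κ κ' : ConjClasses (centralizer (R : Set G))}
    (h : ConjClasses.map (cjM a ha) κ = ConjClasses.map (cjM a ha) κ') : κ = κ' := by
  have h1 := congrArg (ConjClasses.map (cjM a⁻¹ (inv_mem ha))) h
  rw [← cjM_mul (inv_mem ha) ha (c := 1) (by group) (one_mem _),
    ← cjM_mul (inv_mem ha) ha (c := 1) (by group) (one_mem _), cjM_one rfl, cjM_one rfl] at h1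
  exact h1

theorem indM_conj {R : Subgroup G} {n : G} (hn : n ∈ normalizer (R : Set G))
    (κ : ConjClasses (centralizer (R : Set G))) :
    indM k (centralizer (R : Set G)) (ConjClasses.map (cjM n hn) κ) =
      fun x => indM k (centralizer (R : Set G)) κ (n⁻¹ * x * n) := by
  funext x
  have hqi : n⁻¹ * x * n ∈ centralizer (R : Set G) ↔ x ∈ centralizer (R : Set G) := by
    constructor
    · intro hx
      have := conj_mem_centralizer hn hx
      have e1 : n * (n⁻¹ * x * n) * n⁻¹ = x := by group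
      rwa [e1] at this
    · intro hx
      have := conj_mem_centralizer (inv_mem hn) hx
      rwa [inv_inv] at this
  unfold indM
  by_cases hx : x ∈ centralizer (R : Set G)
  · rw [dif_pos hx, dif_pos (hqi.2 hx)]
    have h4 : cjM n hn (⟨n⁻¹ * x * n, hqi.2 hx⟩ : centralizer (R : Set G)) = ⟨x, hx⟩ := by
      apply Subtype.ext
      change n * (n⁻¹ * x * n) * n⁻¹ = x
      group
    have h5 : ConjClasses.mk (⟨x, hx⟩ : centralizer (R : Set G)) =
        ConjClasses.map (cjM n hn) (ConjClasses.mk (⟨n⁻¹ * x * n, hqi.2 hx⟩ :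
          centralizer (R : Set G))) := by
      rw [← h4]; rfl
    by_cases hk : ConjClasses.mk (⟨n⁻¹ * x * n, hqi.2 hx⟩ : centralizer (R : Set G)) = κ
    · rw [if_pos hk, if_pos]
      rw [h5, hk]
    · rw [if_neg hk, if_neg]
      intro h
      rw [h5] at h
      exact hk (cjM_inj hn h)
  · rw [dif_neg hx, dif_neg (fun h => hx (hqi.1 h))]

end IndM

section PEl

variable {p : ℕ} [hp : Fact p.Prime] {G : Type*} [Group G] [Finite G]

omit [Finite G] in
theorem mem_of_pow_mem {M : Subgroup G} {z : G} (hz : ∃ n : ℕ, z ^ p ^ n = 1) {n : ℕ}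
    (hn : ¬ p ∣ n) (hzn : z ^ n ∈ M) : z ∈ M := by
  obtain ⟨a, ha⟩ := hz
  have h1 : orderOf z ∣ p ^ a := orderOf_dvd_of_pow_eq_one ha
  obtain ⟨b, -, hb⟩ := (Nat.dvd_prime_pow hp.out).1 h1
  have h2 : Nat.Coprime n (orderOf z) := by
    rw [hb]
    exact (Nat.Coprime.pow_left _ ((Nat.Prime.coprime_iff_not_dvd hp.out).2 hn)).symm
  obtain ⟨r, hr⟩ := exists_pow_eq_self_of_coprime h2
  rw [← hr]
  exact pow_mem hzn r

omit [Finite G] hp in
theorem isPGroup_zpowers {z : G} (hz : ∃ n : ℕ, z ^ p ^ n = 1) : IsPGroup p (zpowers z) := by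
  obtain ⟨a, ha⟩ := hz
  rintro ⟨x, hx⟩
  obtain ⟨j, rfl⟩ := mem_zpowers_iff.1 hx
  refine ⟨a, Subtype.ext ?_⟩
  change (z ^ j) ^ p ^ a = 1
  rw [← zpow_natCast, ← zpow_mul, mul_comm, zpow_mul, zpow_natCast, ha, one_zpow]

omit [Finite G] hp in
theorem pow_pr_eq (x : G) (n : ℕ) (hn : P179C.pr p x ^ n = 1) : x ^ n = P179X.pp p x ^ n := by
  have h1 : Commute (P179X.pp p x) (P179C.pr p x) := pp_comm x
  conv_lhs => rw [← pp_mul_pr (p := p) x]
  rw [h1.mul_pow, hn, mul_one]

/-- a `p`-element in `T` outside of the normal subgroup `M` -/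
theorem exists_pel {M T : Subgroup G} (hMn : (M.subgroupOf T).Normal) (hdvd : p ∣ M.relIndex T) :
    ∃ τ ∈ T, τ ∉ M ∧ ∃ n : ℕ, τ ^ p ^ n = 1 := by
  have hcard : Nat.card (T ⧸ M.subgroupOf T) = M.relIndex T := rfl
  obtain ⟨q, hq⟩ := exists_prime_orderOf_dvd_card' (G := T ⧸ M.subgroupOf T) p (hcard ▸ hdvd)
  obtain ⟨t0, rfl⟩ := QuotientGroup.mk'_surjective _ q
  have hpow : ∀ n : ℕ, ((t0 : G) ^ n ∈ M ↔ p ∣ n) := by
    intro n
    rw [← hq, orderOf_dvd_iff_pow_eq_one, ← map_pow]
    change _ ↔ ((t0 ^ n : T) : T ⧸ M.subgroupOf T) = 1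
    rw [QuotientGroup.eq_one_iff, mem_subgroupOf]
    rfl
  refine ⟨P179X.pp p (t0 : G), ?_, ?_, pp_pow_eq_one (p := p) (t0 : G)⟩
  · unfold P179X.pp
    exact mul_mem t0.2 (inv_mem (pow_mem t0.2 _))
  · intro h
    have hreg : ¬ p ∣ orderOf (P179C.pr p (t0 : G)) := pr_regular' (t0 : G)
    apply hreg
    rw [← hpow]
    rw [pow_pr_eq (t0 : G) _ (pow_orderOf_eq_one _)]
    exact pow_mem h _

/-- fixed classes -/
theorem exists_pgroup_fixed {R : Subgroup G} (hR : IsPGroup p R) {τ : G}
    (hτN : τ ∈ normalizer (R : Set G)) (hτM : τ ∉ centralizer (R : Set G))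
    (hτp : ∃ n : ℕ, τ ^ p ^ n = 1) {m x : G} (hm : m ∈ centralizer (R : Set G))
    (hx : x ∈ centralizer (R : Set G)) (hmx : m * x * m⁻¹ = τ * x * τ⁻¹) :
    ∃ P : Subgroup G, IsPGroup p P ∧ P ≤ centralizer {x} ∧ R ≤ P ∧
      ∃ z ∈ P, z ∉ centralizer (R : Set G) := by
  set w : G := m⁻¹ * τ with hw
  have hcn : ∀ m ∈ centralizer (R : Set G), m ∈ normalizer (R : Set G) := by
    intro m hmr
    rw [mem_normalizer_iff]
    intro r
    rw [mem_centralizer_iff] at hmr
    constructor
    · intro hr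
      rw [← hmr r hr, mul_inv_cancel_right]
      exact hr
    · intro hr
      have h2 := hmr _ hr
      have h3 : m * r = m * (m * r * m⁻¹) := by
        rw [← h2, mul_assoc, inv_mul_cancel, mul_one]
      rw [mul_left_cancel h3]
      exact hr
  have hwT : w ∈ normalizer (R : Set G) := mul_mem (inv_mem (hcn m hm)) hτN
  have hwx : w * x = x * w := by
    have h2 : τ * x = m * x * m⁻¹ * τ := by rw [hmx]; group
    rw [hw, mul_assoc, h2]; group
  set z : G := P179X.pp p w with hz
  have hzx : z * x = x * z := by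
    have h2 : Commute w x := hwx
    have h3 : Commute (w * (P179C.pr p w)⁻¹) x := h2.mul_left ((h2.pow_left _).inv_left)
    exact h3
  have hzN' : z ∈ normalizer (R : Set G) := by
    rw [hz]
    unfold P179X.pp
    exact mul_mem hwT (inv_mem (pow_mem hwT _))
  have hzM : z ∉ centralizer (R : Set G) := by
    intro h
    have hreg : ¬ p ∣ orderOf (P179C.pr p w) := pr_regular' w
    have h2 : w ^ orderOf (P179C.pr p w) = z ^ orderOf (P179C.pr p w) :=
      pow_pr_eq w _ (pow_orderOf_eq_one _)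
    have h4 : w ^ orderOf (P179C.pr p w) ∈ centralizer (R : Set G) := h2 ▸ pow_mem h _
    have h5 : ∀ n : ℕ, (w ^ n)⁻¹ * τ ^ n ∈ centralizer (R : Set G) := by
      intro n
      induction n with
      | zero => simp [one_mem]
      | succ n ih =>
        have e1 : (w ^ (n + 1))⁻¹ * τ ^ (n + 1) =
            (τ⁻¹ * m * τ) * (τ⁻¹ * ((w ^ n)⁻¹ * τ ^ n) * τ) := by
          rw [pow_succ w, pow_succ τ, mul_inv_rev]
          have : w⁻¹ = τ⁻¹ * m := by rw [hw]; group
          rw [this]; group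
        rw [e1]
        have hi : ∀ y ∈ centralizer (R : Set G), τ⁻¹ * y * τ ∈ centralizer (R : Set G) := by
          intro y hy
          have := conj_mem_centralizer (inv_mem hτN) hy
          rwa [inv_inv] at this
        exact mul_mem (hi _ hm) (hi _ ih)
    have h6 : τ ^ orderOf (P179C.pr p w) ∈ centralizer (R : Set G) := by
      have := mul_mem h4 (h5 (orderOf (P179C.pr p w)))
      rwa [mul_inv_cancel_left] at this
    exact hτM (mem_of_pow_mem hτp hreg h6)
  have hsup : IsPGroup p (zpowers z ⊔ R : Subgroup G) :=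
    IsPGroup.to_sup_of_normal_right' (isPGroup_zpowers (pp_pow_eq_one (p := p) w)) hR (by
      rw [zpowers_le]
      exact hzN')
  refine ⟨_, hsup, ?_, le_sup_right, z, mem_sup_left (mem_zpowers z), hzM⟩
  rw [sup_le_iff, zpowers_le]
  constructor
  · exact mem_centralizer_singleton_iff.2 hzx
  · intro r hr
    rw [mem_centralizer_singleton_iff]
    rw [mem_centralizer_iff] at hx
    exact hx r hr

end PEl

section FD

variable {p : ℕ} [hp : Fact p.Prime] {k : Type*} [Field k] [CharP k p] {G : Type*} [Group G]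
  [Fintype G]

/-- (FD, step 2) -/
theorem stab_index_coprime' {R : Subgroup G} {l2 : (G → k) → k} (hl2 : BP p R l2)
    (hR : IsPGroup p R) {y : G → k} (hy : IsCF y)
    (hyD : ∀ x, y x ≠ 0 → ∀ P : Subgroup G, IsPGroup p P → P ≤ centralizer {x} →
      ∀ a ∈ P, ∀ b ∈ P, a * b = b * a) (hly : l2 y ≠ 0) :
    ¬ p ∣ (centralizer (R : Set G)).relIndex (stabT R l2) := by
  have hTN : ∀ t ∈ stabT R l2, t ∈ normalizer (R : Set G) := fun t ht => ht.1
  intro hdvd
  have hMn : ((centralizer (R : Set G)).subgroupOf (stabT R l2)).Normal := by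
    refine ⟨fun c hc x => ?_⟩
    rw [mem_subgroupOf] at hc ⊢
    exact conj_mem_centralizer (hTN _ x.2) hc
  obtain ⟨τ, hτT, hτM, hτp⟩ := exists_pel hMn hdvd
  -- the action on the conjugacy classes of `M`
  have := Fintype.ofFinite (ConjClasses (centralizer (R : Set G)))
  have hzT : ∀ q : zpowers τ, (q : G) ∈ stabT R l2 := by
    rintro ⟨q, hq⟩
    obtain ⟨n, rfl⟩ := mem_zpowers_iff.1 hq
    exact zpow_mem hτT n
  have hzN : ∀ q : zpowers τ, (q : G) ∈ normalizer (R : Set G) := fun q => hTN _ (hzT q)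
  let φ : zpowers τ →* Equiv.Perm (ConjClasses (centralizer (R : Set G))) :=
    { toFun := fun q => ⟨ConjClasses.map (cjM q (hzN q)), ConjClasses.map (cjM _ (hzN q⁻¹)),
        fun κ => by
          rw [← cjM_mul (hzN q⁻¹) (hzN q) (c := 1) (by push_cast; group) (one_mem _),
            cjM_one rfl], fun κ => by
          rw [← cjM_mul (hzN q) (hzN q⁻¹) (c := 1) (by push_cast; group) (one_mem _),
            cjM_one rfl]⟩
      map_one' := Equiv.ext fun κ => cjM_one (by simp) _ κ
      map_mul' := fun a b => Equiv.ext fun κ => cjM_mul (hzN a) (hzN b) (by simp) _ κ }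
  have hφ : ∀ (q : zpowers τ) (κ : ConjClasses (centralizer (R : Set G))),
      φ q κ = ConjClasses.map (cjM (q : G) (hzN q)) κ := fun _ _ => rfl
  -- values
  have hyout : ∀ κ : ConjClasses (centralizer (R : Set G)), ∀ x : centralizer (R : Set G),
      ConjClasses.mk x = κ → y x = y (κ.out : centralizer (R : Set G)) := by
    intro κ x hx
    have h1 : ConjClasses.mk x = ConjClasses.mk κ.out := by
      rw [hx]; exact (Quot.out_eq _).symm
    obtain ⟨c, hc⟩ := isConj_iff.1 (ConjClasses.mk_eq_mk_iff_isConj.1 h1)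
    rw [← hc]
    exact (hy c x).symm
  have hsum : l2 y = ∑ κ : ConjClasses (centralizer (R : Set G)),
      y (κ.out : centralizer (R : Set G)) * l2 (indM k (centralizer (R : Set G)) κ) := by
    have h1 : l2 y = l2 (∑ κ : ConjClasses (centralizer (R : Set G)),
        y (κ.out : centralizer (R : Set G)) • indM k (centralizer (R : Set G)) κ) :=
      hl2.congr fun x hx => sum_indM _ (fun m _ x => hy m x) hx
    rw [h1, hl2.sum]
    exact Finset.sum_congr rfl fun κ _ => hl2.smul _ _
  apply hly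
  rw [hsum]
  refine sum_eq_zero_of_perm p (isPGroup_zpowers hτp) φ _ ?_ ?_
  · intro q κ
    have e1 : y ((φ q κ).out : centralizer (R : Set G)) =
        y (κ.out : centralizer (R : Set G)) := by
      have h1 : ConjClasses.mk (cjM (q : G) (hzN q) κ.out) = φ q κ := by
        have h2 : ConjClasses.mk κ.out = κ := Quot.out_eq _
        conv_rhs => rw [← h2]
        rfl
      rw [← hyout _ _ h1]
      exact hy q _
    have e2 : l2 (indM k (centralizer (R : Set G)) (φ q κ)) =
        l2 (indM k (centralizer (R : Set G)) κ) := by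
      rw [hφ, indM_conj]
      exact (hzT q).2 _ (indM_invOn k (centralizer (R : Set G)) κ)
    rw [e1, e2]
  · intro κ hκ
    by_contra hne
    have hyx : y (κ.out : centralizer (R : Set G)) ≠ 0 := left_ne_zero_of_mul hne
    have h1 : ConjClasses.mk (cjM τ (hTN τ hτT) κ.out) = ConjClasses.mk κ.out := by
      have h2 : ConjClasses.mk κ.out = κ := Quot.out_eq _
      have h3 := hκ ⟨τ, mem_zpowers τ⟩
      rw [← h2] at h3
      exact h3
    obtain ⟨m, hm⟩ := isConj_iff.1 (ConjClasses.mk_eq_mk_iff_isConj.1 h1).symm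
    have hm' : (m : G) * (κ.out : centralizer (R : Set G)) * (m : G)⁻¹ =
      τ * (κ.out : centralizer (R : Set G)) * τ⁻¹ := congrArg Subtype.val hm
    obtain ⟨P, hP, hPx, hRP, z, hzP, hzM⟩ := exists_pgroup_fixed hR (hTN τ hτT) hτM hτp m.2
      κ.out.2 hm'
    apply hzM
    rw [mem_centralizer_iff]
    intro r hr
    exact hyD _ hyx P hP hPx r (hRP hr) z hzP

omit hp [CharP k p] [Fintype G] in
theorem SuppIn.comm {D : Subgroup G} (hDab : ∀ a ∈ D, ∀ b ∈ D, a * b = b * a) {y : G → k}
    (hyD : SuppIn p D y) : ∀ x, y x ≠ 0 → ∀ P : Subgroup G, IsPGroup p P → P ≤ centralizer {x} →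
      ∀ a ∈ P, ∀ b ∈ P, a * b = b * a := by
  intro x hx P hP hPx r hr z hz
  obtain ⟨g, hg⟩ := hyD x hx P hP hPx
  have h7 := hDab _ (hg r hr) _ (hg z hz)
  have h8 : g⁻¹ * r * g * (g⁻¹ * z * g) = g⁻¹ * (r * z) * g := by group
  have h9 : g⁻¹ * z * g * (g⁻¹ * r * g) = g⁻¹ * (z * r) * g := by group
  rw [h8, h9] at h7
  exact mul_left_cancel (mul_right_cancel h7)

/-- (FD, step 2) -/
theorem stab_index_coprime {D R : Subgroup G} {l2 : (G → k) → k} (hl2 : BP p R l2)
    (hR : IsPGroup p R) (hDab : ∀ a ∈ D, ∀ b ∈ D, a * b = b * a) {y : G → k} (hy : IsCF y)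
    (hyD : SuppIn p D y) (hly : l2 y ≠ 0) :
    ¬ p ∣ (centralizer (R : Set G)).relIndex (stabT R l2) :=
  stab_index_coprime' hl2 hR hy (hyD.comm hDab) hly

/-- **(FD)** the defect groups of two Brauer pairs with the same functional on class functions
are conjugate -/
theorem FD {D R : Subgroup G} {l l2 : (G → k) → k} (hl : BP p D l) (hD : IsPGroup p D)
    (hDab : ∀ a ∈ D, ∀ b ∈ D, a * b = b * a)
    (hDe : ¬ p ∣ (centralizer (D : Set G)).relIndex (normalizer (D : Set G)))
    (hl2 : BP p R l2) (hR : IsPGroup p R) (hll : ∀ z, IsCF z → l2 z = l z) :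
    ∃ g : G, ∀ x, x ∈ R ↔ g⁻¹ * x * g ∈ D := by
  have hab : ∀ D : Subgroup G, (∀ a ∈ D, ∀ b ∈ D, a * b = b * a) →
      D ≤ centralizer (D : Set G) := by
    intro D h x hx
    rw [mem_centralizer_iff]
    intro y hy
    exact h y hy x hx
  obtain ⟨y, hy, hyD, hly⟩ := exists_Y hl hD (hab D hDab)
    (fun h => hDe (h.trans (relIndex_stabT_dvd D l)))
  have hly2 : l2 y ≠ 0 := by rw [hll y hy]; exact hly
  have hcent : ∀ (Q : Subgroup G) (l' : (G → k) → k) (hl' : BP p Q l') (z : G → k), l' z ≠ 0 →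
      ∃ x, z x ≠ 0 ∧ Q ≤ centralizer {x} := by
    intro Q l' hl' z hz
    by_contra hcon
    push Not at hcon
    apply hz
    refine hl'.supp z fun x hx => ?_
    by_contra hx0
    apply hcon x hx0
    intro r hr
    rw [mem_centralizer_singleton_iff]
    rw [mem_centralizer_iff] at hx
    exact hx r hr
  obtain ⟨x, hx, hRx⟩ := hcent R l2 hl2 y hly2
  obtain ⟨g, hg⟩ := hyD x hx R hR hRx
  have hRab : ∀ a ∈ R, ∀ b ∈ R, a * b = b * a := by
    intro a ha b hb
    have h7 := hDab _ (hg a ha) _ (hg b hb)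
    have h8 : g⁻¹ * a * g * (g⁻¹ * b * g) = g⁻¹ * (a * b) * g := by group
    have h9 : g⁻¹ * b * g * (g⁻¹ * a * g) = g⁻¹ * (b * a) * g := by group
    rw [h8, h9] at h7
    exact mul_left_cancel (mul_right_cancel h7)
  have hT2 := stab_index_coprime hl2 hR hDab hy hyD hly2
  obtain ⟨y', hy', hyR, hly'⟩ := exists_Y hl2 hR (hab R hRab) hT2
  have hly'2 : l y' ≠ 0 := by rw [← hll y' hy']; exact hly'
  obtain ⟨x', hx', hDx'⟩ := hcent D l hl y' hly'2
  obtain ⟨g', hg'⟩ := hyR x' hx' D hD hDx'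
  -- orders
  have hfin : Finite G := inferInstance
  let f : R → D := fun r => ⟨g⁻¹ * r * g, hg r r.2⟩
  have hf : Function.Injective f := by
    intro a b hab
    have h1 := congrArg Subtype.val hab
    exact Subtype.ext (mul_left_cancel (mul_right_cancel h1))
  let f' : D → R := fun r => ⟨g'⁻¹ * r * g', hg' r r.2⟩
  have hf' : Function.Injective f' := by
    intro a b hab
    have h1 := congrArg Subtype.val hab
    exact Subtype.ext (mul_left_cancel (mul_right_cancel h1))
  have hcard : Nat.card R = Nat.card D :=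
    le_antisymm (Nat.card_le_card_of_injective f hf) (Nat.card_le_card_of_injective f' hf')
  have hbij : Function.Bijective f := (Nat.bijective_iff_injective_and_card f).2 ⟨hf, hcard⟩
  refine ⟨g, fun x => ⟨fun hx => hg x hx, fun hx => ?_⟩⟩
  obtain ⟨r, hr⟩ := hbij.2 ⟨_, hx⟩
  have h1 : g⁻¹ * (r : G) * g = g⁻¹ * x * g := congrArg Subtype.val hr
  have h2 : (r : G) = x := mul_left_cancel (mul_right_cancel h1)
  exact h2 ▸ r.2

end FD

end P179Y
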