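import Vale.Agent.P179.H524.N3a

/-! (N3) The number of simple modules in a block is at most the norm of its characters on the
`p`-regular elements. -/

namespace P179P

open P179H524 P179C P179A Finset MonoidAlgebra

open P179X (IrrB SameSec pp X4)

section BlockSide

variable {p : ℕ} [hp : Fact p.Prime] {k : Type*} [Field k] [IsAlgClosed k] [CharP k p]
  (red : integralClosure ℤ ℂ →+* k) {G : Type} [Group G] [Fintype G]

omit hp [CharP k p] in
theorem lam_block {B : MonoidAlgebra k G} (hB : IsBlock B) (χ : Irr G) :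
    lam red χ.1 (fun g => B.coeff g) = 0 ∨
      (lam red χ.1 (fun g => B.coeff g) = 1 ∧ χ.1 ∈ IrrB red B) := by
  classical
  obtain ⟨B', hB', hl⟩ := homBlockStmt (k := k) (G := G) (lamHom red χ.1 χ.2)
  have h1 : lam red χ.1 (fun g => B.coeff g) = if B' = B then 1 else 0 := by
    rw [← charBlockStmt B' B hB' hB, ← hl ⟨B, hB.1⟩, lamHom_apply]
  by_cases h : B' = B
  · right
    refine ⟨by rw [h1, if_pos h], ?_⟩
    unfold P179X.IrrB
    rw [mem_filter]
    refine ⟨P179X.mem_Irr.2 χ.2, fun g => ?_⟩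
    rw [← lam_classSum red χ.2 g, ← h]
    have h2 := hl ⟨classSum k g, classSum_mem_center g⟩
    rw [lamHom_apply] at h2
    exact h2.symm
  · left
    rw [h1, if_neg h]

variable (p)

/-- The traces of the simple modules in `B` are combinations of the reductions of the characters in
`B`, on the `p`-regular elements. -/
theorem exists_comb_block {r : ℕ} {d : Fin r → ℕ}
    (f : MonoidAlgebra k G →ₐ[k] Π i, Matrix (Fin (d i)) (Fin (d i)) k)
    {B : MonoidAlgebra k G} (hB : IsBlock B) (l : Fin r → k)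
    (hl : ∀ i, f B i = Matrix.scalar _ (l i)) (i : Fin r) (hi : l i = 1) :
    ∃ c : Irr G → k, (∀ χ, c χ ≠ 0 → χ.1 ∈ IrrB red B) ∧
      ∀ y : G, ¬ p ∣ orderOf y → ∑ χ, c χ * redC red (χ.1 y) = trFun f (Pi.single i 1) y := by
  classical
  set τ : G → k := fun g => trFun f (Pi.single i 1) g with hτ
  set b : G → k := fun g => B.coeff g with hb
  have hbcf : IsCF b := (P179C.mem_center_iff B).1 hB.1
  have hτcf : IsCF τ := fun g x => trFun_conj f _ x g
  obtain ⟨c, hc⟩ := exists_comb p red hτcf
  set e : Irr G → k := fun χ => lam red χ.1 b with he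
  have he2 : ∀ χ, e χ * e χ = e χ := by
    intro χ
    rcases lam_block red hB χ with h | h
    · simp only [he]; rw [h, mul_zero]
    · simp only [he]; rw [h.1, mul_one]
  have hcvτ : cv b τ = τ := by
    funext y
    rw [cv]
    simp only [hτ, hb]
    rw [C2.sum_coeff_mul_trFun, trFun]
    refine Finset.sum_congr rfl fun j _ => ?_
    by_cases hj : j = i
    · subst hj
      rw [hl, hi, map_one, one_mul]
    · rw [Pi.single_eq_of_ne hj, zero_mul, zero_mul]
  have hcv : ∀ a : Irr G → k, cv b (fun y => ∑ χ, a χ * redC red (χ.1 y) - τ y) =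
      fun y => ∑ χ, (a χ * e χ) * redC red (χ.1 y) - τ y := by
    intro a
    funext y
    rw [cv]
    simp only [mul_sub, Finset.sum_sub_distrib]
    congr 1
    · simp only [Finset.mul_sum]
      rw [Finset.sum_comm]
      refine Finset.sum_congr rfl fun χ _ => ?_
      rw [mul_assoc, ← sum_mul_red red χ hbcf y, Finset.mul_sum]
      exact Finset.sum_congr rfl fun g _ => by ring
    · exact congrFun hcvτ y
  have hit : ∀ n : ℕ, (cv b)^[n + 1] (fun y => ∑ χ, c χ * redC red (χ.1 y) - τ y) =
      fun y => ∑ χ, (c χ * e χ) * redC red (χ.1 y) - τ y := by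
    intro n
    induction n with
    | zero => exact hcv c
    | succ n ih =>
      rw [Function.iterate_succ', Function.comp_apply, ih, hcv]
      funext y
      congr 1
      refine Finset.sum_congr rfl fun χ _ => ?_
      rw [mul_assoc (c χ), he2]
  refine ⟨fun χ => c χ * e χ, fun χ hχ => ?_, fun y hy => ?_⟩
  · rcases lam_block red hB χ with h | h
    · exfalso
      apply hχ
      simp only [he]
      rw [h, mul_zero]
    · exact h.2
  · obtain ⟨n, hn⟩ : ∃ n, p ^ (Nat.card G).factorization p = n + 1 :=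
      ⟨p ^ (Nat.card G).factorization p - 1, by
        have := pow_pos hp.out.pos ((Nat.card G).factorization p); omega⟩
    have hFcf : IsCF (fun y => ∑ χ : Irr G, c χ * redC red (χ.1 y) - τ y) := by
      intro g x
      beta_reduce
      rw [hτcf g x]
      congr 1
      exact Finset.sum_congr rfl fun χ _ => by rw [χ.conj]
    have h1 := lemW p b (fun y => ∑ χ : Irr G, c χ * redC red (χ.1 y) - τ y) hbcf hFcf y (by
      intro q hq
      have h2 : y * (pr p y)⁻¹ = 1 := (pp_eq_one_iff (p := p) y).2 hy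
      rw [h2] at hq
      have h3 : ¬ p ∣ orderOf q := (pp_eq_one_iff (p := p) q).1 hq
      rw [hc q h3, sub_self]) ((Nat.card G).factorization p) le_rfl
    rw [CharP.cast_eq_zero, zero_pow (Nat.succ_ne_zero _), zero_dvd_iff, hn, hit] at h1
    exact sub_eq_zero.1 h1

/-- There are `numSimpleIn B` characters in `B` (at least) which are linearly independent on the
`p`-regular elements. -/
theorem exists_indep {B : MonoidAlgebra k G} (hB : IsBlock B) :
    ∃ (N : ℕ) (ψ : Fin N → G → ℂ), numSimpleIn B ≤ N ∧ (∀ j, ψ j ∈ IrrB red B) ∧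
      LinearIndependent ℂ (fun (j : Fin N) (x : {g : G // ¬ p ∣ orderOf g}) => ψ j x.1) := by
  classical
  obtain ⟨r, d, hd, f, hf, hker⟩ := exists_wedderburn k G
  obtain ⟨l, hl⟩ := C2.exists_scalar f hf B hB.1
  have hn := C2.numSimpleIn_eq_card f hf hker B l hl
  let X := {g : G // ¬ p ∣ orderOf g}
  let v : IrrB red B → X → k := fun χ x => redC red (χ.1 x.1)
  let w : {i : Fin r // l i = 1} → X → k := fun i x => trFun f (Pi.single i.1 1) x.1
  have hw : LinearIndependent k w := by
    let L : (Fin r → k) →ₗ[k] (X → k) :=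
      { toFun := fun c x => trFun f c x.1
        map_add' := by
          intro c c'
          funext x
          simp only [trFun, Pi.add_apply, add_mul, Finset.sum_add_distrib]
        map_smul' := by
          intro a c
          funext x
          simp only [trFun, Pi.smul_apply, smul_eq_mul, Finset.mul_sum, mul_assoc,
            RingHom.id_apply] }
    have hL : Function.Injective L := by
      rw [injective_iff_map_eq_zero]
      intro c hc
      apply (injective_iff_map_eq_zero (C2.phi p f)).1 (C2.phi_bijective p f hf hker).1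
      funext ω
      induction ω using Quotient.inductionOn' with
      | h x =>
      rw [C2.phi_mk]
      exact congrFun hc x
    have h1 : LinearIndependent k (L ∘ (fun i : Fin r => (Pi.single i (1 : k) : Fin r → k))) := by
      have h2 : LinearIndependent k (fun i : Fin r => (Pi.single i (1 : k) : Fin r → k)) := by
        have := (Pi.basisFun k (Fin r)).linearIndependent
        simpa [Pi.basisFun] using this
      exact h2.map' L (LinearMap.ker_eq_bot.2 hL)
    exact h1.comp (fun i : {i : Fin r // l i = 1} => i.1) Subtype.val_injective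
  have hwmem : ∀ i, w i ∈ Submodule.span k (Set.range v) := by
    intro i
    obtain ⟨c, hc1, hc2⟩ := exists_comb_block p red f hB l hl i.1 i.2
    have h1 : w i = ∑ χ : Irr G, c χ • (fun x : X => redC red (χ.1 x.1)) := by
      funext x
      rw [Finset.sum_apply]
      exact (hc2 x.1 x.2).symm
    rw [h1]
    refine Submodule.sum_mem _ fun χ _ => ?_
    by_cases h0 : c χ = 0
    · rw [h0, zero_smul]; exact zero_mem _
    · exact Submodule.smul_mem _ _ (Submodule.subset_span ⟨⟨χ.1, hc1 χ h0⟩, rfl⟩)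
  have hle : numSimpleIn B ≤ Module.finrank k (Submodule.span k (Set.range v)) := by
    rw [hn, Nat.card_eq_fintype_card]
    let w' : {i : Fin r // l i = 1} → Submodule.span k (Set.range v) := fun i => ⟨w i, hwmem i⟩
    have hw' : LinearIndependent k w' :=
      LinearIndependent.of_comp (Submodule.span k (Set.range v)).subtype hw
    exact hw'.fintype_card_le_finrank
  obtain ⟨g, hg1, -, hg3⟩ := Submodule.exists_fun_fin_finrank_span_eq k (Set.range v)
  choose χ hχ using hg1
  have hirr : ∀ j, IsIrrChar (χ j).1 := fun j => isIrr_of_mem_IrrB (χ j).2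
  refine ⟨_, fun j => (χ j).1, hle, fun j => (χ j).2, ?_⟩
  have h1 := linearIndependent_lift red
    (fun (j : Fin (Module.finrank k (Submodule.span k (Set.range v)))) (x : X) =>
      (⟨(χ j).1 x.1, Irr.integral ⟨(χ j).1, hirr j⟩ x.1⟩ : integralClosure ℤ ℂ)) (by
      have h2 : (fun (j : Fin (Module.finrank k (Submodule.span k (Set.range v)))) (x : X) =>
          red (⟨(χ j).1 x.1, Irr.integral ⟨(χ j).1, hirr j⟩ x.1⟩ : integralClosure ℤ ℂ)) = g := by
        funext j
        rw [← hχ j]
        funext x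
        exact (redC_of_mem red _).symm
      rw [h2]
      exact hg3)
  exact h1

end BlockSide

section ComplexSide

variable {p : ℕ} [hp : Fact p.Prime] {k : Type*} [Field k] {red : integralClosure ℤ ℂ →+* k}
  {G : Type} [Group G] [Fintype G]

/-- The idempotent endomorphism attached to the characters in `S`. -/
theorem exists_range {S : Finset (G → ℂ)} (hS : ∀ χ ∈ S, IsIrrChar χ)
    (h2 : ∀ x y : G, ¬ SameSec p x y → ∑ χ ∈ S, χ x * χ y⁻¹ = 0) :
    ∃ (r : ℕ) (E : Module.End ℂ ({g : G // ¬ p ∣ orderOf g} → ℂ)),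
      Module.finrank ℂ (LinearMap.range E) = r ∧
      (∀ χ ∈ S, (fun x : {g : G // ¬ p ∣ orderOf g} => χ x.1) ∈ LinearMap.range E) ∧
      (r : ℂ) * Nat.card G = ∑ g ∈ univ.filter (fun g : G => ¬ p ∣ orderOf g),
        ∑ χ ∈ S, χ g * χ g⁻¹ := by
  classical
  let X := {g : G // ¬ p ∣ orderOf g}
  have hG : (Fintype.card G : ℂ) ≠ 0 := by exact_mod_cast Fintype.card_ne_zero
  let M : Matrix X X ℂ := Matrix.of fun g h =>
    (Fintype.card G : ℂ)⁻¹ * ∑ χ ∈ S, χ g.1 * χ (h.1)⁻¹
  let E : Module.End ℂ (X → ℂ) := Matrix.toLin' M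
  have hE : ∀ (f : X → ℂ) (g : X), E f g =
      ∑ χ ∈ S, ((Fintype.card G : ℂ)⁻¹ * ∑ h : X, χ (h.1)⁻¹ * f h) * χ g.1 := by
    intro f g
    change (Matrix.toLin' M) f g = _
    rw [Matrix.toLin'_apply, Matrix.mulVec, dotProduct]
    simp only [M, Matrix.of_apply, Finset.mul_sum, Finset.sum_mul]
    rw [Finset.sum_comm]
    refine Finset.sum_congr rfl fun χ _ => Finset.sum_congr rfl fun h _ => ?_
    ring
  have hEψ : ∀ ψ ∈ S, E (fun x : X => ψ x.1) = fun x : X => ψ x.1 := by
    intro ψ hψ
    funext g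
    rw [hE]
    have h3 : ∑ χ ∈ S, ((Fintype.card G : ℂ)⁻¹ * ∑ h : X, χ (h.1)⁻¹ * ψ h.1) * χ g.1 =
        (Fintype.card G : ℂ)⁻¹ * ∑ h : X, (∑ χ ∈ S, χ g.1 * χ (h.1)⁻¹) * ψ h.1 := by
      simp only [Finset.mul_sum, Finset.sum_mul]
      rw [Finset.sum_comm]
      refine Finset.sum_congr rfl fun h _ => Finset.sum_congr rfl fun χ _ => ?_
      ring
    have h4 : ∑ h : X, (∑ χ ∈ S, χ g.1 * χ (h.1)⁻¹) * ψ h.1 =
        ∑ h : G, (∑ χ ∈ S, χ g.1 * χ h⁻¹) * ψ h := by
      have h5 := Finset.sum_subtype (F := (inferInstance : Fintype X)) (p := fun h : G => ¬ p ∣ orderOf h)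
        (univ.filter fun h : G => ¬ p ∣ orderOf h) (fun h => by simp)
        (fun h => (∑ χ ∈ S, χ g.1 * χ h⁻¹) * ψ h)
      rw [← h5, Finset.sum_filter]
      refine Finset.sum_congr rfl fun h _ => ?_
      by_cases hh : ¬ p ∣ orderOf h
      · rw [if_pos hh]
      · rw [if_neg hh, h2 g.1 h, zero_mul]
        intro hs
        unfold P179X.SameSec at hs
        rw [(pp_eq_one_iff (p := p) g.1).2 g.2] at hs
        exact hh ((pp_eq_one_iff (p := p) h).1 (isConj_one_right.1 hs))
    have h6 : ∑ h : G, (∑ χ ∈ S, χ g.1 * χ h⁻¹) * ψ h =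
        ∑ χ ∈ S, χ g.1 * ∑ h : G, ψ h * χ h⁻¹ := by
      simp only [Finset.mul_sum, Finset.sum_mul]
      rw [Finset.sum_comm]
      refine Finset.sum_congr rfl fun χ _ => Finset.sum_congr rfl fun h _ => ?_
      ring
    rw [h3, h4, h6, Finset.sum_eq_single ψ]
    · rw [irrChar_inner (hS ψ hψ) (hS ψ hψ), if_pos rfl]
      field_simp
    · intro χ hχ hne
      rw [irrChar_inner (hS ψ hψ) (hS χ hχ), if_neg hne.symm, mul_zero]
    · intro h; exact absurd hψ h
  have hproj : LinearMap.IsProj (LinearMap.range E) E := by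
    refine ⟨fun x => ⟨x, rfl⟩, fun x ⟨y, hy⟩ => ?_⟩
    have h3 : x = ∑ χ ∈ S, ((Fintype.card G : ℂ)⁻¹ * ∑ h : X, χ (h.1)⁻¹ * y h) •
        (fun x : X => χ x.1) := by
      rw [← hy]
      funext g
      rw [hE, Finset.sum_apply]
      rfl
    rw [h3, map_sum]
    refine Finset.sum_congr rfl fun χ hχ => ?_
    rw [map_smul, hEψ χ hχ]
  refine ⟨_, E, rfl, fun χ hχ => ⟨_, hEψ χ hχ⟩, ?_⟩
  have htr : LinearMap.trace ℂ (X → ℂ) E = (Module.finrank ℂ (LinearMap.range E) : ℂ) :=
    hproj.trace
  rw [← htr, Matrix.trace_toLin'_eq, Matrix.trace]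
  simp only [Matrix.diag_apply, M, Matrix.of_apply]
  have h5 := Finset.sum_subtype (F := (inferInstance : Fintype X)) (p := fun h : G => ¬ p ∣ orderOf h)
    (univ.filter fun h : G => ¬ p ∣ orderOf h) (fun h => by simp)
    (fun h => ∑ χ ∈ S, χ h * χ h⁻¹)
  rw [h5, ← Finset.mul_sum, Nat.card_eq_fintype_card, mul_comm, ← mul_assoc,
    mul_inv_cancel₀ hG, one_mul]

end ComplexSide

/-- **(N3)** -/
theorem N3 (p : ℕ) [hp : Fact p.Prime] {k : Type*} [Field k] [IsAlgClosed k] [CharP k p]
    (red : integralClosure ℤ ℂ →+* k) {G : Type} [Group G] [Fintype G] {B : MonoidAlgebra k G}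
    (hB : IsBlock B)
    (h2 : ∀ x y : G, ¬ SameSec p x y → ∑ χ ∈ IrrB red B, χ x * χ y⁻¹ = 0) :
    X4 p red B := by
  classical
  obtain ⟨N, ψ, hN, hψ, hind⟩ := exists_indep p red hB
  obtain ⟨r, E, hr, hE, hsum⟩ := exists_range (p := p) (S := IrrB red B)
    (fun χ hχ => isIrr_of_mem_IrrB hχ) h2
  refine ⟨r, hN.trans ?_, ?_⟩
  · rw [← hr]
    let w : Fin N → LinearMap.range E := fun j => ⟨_, hE (ψ j) (hψ j)⟩
    have hw : LinearIndependent ℂ w :=
      LinearIndependent.of_comp (LinearMap.range E).subtype hind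
    have := hw.fintype_card_le_finrank
    rwa [Fintype.card_fin] at this
  · rw [hsum]

end P179P
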