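import Vale.Agent.P179.H526.YDefs
import Vale.Agent.P179.H143.Kernel
import Vale.Agent.P179.H524.N3

/-!
# (P7) the number of simple modules in a block is at most the number of its `m`-rational characters
-/

namespace P179Y

open Subgroup Finset P179H524 P179C P179A P179P

open P179X (IrrB Srat SameSec pp X4)

open scoped Classical

section

variable {k : Type*} [Field k] (red : AA →+* k) {H : Type*} [Group H] [Fintype H]

/-- separation of `ψ` and `ψ ∘ c` by an integral class function -/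
theorem sep_comp (c : H ≃* H) (ψ : Irr H) {z : H → k} (hz : IsCF z)
    (hne : lam red ψ.1 z ≠ lam red ψ.1 (fun x => z (c.symm x))) :
    ∃ (z : H → ℤ) (hz : IsCF z), red (omA ψ z hz) ≠
      red (omA (⟨fun x => ψ.1 (c x), ψ.2.comp c.toMonoidHom c.surjective⟩ : Irr H) z hz) := by
  have := Fintype.ofFinite (ConjClasses H)
  by_contra hcon
  push Not at hcon
  apply hne
  have hcf : ∀ {R : Type _} (y : H → R), IsCF y → IsCF (fun x => y (c.symm x)) := by
    intro R y hy g x
    simp only [map_mul, map_inv]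
    exact hy _ _
  have h1 : (fun x => z (c.symm x)) =
      ∑ D : ConjClasses H, z D.out • (fun x => ((ind D (c.symm x) : ℤ) : k)) := by
    ext x
    rw [Finset.sum_apply]
    simp only [Pi.smul_apply, smul_eq_mul]
    exact cf_eq_sum hz (c.symm x)
  rw [h1, P179P.lam_sum, P179P.lam_eq_sum]
  refine Finset.sum_congr rfl fun D _ => ?_
  have h3 : IsCF (fun x => ind D (c.symm x)) := hcf _ (isCF_ind D)
  rw [lam_smul, lam_int red ψ.2 h3]
  congr 1
  have h2 := hcon (ind D) (isCF_ind D)
  have h4 : om (fun x => ψ.1 (c x)) (ind D) = om ψ.1 (fun x => ind D (c.symm x)) := by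
    have h5 := om_comp c ψ.1 (fun x => ind D (c.symm x))
    simp only [MulEquiv.symm_apply_apply] at h5
    exact h5
  rw [← h4]
  exact (redC_of_mem red (isIntegral_om ψ.2 (isCF_ind _))).trans (h2.trans
    (redC_of_mem red (isIntegral_om (ψ.2.comp c.toMonoidHom c.surjective) (isCF_ind _))).symm)

end

section

variable {k : Type*} [Field k] (p : ℕ) [hp : Fact p.Prime] [CharP k p] (red : AA →+* k)

/-- (K7) the elements inducing `u ↦ u^m` move the blocks of `C_G(u)` inducing `l` -/
def K7P {G : Type*} [Group G] [Finite G] (l : (G → k) → k) (m : ℕ) : Prop :=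
  ∀ u : G, (∃ n : ℕ, u ^ p ^ n = 1) → u ≠ 1 → ∀ h : G, h * u * h⁻¹ = u ^ m →
    ∀ H : Subgroup G, (∀ x, x ∈ H ↔ x * u = u * x) → ∀ ψ : Irr H, IndL red H l ψ.1 →
    ∃ z : G → k, InvOn H z ∧
      lam red ψ.1 (fun x : H => z x) ≠ lam red ψ.1 (fun x : H => z (h * x * h⁻¹))

variable {p}

/-- the contribution of a nontrivial `p`-section -/
theorem sec_zero {G : Type*} [Group G] [Fintype G] (l : (G → k) → k) (m : ℕ)
    (hm1 : m ≡ 1 [MOD ordCompl[p] (Nat.card G)]) (hm : m.Coprime (Nat.card G))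
    (u : G) (hu : ∃ n : ℕ, u ^ p ^ n = 1)
    (h : G) (hh : h * u * h⁻¹ = u ^ m) (H : Subgroup G) (hH : ∀ x, x ∈ H ↔ x * u = u * x)
    (hK : ∀ ψ : Irr H, IndL red H l ψ.1 → ∃ z : G → k, InvOn H z ∧
      lam red ψ.1 (fun x : H => z x) ≠ lam red ψ.1 (fun x : H => z (h * x * h⁻¹))) :
    ∑ s : H, (if ¬ p ∣ orderOf s then
      ∑ χ : Irr G, (if InL red l χ.1 then χ.1 (((s : G) * u) ^ m) * χ.1 ((s : G) * u)⁻¹ else 0)
      else 0) = 0 := by
  -- the conjugation map
  have hmem : ∀ x : G, x ∈ H → h * x * h⁻¹ ∈ H := by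
    intro x hx
    rw [hH] at hx ⊢
    -- commutes with u^m, hence with u
    have h1 : (h * x * h⁻¹) * u ^ m = u ^ m * (h * x * h⁻¹) := by
      rw [← hh]
      calc h * x * h⁻¹ * (h * u * h⁻¹) = h * (x * u) * h⁻¹ := by group
        _ = h * (u * x) * h⁻¹ := by rw [hx]
        _ = _ := by group
    have h2 : ∃ r : ℕ, (u ^ m) ^ r = u := by
      have h3 : Nat.Coprime m (orderOf u) := hm.coprime_dvd_right (orderOf_dvd_natCard u)
      obtain ⟨r, hr⟩ := exists_pow_eq_self_of_coprime h3
      exact ⟨r, hr⟩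
    obtain ⟨r, hr⟩ := h2
    have h4 : Commute (h * x * h⁻¹) ((u ^ m) ^ r) := Commute.pow_right h1 r
    rw [hr] at h4
    exact h4
  have hmem' : ∀ x : G, x ∈ H → h⁻¹ * x * h ∈ H := by
    intro x hx
    rw [hH] at hx ⊢
    have h1 : Commute x (u ^ m) := Commute.pow_right hx m
    have h2 : h⁻¹ * x * h * u = h⁻¹ * (x * u ^ m) * h := by
      rw [← hh]; group
    have h3 : u * (h⁻¹ * x * h) = h⁻¹ * (u ^ m * x) * h := by
      rw [← hh]; group
    rw [h2, h3, h1.eq]
  let c : H ≃* H :=
    { toFun := fun x => ⟨h⁻¹ * x * h, hmem' x x.2⟩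
      invFun := fun x => ⟨h * x * h⁻¹, hmem x x.2⟩
      left_inv := fun x => Subtype.ext (by simp only; group)
      right_inv := fun x => Subtype.ext (by simp only; group)
      map_mul' := fun x y => Subtype.ext (by simp only [Subgroup.coe_mul]; group) }
  have hcs : ∀ x : H, ((c.symm x : H) : G) = h * x * h⁻¹ := fun x => rfl
  have hc : ∀ x : H, ((c x : H) : G) = h⁻¹ * x * h := fun x => rfl
  have hreg : ∀ s : H, ¬ p ∣ orderOf s → ¬ p ∣ orderOf (c s) := by
    intro s hs
    rwa [MulEquiv.orderOf_eq]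
  have key : ∀ s : H, ¬ p ∣ orderOf s →
      ∑ χ : Irr G, (if InL red l χ.1 then χ.1 (((s : G) * u) ^ m) * χ.1 ((s : G) * u)⁻¹ else 0) =
      ∑ ψ : Irr H, (if IndL red H l ψ.1 then ψ.1 (c s) * ψ.1 s⁻¹ else 0) := by
    intro s hs
    have h1 := P179P.kernel_form p red u hu H hH l (c s) s (hreg s hs) hs
    have h2 : ∀ χ : Irr G, χ.1 (((s : G) * u) ^ m) = χ.1 ((c s : G) * u) := by
      intro χ
      have hsm : (s : G) ^ m = s := pow_eq_of_modEq_of_dvd hm1 (by rwa [Subgroup.orderOf_coe])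
      have h3 : Commute (s : G) u := (hH s).1 s.2
      have h4 : ((s : G) * u) ^ m = h * ((c s : G) * u) * h⁻¹ := by
        rw [h3.mul_pow, hsm, hc, ← hh]
        group
      rw [h4, χ.conj]
    refine (Finset.sum_congr rfl fun χ _ => ?_).trans h1
    rw [h2 χ]
  have e1 : ∑ s : H, (if ¬ p ∣ orderOf s then
      ∑ χ : Irr G, (if InL red l χ.1 then χ.1 (((s : G) * u) ^ m) * χ.1 ((s : G) * u)⁻¹ else 0)
      else 0) = ∑ ψ : Irr H, if IndL red H l ψ.1 then
        ∑ s : H, (if ¬ p ∣ orderOf s then ψ.1 (c s) * ψ.1 s⁻¹ else 0) else 0 := by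
    have e2 : ∀ s : H, (if ¬ p ∣ orderOf s then
      ∑ χ : Irr G, (if InL red l χ.1 then χ.1 (((s : G) * u) ^ m) * χ.1 ((s : G) * u)⁻¹ else 0)
      else 0) = ∑ ψ : Irr H, if IndL red H l ψ.1 then
        (if ¬ p ∣ orderOf s then ψ.1 (c s) * ψ.1 s⁻¹ else 0) else 0 := by
      intro s
      by_cases hs : ¬ p ∣ orderOf s
      · simp only [if_pos hs]
        exact key s hs
      · simp only [if_neg hs]
        symm
        exact Finset.sum_eq_zero fun ψ _ => by split_ifs <;> rfl
    rw [Finset.sum_congr rfl fun s _ => e2 s, Finset.sum_comm]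
    refine Finset.sum_congr rfl fun ψ _ => ?_
    by_cases hψ : IndL red H l ψ.1
    · simp only [if_pos hψ]
    · simp only [if_neg hψ, Finset.sum_const_zero]
  rw [e1]
  refine Finset.sum_eq_zero fun ψ _ => ?_
  split_ifs with hψ
  · obtain ⟨z, hz, hne⟩ := hK ψ hψ
    have hzcf : IsCF (fun x : H => z x) := fun g x => hz.1 g g.2 x
    obtain ⟨z', hz', hne'⟩ := sep_comp red c ψ hzcf hne
    obtain ⟨S, hS⟩ : ∃ S : Set H, ∀ y, y ∈ S ↔ ¬ p ∣ orderOf y :=
      ⟨{y | ¬ p ∣ orderOf y}, fun y => by rw [Set.mem_ofPred_eq]⟩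
    have h3 := sec_orth_two p red ψ ⟨fun x => ψ.1 (c x), ψ.2.comp c.toMonoidHom c.surjective⟩
      z' hz' hne' S (by
      intro a b hab
      rw [hS, hS, ← pp_eq_one_iff, ← pp_eq_one_iff, hab]) (by
      intro a t
      rw [hS, hS, P179C.orderOf_conj])
    exact (Finset.sum_congr rfl fun x _ => if_congr (hS x).symm rfl rfl).trans h3
  · rfl

/-- **(P7)** -/
theorem P7 [IsAlgClosed k] {G : Type} [Group G] [Fintype G] {B : MonoidAlgebra k G}
    (hB : IsBlock B) (l : (G → k) → k)
    (hl : ∀ χ : Irr G, InL red l χ.1 ↔ CharInBlock red χ.1 B) (m : ℕ)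
    (hm : m.Coprime (Nat.card G)) (hm1 : m ≡ 1 [MOD ordCompl[p] (Nat.card G)])
    (h1 : ∀ χ ∈ IrrB red B, (fun g => χ (g ^ m)) ∈ IrrB red B)
    (hK : K7P p red l m) :
    numSimpleIn B ≤ (Srat red m B).card := by
  have hG : (Fintype.card G : ℂ) ≠ 0 := by exact_mod_cast Fintype.card_ne_zero
  have h2 : ∀ x y : G, ¬ SameSec p x y → ∑ χ ∈ IrrB red B, χ x * χ y⁻¹ = 0 :=
    fun x y hxy => sec_orth p red B x y hxy
  obtain ⟨r, hr, hr2⟩ := P179P.N3 p red hB h2
  suffices h : r = (Srat red m B).card by rw [← h]; exact hr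
  have e1 : ∑ χ ∈ IrrB red B, ∑ g : G, χ (g ^ m) * χ g⁻¹ =
      ((Srat red m B).card : ℂ) * Fintype.card G := by
    have e2 : ∀ χ ∈ IrrB red B, ∑ g : G, χ (g ^ m) * χ g⁻¹ =
        if (∀ g, χ (g ^ m) = χ g) then (Fintype.card G : ℂ) else 0 := by
      intro χ hχ
      have e3 := irrChar_inner (isIrr_of_mem_IrrB (h1 χ hχ)) (isIrr_of_mem_IrrB hχ)
      beta_reduce at e3
      rw [e3]
      by_cases h : ∀ g, χ (g ^ m) = χ g
      · rw [if_pos h, if_pos (funext h)]
      · rw [if_neg h, if_neg (fun h' => h (congrFun h'))]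
    have e0 : Srat red m B = (IrrB red B).filter (fun χ => ∀ g, χ (g ^ m) = χ g) := by
      ext χ
      simp only [P179X.Srat, mem_filter]
    rw [Finset.sum_congr rfl e2, ← Finset.sum_filter, Finset.sum_const, nsmul_eq_mul, e0]
  rw [Finset.sum_comm] at e1
  -- the section of `u`
  set F : G → ℂ := fun g => ∑ χ ∈ IrrB red B, χ (g ^ m) * χ g⁻¹ with hF
  have hFl : ∀ g : G, F g = ∑ χ : Irr G,
      (if InL red l χ.1 then χ.1 (g ^ m) * χ.1 g⁻¹ else 0) := by
    intro g
    simp only [hF]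
    rw [sum_IrrB red B (fun χ => χ (g ^ m) * χ g⁻¹)]
    exact Finset.sum_congr rfl fun χ _ => if_congr (hl χ).symm rfl rfl
  have hsec : ∀ u : G, u ≠ 1 → ∑ g ∈ univ.filter (fun g : G => pp p g = u), F g = 0 := by
    intro u hu1
    by_cases hup : ∃ n : ℕ, u ^ p ^ n = 1
    · by_cases hc : IsConj u (u ^ m)
      · obtain ⟨h, hh⟩ := isConj_iff.1 hc
        have h3 := sec_zero red l m hm1 hm u hup h hh (centralizer {u})
          (fun x => by rw [mem_centralizer_singleton_iff])
          (hK u hup hu1 h hh (centralizer {u})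
            (fun x => by rw [mem_centralizer_singleton_iff]))
        rw [← h3, ← Finset.sum_filter]
        symm
        refine Finset.sum_bij (fun s _ => (s : G) * u) ?_ ?_ ?_ ?_
        · intro s hs
          rw [mem_filter] at hs ⊢
          refine ⟨mem_univ _, ?_⟩
          have h4 : (s : G) * u = u * s := mem_centralizer_singleton_iff.1 s.2
          rw [h4]
          exact pp_eq h4.symm hup (by rw [Subgroup.orderOf_coe]; exact hs.2)
        · intro a _ b _ hab
          exact Subtype.ext (mul_right_cancel hab)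
        · intro g hg
          rw [mem_filter] at hg
          have h5 : pp p g * pr p g = pr p g * pp p g := pp_comm g
          rw [hg.2] at h5
          refine ⟨⟨pr p g, mem_centralizer_singleton_iff.2 h5.symm⟩, ?_, ?_⟩
          · rw [mem_filter]
            refine ⟨mem_univ _, ?_⟩
            rw [← Subgroup.orderOf_coe]
            exact pr_regular' g
          · simp only
            rw [← h5, ← hg.2, pp_mul_pr]
        · intro s _
          exact (hFl _).symm
      · refine Finset.sum_eq_zero fun g hg => ?_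
        rw [mem_filter] at hg
        refine h2 _ _ fun hs => hc ?_
        unfold SameSec at hs
        rw [pp_pow, hg.2] at hs
        exact hs.symm
    · refine Finset.sum_eq_zero fun g hg => ?_
      rw [mem_filter] at hg
      exact absurd (hg.2 ▸ pp_pow_eq_one g) hup
  have e4 : ∑ g : G, F g =
      ∑ g ∈ univ.filter (fun g : G => ¬ p ∣ orderOf g), ∑ χ ∈ IrrB red B, χ g * χ g⁻¹ := by
    rw [← Finset.sum_fiberwise_of_maps_to (t := univ) (g := fun g : G => pp p g)
      (fun _ _ => mem_univ _) F, Finset.sum_eq_single (1 : G) (fun u _ hu => hsec u hu)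
      (fun h => absurd (mem_univ _) h)]
    refine Finset.sum_congr ?_ ?_
    · ext g
      simp only [mem_filter, mem_univ, true_and]
      exact pp_eq_one_iff g
    · intro g hg
      rw [mem_filter] at hg
      simp only [hF]
      rw [pow_eq_of_modEq_of_dvd hm1 hg.2]
  rw [e4] at e1
  have e5 : (r : ℂ) * Nat.card G = ((Srat red m B).card : ℂ) * Fintype.card G := by
    rw [hr2, ← e1]
  rw [Nat.card_eq_fintype_card] at e5
  exact_mod_cast mul_right_cancel₀ hG e5

end

end P179Y
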