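import Vale.Agent.P179.H524.FD
import Vale.Agent.P179.H526.KDef
import Vale.Agent.P179.H524.P7
import Vale.Agent.P179.H905.Fus

/-!
# (K7) elements inducing `u ↦ u ^ m` move the blocks of `C_G(u)` inducing `l`
-/

namespace P179Y

open Subgroup Finset P179H524 P179C P179A P179P

open scoped Classical

section Ext

variable {p : ℕ} {k : Type*} [Field k] {G : Type*} [Group G] [Fintype G]

omit [Fintype G] in
theorem invOn_ext {D H : Subgroup G} (hDH : D ≤ H) (hCH : centralizer (D : Set G) ≤ H)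
    {a : H → k} (ha : InvOn (centralizer ((D.subgroupOf H : Subgroup H) : Set H)) a) :
    InvOn (centralizer (D : Set G)) (ext H a) := by
  constructor
  · intro c hc x
    have hcH := hCH hc
    by_cases hx : x ∈ H
    · rw [ext_of_mem H a hx, ext_of_mem H a (mul_mem (mul_mem hcH hx) (inv_mem hcH))]
      exact ha.1 ⟨c, hcH⟩ ((mem_cent_subgroupOf hDH _).2 hc) ⟨x, hx⟩
    · rw [ext_of_not_mem H a hx, ext_of_not_mem H a]
      intro h
      apply hx
      have := mul_mem (mul_mem (inv_mem hcH) h) hcH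
      have e1 : c⁻¹ * (c * x * c⁻¹) * c = x := by group
      rwa [e1] at this
  · intro x hx
    by_cases hxH : x ∈ H
    · rw [ext_of_mem H a hxH]
      exact ha.2 _ fun h => hx ((mem_cent_subgroupOf hDH _).1 h)
    · exact ext_of_not_mem H a hxH

omit [Fintype G] in
theorem ext_restr {H : Subgroup G} {a : G → k} (ha : ∀ x, x ∉ H → a x = 0) :
    ext H (fun h : H => a h) = a := by
  funext x
  by_cases hx : x ∈ H
  · rw [ext_of_mem H _ hx]
  · rw [ext_of_not_mem H _ hx, ha x hx]

/-- a Brauer pair of `H ≥ C_G(D)` is one of `G` -/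
theorem BP.extend {D H : Subgroup G} [Fintype H] {l' : (H → k) → k} (hDH : D ≤ H)
    (hCH : centralizer (D : Set G) ≤ H) (hl : BP p (D.subgroupOf H) l') :
    BP p D (fun a : G → k => l' (fun h : H => a h)) where
  add a b := hl.add _ _
  smul c a := hl.smul c _
  supp a ha := hl.supp _ fun x hx => ha _ ((mem_cent_subgroupOf hDH x).1 hx)
  one := by
    refine Eq.trans ?_ hl.one
    beta_reduce
    congr 1
    funext h
    by_cases hh : h = 1
    · rw [if_pos hh, if_pos (by rw [hh]; rfl)]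
    · rw [if_neg hh, if_neg (fun h' : (h : G) = 1 => hh (Subtype.ext h'))]
  mul a b ha hb := by
    have key : ∀ a : G → k, InvOn (centralizer (D : Set G)) a →
        InvOn (centralizer ((D.subgroupOf H : Subgroup H) : Set H)) (fun h : H => a h) := by
      intro a ha
      refine ⟨fun c hc x => ?_, fun x hx' => ?_⟩
      · exact ha.1 c ((mem_cent_subgroupOf hDH _).1 hc) x
      · exact ha.2 x fun h => hx' ((mem_cent_subgroupOf hDH _).2 h)
    rw [← hl.mul _ _ (key a ha) (key b hb)]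
    congr 1
    funext h
    have h1 : ext H (conv (fun h : H => a h) (fun h : H => b h)) = conv a b := by
      rw [ext_conv, ext_restr (fun x hx => ha.2 x (fun h => hx (hCH h))),
        ext_restr (fun x hx => hb.2 x (fun h => hx (hCH h)))]
    rw [← h1, ext_coe]
  dfct := by
    obtain ⟨a, ha, hla, hx⟩ := hl.dfct
    refine ⟨ext H a, invOn_ext hDH hCH ha, ?_, ?_⟩
    · have : (fun h : H => ext H a h) = a := by
        funext h
        exact ext_coe H a h
      rw [this]; exact hla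
    · intro x hax P hP hPx hPC y hy
      have hxH : x ∈ H := by
        by_contra h
        exact hax (ext_of_not_mem H a h)
      rw [ext_of_mem H a hxH] at hax
      have h1 := hx ⟨x, hxH⟩ hax (P.subgroupOf H) (hP.comap_subtype) ?_ ?_
      · have h2 : (⟨y, hCH (hPC hy)⟩ : H) ∈ P.subgroupOf H := by
          rw [Subgroup.mem_subgroupOf]; exact hy
        exact Subgroup.mem_subgroupOf.1 (h1 h2)
      · intro z hz
        rw [mem_centralizer_singleton_iff]
        apply Subtype.ext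
        exact mem_centralizer_singleton_iff.1 (hPx (Subgroup.mem_subgroupOf.1 hz))
      · intro z hz
        exact (mem_cent_subgroupOf hDH z).2 (hPC (Subgroup.mem_subgroupOf.1 hz))

end Ext

section Fusion

variable {p : ℕ} [hp : Fact p.Prime] {G : Type*} [Group G] [Finite G]

/-- no element of `N_G(D)` induces `v ↦ v^m` -/
theorem no_power_fusion {D : Subgroup G}
    (he : (centralizer (D : Set G)).relIndex (normalizer (D : Set G)) < p - 1) {m : ℕ}
    (hgen : ∀ j : ℕ, ¬ p ∣ j → ∃ i : ℕ, m ^ i ≡ j [MOD ordProj[p] (Nat.card G)])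
    {n v : G} (hn : n ∈ normalizer (D : Set G)) (hvD : v ∈ D) (hv1 : v ≠ 1)
    (hvp : ∃ a : ℕ, v ^ p ^ a = 1) (hnv : n * v * n⁻¹ = v ^ m) : False := by
  have hpow : ∀ i : ℕ, n ^ i * v * (n ^ i)⁻¹ = v ^ m ^ i := by
    intro i
    induction i with
    | zero => simp
    | succ i ih =>
      have h1 : n ^ (i + 1) * v * (n ^ (i + 1))⁻¹ = n * (n ^ i * v * (n ^ i)⁻¹) * n⁻¹ := by
        rw [pow_succ']; group
      rw [h1, ih, ← conj_pow, hnv, ← pow_mul, ← pow_succ']
  let N := normalizer (D : Set G)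
  let C' : Subgroup N := (centralizer (D : Set G)).subgroupOf N
  have hC'n : C'.Normal := by
    refine ⟨fun c hc x => ?_⟩
    rw [mem_subgroupOf] at hc ⊢
    exact conj_mem_centralizer x.2 hc
  have hcard : Nat.card (N ⧸ C') = (centralizer (D : Set G)).relIndex (normalizer (D : Set G)) :=
    rfl
  have hepos : 0 < (centralizer (D : Set G)).relIndex (normalizer (D : Set G)) := by
    rw [← hcard]; exact Nat.card_pos
  set e := (centralizer (D : Set G)).relIndex (normalizer (D : Set G)) with hee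
  have h3 : (QuotientGroup.mk' C' (⟨n, hn⟩ : N)) ^ e = 1 := by
    rw [← hcard]; exact pow_card_eq_one'
  rw [← map_pow] at h3
  have h4 : (⟨n, hn⟩ : N) ^ e ∈ C' := (QuotientGroup.eq_one_iff _).1 h3
  rw [mem_subgroupOf, mem_centralizer_iff] at h4
  have h5 := h4 v hvD
  have h6 : v ^ m ^ e = v := by
    rw [← hpow, mul_inv_eq_iff_eq_mul]
    exact h5.symm
  have h7 : m ^ e ≡ 1 [MOD orderOf v] := by
    rw [← pow_eq_pow_iff_modEq, h6, pow_one]
  have hpv : p ∣ orderOf v := by
    obtain ⟨j, hj'⟩ := hvp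
    obtain ⟨a, -, ha⟩ := (Nat.dvd_prime_pow hp.out).1 (orderOf_dvd_of_pow_eq_one hj')
    rw [ha]
    refine dvd_pow_self p fun h0 => hv1 ?_
    rw [← orderOf_eq_one_iff, ha, h0, pow_zero]
  have hpG : p ∣ ordProj[p] (Nat.card G) := by
    have h8 : p ∣ Nat.card G := hpv.trans (orderOf_dvd_natCard v)
    have h9 : 1 ≤ (Nat.card G).factorization p :=
      (hp.out.pow_dvd_iff_le_factorization Nat.card_pos.ne').1 (by rwa [pow_one])
    exact dvd_pow_self p (by omega)
  have h10 := le_of_pow_modEq_one (p := p) hepos (h7.of_dvd hpv) (fun j hj => by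
    obtain ⟨i, hi⟩ := hgen j hj
    exact ⟨i, hi.of_dvd hpG⟩)
  omega

end Fusion

section K7

variable {p : ℕ} [hp : Fact p.Prime] {k : Type*} [Field k] [CharP k p] [IsAlgClosed k]
  (red : AA →+* k) {G : Type} [Group G] [Fintype G]

omit [Fintype G] [CharP k p] [IsAlgClosed k] hp in
theorem isHomCF_lam {H : Type*} [Group H] [Fintype H] (ψ : Irr H) : IsHomCF (lam red ψ.1) where
  add a b := lam_add red ψ.1 a b
  smul c a := lam_smul red ψ.1 c a
  one := lam_one red ψ.2
  mul _ _ ha hb := lam_conv red ψ.2 ha hb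

/-- (K7), for functionals -/
theorem K7' {D : Subgroup G} {l : (G → k) → k} (hl : BP p D l) (hD : IsPGroup p D)
    (hDab : ∀ a ∈ D, ∀ b ∈ D, a * b = b * a)
    (he : (centralizer (D : Set G)).relIndex (normalizer (D : Set G)) < p - 1) {m : ℕ}
    (hm : m.Coprime (Nat.card G))
    (hgen : ∀ j : ℕ, ¬ p ∣ j → ∃ i : ℕ, m ^ i ≡ j [MOD ordProj[p] (Nat.card G)])
    {u : G} (hu : ∃ n : ℕ, u ^ p ^ n = 1) (hu1 : u ≠ 1) {h : G} (hh : h * u * h⁻¹ = u ^ m)
    {H : Subgroup G} (hH : ∀ x, x ∈ H ↔ x * u = u * x) {μ : (H → k) → k} (hμ : IsHomCF μ)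
    (hμl : ∀ z : G → k, IsCF z → μ (fun x : H => z x) = l z) :
    ∃ z : G → k, InvOn H z ∧ μ (fun x : H => z x) ≠ μ (fun x : H => z (h * x * h⁻¹)) := by
  by_contra hcon
  push Not at hcon
  have hhH : ∀ x : G, x ∈ H → h * x * h⁻¹ ∈ H := by
    intro x hx
    rw [hH] at hx ⊢
    have h1 : (h * x * h⁻¹) * u ^ m = u ^ m * (h * x * h⁻¹) := by
      rw [← hh]
      calc h * x * h⁻¹ * (h * u * h⁻¹) = h * (x * u) * h⁻¹ := by group
        _ = h * (u * x) * h⁻¹ := by rw [hx]
        _ = _ := by group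
    obtain ⟨r, hr⟩ : ∃ r : ℕ, (u ^ m) ^ r = u := by
      have h3 : Nat.Coprime m (orderOf u) := hm.coprime_dvd_right (orderOf_dvd_natCard u)
      obtain ⟨r, hr⟩ := exists_pow_eq_self_of_coprime h3
      exact ⟨r, hr⟩
    have h4 : Commute (h * x * h⁻¹) ((u ^ m) ^ r) := Commute.pow_right h1 r
    rw [hr] at h4
    exact h4
  have huH : u ∈ H := (hH u).2 rfl
  obtain ⟨R, l', hR, hl', hμl', hcen⟩ := exists_BP (p := p) hμ
  have huR : (⟨u, huH⟩ : H) ∈ R := by
    refine hcen _ ?_ ?_
    · rw [Subgroup.mem_center_iff]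
      intro g
      exact Subtype.ext ((hH g).1 g.2)
    · obtain ⟨n, hn⟩ := hu
      exact ⟨n, Subtype.ext hn⟩
  set R' : Subgroup G := R.map H.subtype with hR'
  have hRR : R'.subgroupOf H = R := comap_map_eq_self_of_injective H.subtype_injective R
  have hR'H : R' ≤ H := by
    rintro _ ⟨x, -, rfl⟩
    exact x.2
  have huR' : u ∈ R' := ⟨_, huR, rfl⟩
  have hCH : centralizer (R' : Set G) ≤ H := by
    intro x hx
    rw [hH]
    exact (mem_centralizer_iff.1 hx u huR').symm
  have hl'' : BP p (R'.subgroupOf H) l' := by rw [hRR]; exact hl'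
  have hl2 := BP.extend hR'H hCH hl''
  have hll : ∀ z : G → k, IsCF z → (fun a : G → k => l' (fun h : H => a h)) z = l z := by
    intro z hz
    change l' (fun h : H => z h) = l z
    rw [← hμl z hz]
    exact hμl' _ (fun g x => hz g x)
  have hepos : 0 < (centralizer (D : Set G)).relIndex (normalizer (D : Set G)) := by
    have h1 : Nat.card (normalizer (D : Set G) ⧸
        (centralizer (D : Set G)).subgroupOf (normalizer (D : Set G))) =
      (centralizer (D : Set G)).relIndex (normalizer (D : Set G)) := rfl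
    rw [← h1]
    exact Nat.card_pos
  have hDe : ¬ p ∣ (centralizer (D : Set G)).relIndex (normalizer (D : Set G)) := fun hd => by
    have := Nat.le_of_dvd hepos hd
    omega
  have hR'p : IsPGroup p R' := hR.map _
  obtain ⟨g, hg⟩ := FD hl hD hDab hDe hl2 hR'p hll
  have hab : D ≤ centralizer (D : Set G) := by
    intro x hx
    rw [mem_centralizer_iff]
    intro y hy
    exact hDab y hy x hx
  -- the element `y`
  obtain ⟨y, hy, hyD, hly⟩ := exists_Y hl hD hab (fun h => hDe (h.trans (relIndex_stabT_dvd D l)))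
  have hRab : ∀ a ∈ R, ∀ b ∈ R, a * b = b * a := by
    intro a ha b hb
    have h1 : (a : G) ∈ R' := ⟨a, ha, rfl⟩
    have h2 : (b : G) ∈ R' := ⟨b, hb, rfl⟩
    have h7 := hDab _ ((hg _).1 h1) _ ((hg _).1 h2)
    have h8 : g⁻¹ * (a : G) * g * (g⁻¹ * b * g) = g⁻¹ * ((a : G) * b) * g := by group
    have h9 : g⁻¹ * (b : G) * g * (g⁻¹ * a * g) = g⁻¹ * ((b : G) * a) * g := by group
    rw [h8, h9] at h7
    exact Subtype.ext (mul_left_cancel (mul_right_cancel h7))
  have habR : R ≤ centralizer (R : Set H) := by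
    intro x hx
    rw [mem_centralizer_iff]
    intro y hy
    exact hRab y hy x hx
  have hT : ¬ p ∣ (centralizer (R : Set H)).relIndex (stabT R l') := by
    refine stab_index_coprime' hl' hR (y := fun x : H => y x) (fun g x => hy g x) ?_ ?_
    · intro x hx P hP hPx a ha b hb
      have h1 := hyD.comm hDab x hx (P.map H.subtype) (hP.map _) (by
        rintro _ ⟨z, hz, rfl⟩
        have := hPx hz
        rw [mem_centralizer_singleton_iff] at this ⊢
        exact congrArg Subtype.val this) a ⟨a, ha, rfl⟩ b ⟨b, hb, rfl⟩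
      exact Subtype.ext h1
    · change (fun a : G → k => l' (fun h : H => a h)) y ≠ 0
      rw [hll y hy]
      exact hly
  obtain ⟨y', hy', hyR, hly'⟩ := exists_Y hl' hR habR hT
  have hz1 : (fun x : H => ext H y' x) = y' := by
    funext x
    exact ext_coe H y' x
  have hinv : InvOn H (ext H y') := by
    constructor
    · intro t ht x
      by_cases hx : x ∈ H
      · rw [ext_of_mem H y' hx, ext_of_mem H y' (mul_mem (mul_mem ht hx) (inv_mem ht))]
        exact hy' ⟨t, ht⟩ ⟨x, hx⟩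
      · rw [ext_of_not_mem H y' hx, ext_of_not_mem H y']
        intro h1
        apply hx
        have h2 := mul_mem (mul_mem (inv_mem ht) h1) ht
        have e1 : t⁻¹ * (t * x * t⁻¹) * t = x := by group
        rwa [e1] at h2
    · intro x hx
      exact ext_of_not_mem H y' hx
  have hz := hcon (ext H y') hinv
  rw [hz1] at hz
  have hcf : IsCF (fun x : H => ext H y' (h * x * h⁻¹)) := by
    intro t x
    have h1 := hinv.1 (h * t * h⁻¹) (hhH t t.2) (h * x * h⁻¹)
    change ext H y' (h * ((t : G) * x * (t : G)⁻¹) * h⁻¹) = ext H y' (h * x * h⁻¹)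
    rw [← h1]
    congr 1
    group
  have hne : l' (fun x : H => ext H y' (h * x * h⁻¹)) ≠ 0 := by
    rw [hμl' _ hcf, ← hz, ← hμl' _ hy']
    exact hly'
  obtain ⟨x, hx, hxne⟩ : ∃ x ∈ centralizer (R : Set H), ext H y' (h * x * h⁻¹) ≠ 0 := by
    by_contra hcon'
    push Not at hcon'
    exact hne (hl'.supp _ hcon')
  rw [ext_of_mem H y' (hhH x x.2)] at hxne
  let P : Subgroup H := (R'.map (MulAut.conj h).toMonoidHom).subgroupOf H
  have hP : IsPGroup p P := (hR'p.map _).comap_subtype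
  obtain ⟨c, hc⟩ := hyR _ hxne P hP (by
    intro q hq
    rw [mem_centralizer_singleton_iff]
    obtain ⟨d, ⟨r, hr, hrd⟩, hdq⟩ := (Subgroup.mem_subgroupOf.1 hq)
    apply Subtype.ext
    change (q : G) * (h * x * h⁻¹) = (h * x * h⁻¹) * (q : G)
    have h2 : (q : G) = h * r * h⁻¹ := by
      rw [← hdq, ← hrd]; rfl
    have h3 : (r : G) * x = x * r := congrArg Subtype.val (mem_centralizer_iff.1 hx r hr)
    rw [h2]
    calc h * r * h⁻¹ * (h * x * h⁻¹) = h * ((r : G) * x) * h⁻¹ := by group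
      _ = h * x * h⁻¹ * (h * r * h⁻¹) := by rw [h3]; group)
  -- `n = c⁻¹ h` normalises `R'`
  have hnR : ∀ r ∈ R', (c : G)⁻¹ * h * r * ((c : G)⁻¹ * h)⁻¹ ∈ R' := by
    intro r hr
    have h3 := hc ⟨h * r * h⁻¹, hhH r (hR'H hr)⟩ (by
      rw [Subgroup.mem_subgroupOf]
      exact ⟨r, hr, rfl⟩)
    refine ⟨_, h3, ?_⟩
    change (c : G)⁻¹ * (h * r * h⁻¹) * (c : G) = _
    group
  -- transport to `D`
  have hgD : ∀ d ∈ D, g * d * g⁻¹ ∈ R' := by
    intro d hd
    rw [hg]
    have : g⁻¹ * (g * d * g⁻¹) * g = d := by group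
    rw [this]; exact hd
  set n : G := g⁻¹ * ((c : G)⁻¹ * h) * g with hn
  have hnD : n ∈ normalizer (D : Set G) := by
    have h4 : n⁻¹ ∈ normalizer (D : Set G) := by
      apply mem_norm_of_conj_le
      intro d hd
      have h5 := (hg _).1 (hnR _ (hgD d hd))
      have e : n⁻¹⁻¹ * d * n⁻¹ =
          g⁻¹ * ((c : G)⁻¹ * h * (g * d * g⁻¹) * ((c : G)⁻¹ * h)⁻¹) * g := by
        rw [hn]; group
      rw [e]
      exact h5
    simpa using inv_mem h4
  have hvD : g⁻¹ * u * g ∈ D := (hg u).1 huR'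
  refine no_power_fusion he hgen hnD hvD ?_ ?_ (m := m) ?_
  · intro h1
    apply hu1
    have : u = g * (g⁻¹ * u * g) * g⁻¹ := by group
    rw [this, h1]; group
  · obtain ⟨a, ha⟩ := hu
    refine ⟨a, ?_⟩
    have h1 : (g⁻¹ * u * g) ^ p ^ a = g⁻¹ * u ^ p ^ a * g := by
      have := conj_pow (i := p ^ a) (a := g⁻¹) (b := u)
      rwa [inv_inv] at this
    rw [h1, ha]; group
  · have h1 : (g⁻¹ * u * g) ^ m = g⁻¹ * u ^ m * g := by
      have := conj_pow (i := m) (a := g⁻¹) (b := u)
      rwa [inv_inv] at this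
    have h2 : (c : G) * u ^ m = u ^ m * c := by
      have : Commute (c : G) u := (hH c).1 c.2
      exact this.pow_right m
    rw [h1, hn]
    calc g⁻¹ * ((c : G)⁻¹ * h) * g * (g⁻¹ * u * g) * (g⁻¹ * ((c : G)⁻¹ * h) * g)⁻¹ =
        g⁻¹ * ((c : G)⁻¹ * (h * u * h⁻¹) * c) * g := by group
      _ = g⁻¹ * ((c : G)⁻¹ * (u ^ m * c)) * g := by rw [hh]; group
      _ = g⁻¹ * u ^ m * g := by rw [← h2]; group

/-- **(K7)** -/
theorem K7 {D : Subgroup G} {l : (G → k) → k} (hl : BP p D l) (hD : IsPGroup p D)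
    (hDab : ∀ a ∈ D, ∀ b ∈ D, a * b = b * a)
    (he : (centralizer (D : Set G)).relIndex (normalizer (D : Set G)) < p - 1) {m : ℕ}
    (hm : m.Coprime (Nat.card G))
    (hgen : ∀ j : ℕ, ¬ p ∣ j → ∃ i : ℕ, m ^ i ≡ j [MOD ordProj[p] (Nat.card G)]) :
    K7P p red l m := by
  intro u hu hu1 h hh H hH ψ hψ
  exact K7' hl hD hDab he hm hgen hu hu1 hh hH (isHomCF_lam red ψ) hψ

end K7

end P179Y
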