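import Vale.Agent.P179.H524.W

/-! Brauer's theorem: the number of simple `kG`-modules is the number of classes of `p`-regular
elements. -/

namespace P179H524

open MonoidAlgebra

universe u v

section general

variable {k : Type u} {G : Type v} [Field k] [Group G] {r : ℕ} {d : Fin r → ℕ}

theorem exists_coeff_of_trace_functional [∀ i, NeZero (d i)]
    (f : MonoidAlgebra k G →ₐ[k] Π i, Matrix (Fin (d i)) (Fin (d i)) k)
    (hf : Function.Surjective f) (ψ : MonoidAlgebra k G →ₗ[k] k)
    (hψ : ∀ x y, ψ (x * y) = ψ (y * x)) (hker : ∀ x, f x = 0 → ψ x = 0) :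
    ∃ c : Fin r → k, ∀ x, ψ x = ∑ i, c i * (f x i).trace := by
  classical
  have hwd : ∀ x y : MonoidAlgebra k G, f x = f y → ψ x = ψ y := by
    intro x y hxy
    rw [← sub_eq_zero, ← map_sub]
    apply hker
    rw [map_sub, hxy, sub_self]
  choose s hs using hf
  let F : (Π i, Matrix (Fin (d i)) (Fin (d i)) k) →ₗ[k] k :=
    { toFun := fun M => ψ (s M)
      map_add' := by
        intro M N
        rw [← map_add]
        apply hwd
        rw [hs, map_add, hs, hs]
      map_smul' := by
        intro c M
        rw [RingHom.id_apply, ← map_smul]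
        apply hwd
        rw [hs, map_smul, hs] }
  have hF : ∀ x, F (f x) = ψ x := fun x => hwd _ _ (hs _)
  have hFmul : ∀ M N, F (M * N) = F (N * M) := by
    intro M N
    change ψ _ = ψ _
    rw [hwd (s (M * N)) (s M * s N) (by rw [hs, map_mul, hs, hs]),
      hwd (s (N * M)) (s N * s M) (by rw [hs, map_mul, hs, hs]), hψ]
  let E : (i : Fin r) → Fin (d i) → Fin (d i) → (Π i, Matrix (Fin (d i)) (Fin (d i)) k) :=
    fun i a b => Pi.single i (Matrix.single a b 1)
  have hE : ∀ i a b, F (E i a b) = if a = b then F (E i 0 0) else 0 := by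
    intro i a b
    have h1 : E i a b = E i a 0 * E i 0 b := by
      simp only [E, ← Pi.single_mul]
      simp
    have h2 : E i 0 b * E i a 0 = if a = b then E i 0 0 else 0 := by
      simp only [E, ← Pi.single_mul]
      split_ifs with h
      · subst h
        simp
      · rw [Matrix.single_mul_single_of_ne _ _ _ _ (Ne.symm h), Pi.single_zero]
    rw [h1, hFmul, h2]
    split_ifs
    · rfl
    · exact map_zero F
  obtain ⟨c, hc⟩ : ∃ c : Fin r → k, ∀ i a b, F (E i a b) = if a = b then c i else 0 :=
    ⟨fun i => F (E i 0 0), hE⟩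
  refine ⟨c, ?_⟩
  intro x
  rw [← hF]
  have h3 : f x = ∑ i, ∑ a, ∑ b, (f x i a b) • E i a b := by
    funext j
    rw [Finset.sum_apply, Finset.sum_eq_single j]
    · rw [Finset.sum_apply]
      simp only [Finset.sum_apply, Pi.smul_apply, E, Pi.single_eq_same]
      conv_lhs => rw [Matrix.matrix_eq_sum_single (f x j)]
      apply Finset.sum_congr rfl
      intro a _
      apply Finset.sum_congr rfl
      intro b _
      rw [Matrix.smul_single, smul_eq_mul, mul_one]
    · intro i _ hij
      rw [Finset.sum_apply]
      apply Finset.sum_eq_zero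
      intro a _
      rw [Finset.sum_apply]
      apply Finset.sum_eq_zero
      intro b _
      simp only [E, Pi.smul_apply]
      rw [Pi.single_eq_of_ne (Ne.symm hij), smul_zero]
    · intro h
      exact absurd (Finset.mem_univ j) h
  refine (congrArg F h3).trans ?_
  simp only [map_sum, map_smul, hc, smul_eq_mul, mul_ite, mul_zero, Finset.sum_ite_eq,
    Finset.mem_univ, if_true]
  apply Finset.sum_congr rfl
  intro i _
  rw [Matrix.trace, Finset.mul_sum]
  apply Finset.sum_congr rfl
  intro a _
  rw [Matrix.diag_apply, mul_comm]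

/-- Matrix entries are separated: a vanishing combination of the traces is trivial. -/
theorem coeff_eq_zero [∀ i, NeZero (d i)]
    (f : MonoidAlgebra k G →ₐ[k] Π i, Matrix (Fin (d i)) (Fin (d i)) k)
    (hf : Function.Surjective f) (c : Fin r → k)
    (h : ∀ x, ∑ i, c i * (f x i).trace = 0) : c = 0 := by
  classical
  funext j
  obtain ⟨x, hx⟩ := hf (Pi.single j (Matrix.single 0 0 1))
  have := h x
  rw [hx, Finset.sum_eq_single j] at this
  · rw [Pi.single_eq_same] at this
    simpa using this
  · intro i _ hij
    rw [Pi.single_eq_of_ne hij]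
    simp
  · intro h
    exact absurd (Finset.mem_univ j) h

/-- The linear functional `∑ c_i trace_i`. -/
noncomputable def trFun (f : MonoidAlgebra k G →ₐ[k] Π i, Matrix (Fin (d i)) (Fin (d i)) k)
    (c : Fin r → k) (g : G) : k := ∑ i, c i * (f (single g 1) i).trace

theorem trFun_eq_zero (f : MonoidAlgebra k G →ₐ[k] Π i, Matrix (Fin (d i)) (Fin (d i)) k)
    (c : Fin r → k) (h : ∀ g, trFun f c g = 0) (x : MonoidAlgebra k G) :
    ∑ i, c i * (f x i).trace = 0 := by
  induction x using MonoidAlgebra.induction_linear with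
  | zero => simp
  | add x y hx hy =>
    simp only [map_add, Pi.add_apply, Matrix.trace_add, mul_add, Finset.sum_add_distrib]
    rw [hx, hy, add_zero]
  | single g a =>
    have : (single g a : MonoidAlgebra k G) = a • single g 1 := by simp
    rw [this]
    simp only [map_smul, Pi.smul_apply, Matrix.trace_smul, smul_eq_mul]
    have h2 := h g
    rw [trFun] at h2
    calc _ = a * ∑ i, c i * (f (single g 1) i).trace := by
          rw [Finset.mul_sum]
          apply Finset.sum_congr rfl
          intro i _
          ring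
      _ = 0 := by rw [h2, mul_zero]

theorem trFun_conj (f : MonoidAlgebra k G →ₐ[k] Π i, Matrix (Fin (d i)) (Fin (d i)) k)
    (c : Fin r → k) (g h : G) : trFun f c (h * g * h⁻¹) = trFun f c g := by
  rw [trFun, trFun]
  apply Finset.sum_congr rfl
  intro i _
  congr 1
  have h1 : (single (h * g * h⁻¹) 1 : MonoidAlgebra k G) =
      single h 1 * (single g 1 * single h⁻¹ 1) := by
    simp [MonoidAlgebra.single_mul_single, mul_assoc]
  have h2 : (single g 1 * single h⁻¹ 1 * single h 1 : MonoidAlgebra k G) = single g 1 := by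
    simp [MonoidAlgebra.single_mul_single, mul_assoc]
  rw [h1, map_mul, Pi.mul_apply, Matrix.trace_mul_comm, ← Pi.mul_apply, ← map_mul, h2]

end general

section regular

variable {G : Type v} [Group G]

/-- The `p`-regular part of an element, as a power. -/
theorem exists_regular_power (p : ℕ) [hp : Fact p.Prime] [Finite G] (g : G) :
    ∃ e n : ℕ, ¬ p ∣ orderOf (g ^ e) ∧ (g ^ e) ^ p ^ n = g ^ p ^ n := by
  have hg : orderOf g ≠ 0 := (isOfFinOrder_of_finite g).orderOf_pos.ne'
  obtain ⟨a, m, hm, hgm⟩ := Nat.exists_eq_pow_mul_and_not_dvd hg p hp.out.ne_one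
  have hcop : Nat.Coprime (p ^ a) m := Nat.Coprime.pow_left a
    ((Nat.Prime.coprime_iff_not_dvd hp.out).2 hm)
  obtain ⟨e, he1, he2⟩ := Nat.chineseRemainder hcop 0 1
  refine ⟨e, a, ?_, ?_⟩
  · have h1 : orderOf (g ^ e) ∣ m := by
      apply orderOf_dvd_of_pow_eq_one
      rw [← pow_mul, ← orderOf_dvd_iff_pow_eq_one, hgm]
      exact Nat.mul_dvd_mul ((Nat.modEq_zero_iff_dvd).1 he1) dvd_rfl
    exact fun h => hm (h.trans h1)
  · rw [← pow_mul, pow_eq_pow_iff_modEq, hgm]
    have := Nat.ModEq.mul_left' (p ^ a) he2
    rw [mul_one] at this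
    rw [mul_comm e (p ^ a)]
    exact this

/-- The `p`-regular elements. -/
def Reg (p : ℕ) (G : Type v) [Group G] : Type v := {x : G // ¬ p ∣ orderOf x}

instance (p : ℕ) : MulAction G (Reg p G) where
  smul g x := ⟨g * x.1 * g⁻¹, by
    have : orderOf (g * x.1 * g⁻¹) = orderOf x.1 := by
      have := orderOf_injective (MulAut.conj g).toMonoidHom (MulAut.conj g).injective x.1
      simpa using this
    rw [this]
    exact x.2⟩
  one_smul x := Subtype.ext (by change 1 * x.1 * 1⁻¹ = x.1; simp)
  mul_smul g h x := Subtype.ext (by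
    change g * h * x.1 * (g * h)⁻¹ = g * (h * x.1 * h⁻¹) * g⁻¹
    group)

theorem Reg.smul_val (p : ℕ) (g : G) (x : Reg p G) : (g • x).1 = g * x.1 * g⁻¹ := rfl

instance (p : ℕ) [Finite G] : Finite (Reg p G) := Subtype.finite

end regular

section charp

variable {k : Type u} {G : Type v} [Field k] [Group G] [Finite G] {r : ℕ} {d : Fin r → ℕ}

theorem trace_eq_of_pow (p : ℕ) [hp : Fact p.Prime] [CharP k p] {n : Type*} [Fintype n]
    [DecidableEq n] (A B : Matrix n n k) (hAB : Commute A B) (m : ℕ)
    (h : A ^ p ^ m = B ^ p ^ m) : A.trace = B.trace := by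
  rcases isEmpty_or_nonempty n with hn | hn
  · simp [Matrix.trace]
  have hnil : IsNilpotent (A - B) := by
    refine ⟨p ^ m, ?_⟩
    rw [sub_pow_char_pow_of_commute _ _ hAB, h, sub_self]
  have := (Matrix.isNilpotent_trace_of_isNilpotent hnil).eq_zero
  rwa [Matrix.trace_sub, sub_eq_zero] at this

theorem trFun_regular (p : ℕ) [hp : Fact p.Prime] [CharP k p]
    (f : MonoidAlgebra k G →ₐ[k] Π i, Matrix (Fin (d i)) (Fin (d i)) k) (c : Fin r → k)
    (h : ∀ g : G, ¬ p ∣ orderOf g → trFun f c g = 0) (g : G) : trFun f c g = 0 := by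
  obtain ⟨e, n, he, hn⟩ := exists_regular_power p g
  rw [← h _ he, trFun, trFun]
  apply Finset.sum_congr rfl
  intro i _
  congr 1
  apply trace_eq_of_pow p _ _ _ n
  · have hpow : ∀ (x : MonoidAlgebra k G) (N : ℕ), f x i ^ N = f (x ^ N) i := by
      intro x N
      rw [map_pow, Pi.pow_apply]
    rw [hpow, hpow, MonoidAlgebra.single_pow, MonoidAlgebra.single_pow, hn]
  · have : Commute (single g 1 : MonoidAlgebra k G) (single (g ^ e) 1) := by
      rw [Commute, SemiconjBy, MonoidAlgebra.single_mul_single, MonoidAlgebra.single_mul_single,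
        ← pow_succ, ← pow_succ']
    have h2 := this.map f
    exact congrFun h2 i

/-- The permutation matrices. -/
noncomputable def permAlg (k : Type u) [Field k] (G : Type v) [Group G] (X : Type*) [Fintype X]
    [DecidableEq X] [MulAction G X] : MonoidAlgebra k G →ₐ[k] Matrix X X k :=
  MonoidAlgebra.lift k _ G
    { toFun := fun g => Matrix.of (fun a b => if g • b = a then 1 else 0)
      map_one' := by
        ext a b
        simp [Matrix.one_apply, eq_comm]
      map_mul' := by
        intro g h
        ext a b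
        rw [Matrix.mul_apply]
        simp only [Matrix.of_apply, mul_smul]
        rw [Finset.sum_eq_single (h • b)]
        · simp
        · intro c _ hc
          simp [Ne.symm hc]
        · intro h
          exact absurd (Finset.mem_univ _) h }

omit [Finite G] in
theorem permAlg_single (X : Type*) [Fintype X]
    [DecidableEq X] [MulAction G X] (g : G) :
    permAlg k G X (single g 1) = Matrix.of (fun a b => if g • b = a then 1 else 0) := by
  rw [permAlg, MonoidAlgebra.lift_single, one_smul]
  rfl

theorem isNilpotent_of_mem_jacobson (x : MonoidAlgebra k G)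
    (hx : x ∈ Ring.jacobson (MonoidAlgebra k G)) : IsNilpotent x := by
  have : Module.Finite k (MonoidAlgebra k G) :=
    Module.Finite.equiv (MonoidAlgebra.coeffLinearEquiv k).symm
  have : IsArtinianRing (MonoidAlgebra k G) := IsArtinianRing.of_finite k _
  obtain ⟨n, hn⟩ := IsSemiprimaryRing.isNilpotent (R := MonoidAlgebra k G)
  refine ⟨n, ?_⟩
  have := Ideal.pow_mem_pow hx n
  rw [hn] at this
  exact this

/-- For a `G`-equivariant self-map `e` of a finite `G`-set `X`, `g ↦ #{b | g • e b = b}` is a
trace functional that factors through the semisimple quotient. -/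
theorem exists_trFun_of_equivariant [∀ i, NeZero (d i)]
    (f : MonoidAlgebra k G →ₐ[k] Π i, Matrix (Fin (d i)) (Fin (d i)) k)
    (hf : Function.Surjective f)
    (hker : ∀ x, f x = 0 → x ∈ Ring.jacobson (MonoidAlgebra k G))
    (X : Type*) [Finite X] [MulAction G X] (e : X → X)
    (he : ∀ (g : G) (b : X), e (g • b) = g • e b) :
    ∃ c : Fin r → k, ∀ g, trFun f c g = (Nat.card {b : X // g • e b = b} : k) := by
  classical
  have := Fintype.ofFinite X
  let R : Matrix X X k := Matrix.of (fun a b => if e b = a then 1 else 0)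
  have hR : ∀ y, permAlg k G X y * R = R * permAlg k G X y := by
    intro y
    induction y using MonoidAlgebra.induction_linear with
    | zero => simp
    | add x y hx hy => rw [map_add, add_mul, mul_add, hx, hy]
    | single g a =>
      have : (single g a : MonoidAlgebra k G) = a • single g 1 := by simp
      rw [this, map_smul, smul_mul_assoc, mul_smul_comm]
      congr 1
      rw [permAlg_single]
      ext a b
      rw [Matrix.mul_apply, Matrix.mul_apply]
      simp only [Matrix.of_apply, R]
      rw [Finset.sum_eq_single (e b), Finset.sum_eq_single (g • b)]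
      · simp [he]
      · intro c _ hc
        simp [Ne.symm hc]
      · intro h
        exact absurd (Finset.mem_univ _) h
      · intro c _ hc
        simp [Ne.symm hc]
      · intro h
        exact absurd (Finset.mem_univ _) h
  let ψ : MonoidAlgebra k G →ₗ[k] k :=
    { toFun := fun y => (permAlg k G X y * R).trace
      map_add' := by
        intro x y
        rw [map_add, add_mul, Matrix.trace_add]
      map_smul' := by
        intro c x
        rw [map_smul, smul_mul_assoc, Matrix.trace_smul]
        rfl }
  have hψ : ∀ y, ψ y = (permAlg k G X y * R).trace := fun _ => rfl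
  obtain ⟨c, hc⟩ := exists_coeff_of_trace_functional f hf ψ (by
    intro x y
    rw [hψ, hψ, map_mul, map_mul, mul_assoc, hR y, ← mul_assoc, Matrix.trace_mul_comm,
      ← mul_assoc]) (by
    intro x hx
    have h1 : IsNilpotent (permAlg k G X x) :=
      (isNilpotent_of_mem_jacobson x (hker x hx)).map (permAlg k G X)
    have h2 : IsNilpotent (permAlg k G X x * R) := by
      apply Commute.isNilpotent_mul_right
      · exact hR x
      · exact h1
    exact (Matrix.isNilpotent_trace_of_isNilpotent h2).eq_zero)
  refine ⟨c, fun g => ?_⟩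
  rw [trFun, ← hc, hψ, permAlg_single, Matrix.trace]
  simp only [Matrix.diag_apply, Matrix.mul_apply, Matrix.of_apply, R]
  rw [Nat.card_eq_fintype_card, Fintype.card_subtype, Finset.card_filter, Nat.cast_sum]
  apply Finset.sum_congr rfl
  intro a _
  rw [Finset.sum_eq_single (e a)]
  · simp
  · intro b _ hb
    simp [Ne.symm hb]
  · intro h
    exact absurd (Finset.mem_univ _) h

end charp

section cosets

variable {G : Type v} [Group G] [Finite G]

omit [Finite G] in
/-- A `p`-element `u` commuting with a `p`-regular `x` such that `u * x` is `p`-regular is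
trivial. -/
theorem eq_one_of_regular (p : ℕ) [hp : Fact p.Prime] (u x : G) (hu : ∃ n, u ^ p ^ n = 1)
    (hx : ¬ p ∣ orderOf x) (hux : Commute u x) (h : ¬ p ∣ orderOf (u * x)) : u = 1 := by
  obtain ⟨n, hn⟩ := hu
  have h1 : orderOf u ∣ p ^ n := orderOf_dvd_of_pow_eq_one hn
  obtain ⟨m, -, hm⟩ := (Nat.dvd_prime_pow hp.out).1 h1
  have hcop : Nat.Coprime (orderOf u) (orderOf x) := by
    rw [hm]
    exact Nat.Coprime.pow_left _ ((Nat.Prime.coprime_iff_not_dvd hp.out).2 hx)
  rw [hux.orderOf_mul_eq_mul_orderOf_of_coprime hcop, hm] at h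
  rcases Nat.eq_zero_or_pos m with h0 | h0
  · rw [h0, pow_zero] at hm
    exact orderOf_eq_one_iff.1 hm
  · exact absurd ((dvd_pow_self p h0.ne').mul_right _) h

theorem exists_equivariant (p : ℕ) [hp : Fact p.Prime] (x : G) (hx : ¬ p ∣ orderOf x) :
    ∃ (X : Type v) (_ : Finite X) (_ : MulAction G X) (e : X → X),
      (∀ (g : G) (b : X), e (g • b) = g • e b) ∧
      (¬ p ∣ Nat.card {b : X // x • e b = b}) ∧
      ∀ g : G, ¬ p ∣ orderOf g → (¬ ∃ a : G, a⁻¹ * g * a = x) →
        Nat.card {b : X // g • e b = b} = 0 := by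
  classical
  let C := Subgroup.centralizer {x}
  obtain ⟨S⟩ : Nonempty (Sylow p C) := inferInstance
  let P : Subgroup G := S.toSubgroup.map C.subtype
  have hP1 : ∀ u ∈ P, u * x = x * u := by
    rintro u ⟨c, -, rfl⟩
    exact ((Subgroup.mem_centralizer_singleton_iff).1 c.2)
  have hP2 : ∀ u ∈ P, ∃ n, u ^ p ^ n = 1 := by
    rintro u ⟨c, hc, rfl⟩
    obtain ⟨n, hn⟩ := S.isPGroup' ⟨c, hc⟩
    refine ⟨n, ?_⟩
    rw [Subtype.ext_iff, Subtype.ext_iff] at hn
    exact hn
  let e : G ⧸ P → G ⧸ P := Quotient.map' (fun a => a * x⁻¹) (by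
    intro a b hab
    rw [QuotientGroup.leftRel_apply] at hab ⊢
    have h1 := hP1 _ hab
    have : (a * x⁻¹)⁻¹ * (b * x⁻¹) = a⁻¹ * b := by
      calc (a * x⁻¹)⁻¹ * (b * x⁻¹) = x * (a⁻¹ * b) * x⁻¹ := by group
        _ = a⁻¹ * b := by rw [← h1]; group
    rw [this]
    exact hab)
  have he : ∀ a : G, e (QuotientGroup.mk a) = QuotientGroup.mk (a * x⁻¹) := fun _ => rfl
  have hfix : ∀ (g a : G), ¬ p ∣ orderOf g →
      (g • e (QuotientGroup.mk a) = QuotientGroup.mk a ↔ a⁻¹ * g * a = x) := by
    intro g a hg
    rw [he, eq_comm]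
    change (QuotientGroup.mk a : G ⧸ P) = QuotientGroup.mk (g * (a * x⁻¹)) ↔ _
    rw [QuotientGroup.eq]
    constructor
    · intro h
      have h1 : a⁻¹ * (g * (a * x⁻¹)) = 1 := by
        apply eq_one_of_regular p _ x (hP2 _ h) hx (hP1 _ h)
        have : a⁻¹ * (g * (a * x⁻¹)) * x = a⁻¹ * g * a := by group
        rw [this]
        have h2 : orderOf (a⁻¹ * g * a) = orderOf g := by
          have := orderOf_injective (MulAut.conj a⁻¹).toMonoidHom (MulAut.conj a⁻¹).injective g
          simpa using this
        rw [h2]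
        exact hg
      calc a⁻¹ * g * a = a⁻¹ * (g * (a * x⁻¹)) * x := by group
        _ = x := by rw [h1, one_mul]
    · intro h
      have : a⁻¹ * (g * (a * x⁻¹)) = 1 := by
        calc a⁻¹ * (g * (a * x⁻¹)) = a⁻¹ * g * a * x⁻¹ := by group
          _ = 1 := by rw [h, mul_inv_cancel]
      rw [this]
      exact P.one_mem
  refine ⟨G ⧸ P, inferInstance, inferInstance, e, ?_, ?_, ?_⟩
  · intro g b
    induction b using QuotientGroup.induction_on with
    | H a =>
      change e (QuotientGroup.mk (g * a)) = g • e (QuotientGroup.mk a)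
      rw [he, he]
      change _ = (QuotientGroup.mk (g * (a * x⁻¹)) : G ⧸ P)
      rw [mul_assoc]
  · have hbij : Nat.card (C ⧸ S.toSubgroup) = Nat.card {b : G ⧸ P // x • e b = b} := by
      let F : C ⧸ S.toSubgroup → {b : G ⧸ P // x • e b = b} := fun q =>
        Quotient.liftOn' q (fun c => ⟨QuotientGroup.mk c.1, by
          rw [hfix _ _ hx]
          have := (Subgroup.mem_centralizer_singleton_iff).1 c.2
          rw [mul_assoc, ← this]
          group⟩) (by
          intro a b hab
          rw [QuotientGroup.leftRel_apply] at hab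
          apply Subtype.ext
          change (QuotientGroup.mk a.1 : G ⧸ P) = QuotientGroup.mk b.1
          rw [QuotientGroup.eq]
          exact ⟨a⁻¹ * b, hab, rfl⟩)
      refine Nat.card_congr (Equiv.ofBijective F ⟨?_, ?_⟩)
      · intro q₁ q₂
        induction q₁ using QuotientGroup.induction_on with
        | H a =>
        induction q₂ using QuotientGroup.induction_on with
        | H b =>
        intro h
        have h1 := Subtype.ext_iff.1 h
        change (QuotientGroup.mk a.1 : G ⧸ P) = QuotientGroup.mk b.1 at h1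
        rw [QuotientGroup.eq] at h1 ⊢
        obtain ⟨c, hc, hc2⟩ := h1
        have : c = a⁻¹ * b := Subtype.ext hc2
        rw [← this]
        exact hc
      · rintro ⟨b, hb⟩
        induction b using QuotientGroup.induction_on with
        | H a =>
        rw [hfix _ _ hx] at hb
        refine ⟨QuotientGroup.mk ⟨a, ?_⟩, rfl⟩
        rw [Subgroup.mem_centralizer_singleton_iff]
        calc a * x = a * (a⁻¹ * x * a) := by rw [hb]
          _ = x * a := by group
    rw [← hbij]
    exact S.not_dvd_index
  · intro g hg hga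
    rw [Nat.card_eq_zero]
    left
    refine ⟨fun ⟨b, hb⟩ => ?_⟩
    induction b using QuotientGroup.induction_on with
    | H a =>
    rw [hfix _ _ hg] at hb
    exact hga ⟨a, hb⟩

end cosets

section main

variable (p : ℕ) [hp : Fact p.Prime] (k : Type u) [Field k] [IsAlgClosed k] [CharP k p]
  (G : Type v) [Group G] [Finite G]

/-- **Brauer**: the number of simple `kG`-modules is the number of classes of `p`-regular
elements. -/
theorem numSimple_eq_card_orbits :
    numSimple k G = Nat.card (MulAction.orbitRel.Quotient G (Reg p G)) := by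
  classical
  obtain ⟨r, d, hd, f, hf, hker⟩ := exists_wedderburn k G
  rw [numSimple_eq f hf hker]
  let Ω := MulAction.orbitRel.Quotient G (Reg p G)
  have : Finite Ω := Quotient.finite _
  have := Fintype.ofFinite Ω
  let Φ : (Fin r → k) →ₗ[k] (Ω → k) :=
    { toFun := fun c ω => Quotient.liftOn' ω (fun x => trFun f c x.1) (by
        rintro x y ⟨g, rfl⟩
        exact trFun_conj f c y.1 g)
      map_add' := by
        intro c c'
        funext ω
        induction ω using Quotient.inductionOn' with
        | h x =>
        change trFun f (c + c') x.1 = trFun f c x.1 + trFun f c' x.1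
        simp only [trFun, Pi.add_apply, add_mul, Finset.sum_add_distrib]
      map_smul' := by
        intro a c
        funext ω
        induction ω using Quotient.inductionOn' with
        | h x =>
        change trFun f (a • c) x.1 = a * trFun f c x.1
        simp only [trFun, Pi.smul_apply, smul_eq_mul, Finset.mul_sum, mul_assoc] }
  have hΦ : ∀ c (x : Reg p G), Φ c (Quotient.mk'' x) = trFun f c x.1 := fun _ _ => rfl
  have hinj : Function.Injective Φ := by
    rw [injective_iff_map_eq_zero]
    intro c hc
    apply coeff_eq_zero f hf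
    apply trFun_eq_zero
    apply trFun_regular p
    intro g hg
    rw [← hΦ c ⟨g, hg⟩, hc]
    rfl
  have hsurj : Function.Surjective Φ := by
    rw [← LinearMap.range_eq_top, eq_top_iff]
    intro h _
    rw [← Finset.univ_sum_single h]
    apply Submodule.sum_mem
    intro ω _
    induction ω using Quotient.inductionOn' with
    | h x =>
    obtain ⟨X, hX, hact, e, he, h1, h2⟩ := exists_equivariant p x.1 x.2
    obtain ⟨c, hc⟩ := exists_trFun_of_equivariant f hf hker X e he
    have hne : (Nat.card {b : X // x.1 • e b = b} : k) ≠ 0 := by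
      rw [Ne, CharP.cast_eq_zero_iff k p]
      exact h1
    have h3 : Pi.single (Quotient.mk'' x : Ω) (h (Quotient.mk'' x)) =
        Φ ((h (Quotient.mk'' x) * (Nat.card {b : X // x.1 • e b = b} : k)⁻¹) • c) := by
      funext ω'
      induction ω' using Quotient.inductionOn' with
      | h y =>
      rw [map_smul, Pi.smul_apply, hΦ, hc, smul_eq_mul]
      by_cases hxy : (Quotient.mk'' y : Ω) = Quotient.mk'' x
      · have h4 : trFun f c y.1 = trFun f c x.1 := by
          rw [← hΦ, ← hΦ, hxy]
        rw [← hc y.1, h4, hc x.1, hxy, Pi.single_eq_same, mul_assoc, inv_mul_cancel₀ hne, mul_one]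
      · rw [Pi.single_eq_of_ne hxy, h2 y.1 y.2, Nat.cast_zero, mul_zero]
        rintro ⟨a, ha⟩
        apply hxy
        rw [Quotient.eq'']
        symm
        refine ⟨a⁻¹, Subtype.ext ?_⟩
        change a⁻¹ * y.1 * a⁻¹⁻¹ = x.1
        rw [inv_inv]
        exact ha
    rw [h3]
    exact LinearMap.mem_range_self _ _
  have h5 := (LinearEquiv.ofBijective Φ ⟨hinj, hsurj⟩).finrank_eq
  rw [Module.finrank_fintype_fun_eq_card, Module.finrank_fintype_fun_eq_card,
    Fintype.card_fin] at h5
  rw [h5, Nat.card_eq_fintype_card]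

theorem card_mul_numSimple :
    Nat.card G * numSimple k G =
      Nat.card {xy : G × G // Commute xy.1 xy.2 ∧ ¬ p ∣ orderOf xy.1} := by
  classical
  have := Fintype.ofFinite G
  have := Fintype.ofFinite (Reg p G)
  have : Finite (MulAction.orbitRel.Quotient G (Reg p G)) := Quotient.finite _
  have := Fintype.ofFinite (MulAction.orbitRel.Quotient G (Reg p G))
  rw [numSimple_eq_card_orbits p k G]
  have h := MulAction.sum_card_fixedBy_eq_card_orbits_mul_card_group G (Reg p G)
  rw [Nat.card_eq_fintype_card, Nat.card_eq_fintype_card, mul_comm, ← h]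
  rw [← Fintype.card_sigma, ← Nat.card_eq_fintype_card]
  refine Nat.card_congr ?_
  exact
    { toFun := fun s => ⟨(s.2.1.1, s.1), by
        have h1 := congrArg Subtype.val s.2.2
        change s.1 * s.2.1.1 * s.1⁻¹ = s.2.1.1 at h1
        change s.2.1.1 * s.1 = s.1 * s.2.1.1
        rw [← mul_inv_eq_iff_eq_mul.1 h1], s.2.1.2⟩
      invFun := fun t => ⟨t.1.2, ⟨⟨t.1.1, t.2.2⟩, by
        apply Subtype.ext
        change t.1.2 * t.1.1 * t.1.2⁻¹ = t.1.1
        rw [← t.2.1.eq, mul_assoc, mul_inv_cancel, mul_one]⟩⟩
      left_inv := fun _ => rfl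
      right_inv := fun _ => rfl }

end main

end P179H524
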