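import Vale.Agent.P179.H524.MC4

/-!
# Theorem M, part C: the lemma (CL)
-/

namespace P179M

open P179A Subgroup

open scoped Classical Pointwise

attribute [local instance] act2

variable {G : Type*} [Group G] [Finite G]

/-- Conjugation, with `ξ` moved. -/
theorem FK_conj' {p : ℕ} {g ξ : G} {q : ℕ} {n : G} (hng : n * g = g * n)
    {K K' : Subgroup (G × G)} (hK : ∀ k, k ∈ K' ↔ (dg n)⁻¹ * k * dg n ∈ K) :
    FK p g q (n * ξ * n⁻¹) K' = FK p g q ξ K := by
  have hx : ∀ w : Tri G, dg n • w = n • w := fun _ => rfl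
  symm
  refine Finset.sum_bij (fun w _ => dg n • w) ?_ ?_ ?_ ?_
  · intro w hw
    rw [mem_XX] at hw ⊢
    refine ⟨?_, ?_, fun k hk => ?_⟩
    · rw [hx]; exact hw.1.smul hng
    · rw [act_x, conj_pow, hw.2.1]
      rfl
    · rw [fix_act]
      exact hw.2.2 _ ((hK k).1 hk)
  · intro w _ w' _ h
    exact MulAction.injective (dg n) h
  · intro w hw
    rw [mem_XX] at hw
    refine ⟨(dg n)⁻¹ • w, ?_, smul_inv_smul _ _⟩
    rw [mem_XX]
    refine ⟨?_, ?_, fun k hk => ?_⟩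
    · have h1 : (dg n)⁻¹ • w = n⁻¹ • w := rfl
      rw [h1]
      refine hw.1.smul ?_
      have hcg : Commute n g := hng
      exact hcg.inv_left
    · rw [act_x, conj_pow, hw.2.1]
      change n⁻¹ * (n * ξ * n⁻¹) * n⁻¹⁻¹ = ξ
      group
    · rw [fix_act, inv_inv]
      refine hw.2.2 _ ((hK _).2 ?_)
      have : (dg n)⁻¹ * (dg n * k * (dg n)⁻¹) * dg n = k := by group
      rw [this]; exact hk
  · intro w _
    change _ = (-1 : ℤ) ^ (MulAut.conj n • w.s).card
    rw [card_smul_chain]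

omit [Finite G] in
theorem zpowers_le_St {k : G × G} {w : Tri G} : zpowers k ≤ St w ↔ Fix k w := by
  rw [zpowers_le]
  rfl

theorem s1_eq_smul_iff {p : ℕ} {g : G} {w : Tri G} (hw : InO p g w) {q N : ℕ} {τ : G} :
    s1^[q * N] w = τ • w ↔ Fix (τ, τ * (w.x ^ q) ^ N) w := by
  rw [s1_iterate, ← pow_mul]
  constructor
  · intro h
    have h1 := congrArg Tri.x h
    have h2 := congrArg Tri.y h
    have h3 := congrArg Tri.s h
    simp only [smul_x, smul_y, smul_s, rm] at h1 h2 h3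
    have h4 : τ * w.x = w.x * τ := (eq_mul_inv_iff_mul_eq.1 h1).symm
    refine ⟨h4, mem_stab_of_conj_smul_eq hw.chain.2 h3.symm, ?_⟩
    have c : Commute τ (w.x ^ (q * N)) := Commute.pow_right h4 _
    change τ * w.y = w.y * (τ * w.x ^ (q * N))
    rw [c.eq, ← mul_assoc, h2, inv_mul_cancel_right]
  · rintro ⟨h1, h2, h3⟩
    change τ * w.x = w.x * τ at h1
    change τ ∈ stab w.s at h2
    change τ * w.y = w.y * (τ * w.x ^ (q * N)) at h3
    have c : Commute τ (w.x ^ (q * N)) := Commute.pow_right h1 _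
    apply Tri.ext
    · simp only [smul_x, rm]; rw [h1, mul_inv_cancel_right]
    · simp only [smul_y, rm]
      rw [h3, c.eq]; group
    · simp only [smul_s, rm]
      exact (P179A.conj_smul_eq_self_of_mem h2).symm

/-- the divisibility for a single `ξ` -/
theorem FK_cl {p : ℕ} [hp : Fact p.Prime] {g ξ : G} {q : ℕ}
    (hq : ∀ x : G, ∃ n : ℕ, (x ^ q) ^ (p ^ n) = 1) {Q : Subgroup G} (hQ : IsPGroup p Q)
    (hg : ∀ a ∈ Q, a * g = g * a) (hQξ : ∀ a ∈ Q, a * ξ = ξ * a) {τ : G} (hτ : τ ∈ Q)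
    (hc : ∀ a ∈ Q, a * τ = τ * a) (h1 : τ ≠ 1) (j : ℕ) :
    ((p ^ j * orderOf τ * Nat.card Q : ℕ) : ℤ) ∣ FK p g q ξ (zpowers (τ, τ * ξ ^ p ^ j)) := by
  by_cases hne : (XX p g q ξ (zpowers (τ, τ * ξ ^ p ^ j))).Nonempty
  · obtain ⟨w, hw⟩ := hne
    have hw' := mem_XX.1 hw
    have hpξ : ∃ n : ℕ, ξ ^ p ^ n = 1 := by
      rw [← hw'.2.1]; exact hq w.x
    set K : Subgroup (G × G) := zpowers (τ, τ * ξ ^ p ^ j) with hK
    have hτV : τ ∈ VK K := mem_VK.2 ⟨_, mem_zpowers _⟩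
    have hgood : Good p g ξ Q K := by
      refine ⟨hQ, hpξ, hg, hQξ, ?_, ?_⟩
      · have : K ≤ Q.prod ⊤ := by
          rw [hK, zpowers_le]
          exact mem_prod.2 ⟨hτ, mem_top _⟩
        intro k hk
        exact (mem_prod.1 (this hk)).1
      · have : K ≤ (⊤ : Subgroup G).prod (AK ξ K) := by
          rw [hK, zpowers_le, ← hK]
          refine mem_prod.2 ⟨mem_top _, mul_mem (le_sup_left (a := VK K) hτV)
            (pow_mem (ξ_mem_AK ξ K) _)⟩
        intro k hk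
        exact (mem_prod.1 (this hk)).2
    have hnorm : NormK Q K := by
      intro a ha k hk
      obtain ⟨n, rfl⟩ := mem_zpowers_iff.1 hk
      have c1 : Commute a τ := hc a ha
      have c2 : Commute a ξ := hQξ a ha
      have c3 : Commute (dg a) (τ, τ * ξ ^ p ^ j) := by
        apply Prod.ext
        · exact c1
        · exact c1.mul_right (c2.pow_right _)
      rw [(c3.zpow_right n).eq, mul_inv_cancel_right]
      exact zpow_mem (mem_zpowers _) n
    have hdvd := FK_dvd (q := q) K hgood Q le_rfl hnorm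
    -- the order of `τ`
    obtain ⟨a, ha⟩ : ∃ a : ℕ, orderOf τ = p ^ a := by
      obtain ⟨a, ha⟩ := (IsPGroup.iff_orderOf.1 hQ) ⟨τ, hτ⟩
      exact ⟨a, by rw [← ha, Subgroup.orderOf_mk]⟩
    obtain ⟨b, hb⟩ : ∃ b : ℕ, orderOf ξ = p ^ b := by
      obtain ⟨n, hn⟩ := hpξ
      obtain ⟨k, _, hk⟩ := (Nat.dvd_prime_pow hp.out).1 (orderOf_dvd_of_pow_eq_one hn)
      exact ⟨k, hk⟩
    have ha0 : a ≠ 0 := by
      rintro rfl
      rw [pow_zero, orderOf_eq_one_iff] at ha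
      exact h1 ha
    obtain ⟨m, rfl⟩ := Nat.exists_eq_succ_of_ne_zero ha0
    by_cases hx : ξ ^ (p ^ (j + m)) = 1
    · -- toggle by `⟨τ ^ (p ^ m)⟩`
      have hU1 : zpowers (τ ^ p ^ m) ≠ ⊥ := by
        rw [Ne, zpowers_eq_bot]
        intro h2
        have h3 := orderOf_dvd_of_pow_eq_one h2
        rw [ha, Nat.succ_eq_add_one] at h3
        have h4 := (Nat.pow_dvd_pow_iff_le_right hp.out.one_lt).1 h3
        omega
      have hcτξ : Commute τ ξ := hQξ τ hτ
      rw [FK_toggle (U := zpowers (τ ^ p ^ m)) (hQ.to_le ?_) hU1 ?_ ?_]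
      · exact dvd_zero _
      · rw [zpowers_le]; exact pow_mem hτ _
      · intro u hu
        obtain ⟨n, rfl⟩ := mem_zpowers_iff.1 hu
        refine ⟨_, hu, ?_⟩
        have h2 : ((τ, τ * ξ ^ p ^ j) : G × G) ^ p ^ m = (τ ^ p ^ m, τ ^ p ^ m) := by
          rw [Prod.pow_mk, (hcτξ.pow_right _).mul_pow, ← pow_mul, ← pow_add, hx, mul_one]
        have h3 : (((τ ^ p ^ m) ^ n, (τ ^ p ^ m) ^ n) : G × G) =
            (((τ, τ * ξ ^ p ^ j) : G × G) ^ p ^ m) ^ n := by
          rw [h2]; rfl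
        rw [h3]
        exact zpow_mem (pow_mem (mem_zpowers _) _) _
      · intro k hk
        obtain ⟨n, rfl⟩ := mem_zpowers_iff.1 hk
        refine mem_normalizer_of_comm fun u hu => ?_
        obtain ⟨n', rfl⟩ := mem_zpowers_iff.1 hu
        change τ ^ n * (τ ^ p ^ m) ^ n' = (τ ^ p ^ m) ^ n' * τ ^ n
        exact (((Commute.refl τ).pow_right _).zpow_right n').zpow_left n
    · -- the order of `ξ` is large
      have h2 : j + m < b := by
        by_contra hcon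
        push Not at hcon
        apply hx
        rw [← orderOf_dvd_iff_pow_eq_one, hb]
        exact pow_dvd_pow p hcon
      refine dvd_trans (Int.natCast_dvd_natCast.2 ?_) hdvd
      rw [hb, ha, mul_comm (Nat.card Q), ← pow_add]
      exact Nat.mul_dvd_mul_right (pow_dvd_pow p (by rw [Nat.succ_eq_add_one]; omega)) _
  · rw [Finset.not_nonempty_iff_eq_empty] at hne
    rw [FK, hne, Finset.sum_empty]
    exact dvd_zero _

/-- **(CL)** -/
theorem CL (p : ℕ) [hp : Fact p.Prime] (g : G) (q : ℕ)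
    (hq : ∀ x : G, ∃ n : ℕ, (x ^ q) ^ (p ^ n) = 1) (Q : Subgroup G) (hQ : IsPGroup p Q)
    (hg : ∀ a ∈ Q, a * g = g * a) (τ : G) (hτ : τ ∈ Q) (hc : ∀ a ∈ Q, a * τ = τ * a)
    (h1 : τ ≠ 1) (j : ℕ) :
    ((p ^ j * orderOf τ * Nat.card Q : ℕ) : ℤ) ∣
      ∑ w ∈ (OF p g).filter (fun w => s1^[q * p ^ j] w = τ • w), (-1 : ℤ) ^ w.s.card := by
  have := Fintype.ofFinite G
  have hsum : ∑ w ∈ (OF p g).filter (fun w => s1^[q * p ^ j] w = τ • w), (-1 : ℤ) ^ w.s.card =
      ∑ ξ ∈ (Finset.univ : Finset G), FK p g q ξ (zpowers (τ, τ * ξ ^ p ^ j)) := by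
    rw [← Finset.sum_fiberwise_of_maps_to (t := (Finset.univ : Finset G))
      (g := fun w : Tri G => w.x ^ q) (fun _ _ => Finset.mem_univ _)]
    refine Finset.sum_congr rfl fun ξ _ => ?_
    rw [FK]
    refine Finset.sum_congr ?_ fun _ _ => rfl
    ext w
    rw [Finset.mem_filter, Finset.mem_filter, XX, Finset.mem_filter, mem_OF]
    constructor
    · rintro ⟨⟨h2, h3⟩, h4⟩
      refine ⟨h2, h4, ?_⟩
      rw [s1_eq_smul_iff h2, h4] at h3
      exact zpowers_le_St.2 h3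
    · rintro ⟨h2, h4, h3⟩
      refine ⟨⟨h2, ?_⟩, h4⟩
      rw [s1_eq_smul_iff h2, h4]
      exact zpowers_le_St.1 h3
  rw [hsum]
  let φ : Q →* Equiv.Perm G := (MulAction.toPermHom (MulAut G) G).comp
    (MulAut.conj.comp Q.subtype)
  have hφ : ∀ (a : Q) (ξ : G), φ a ξ = a.1 * ξ * a.1⁻¹ := fun _ _ => rfl
  refine dvd_sum_hom φ _ (fun _ _ _ => Finset.mem_univ _) _ ?_ _ ?_
  · intro a ξ _
    rw [hφ]
    refine FK_conj' (hg a.1 a.2) fun k => ?_
    have c1 : Commute a.1 τ := hc a.1 a.2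
    have h2 : dg a.1 * (τ, τ * ξ ^ p ^ j) * (dg a.1)⁻¹ =
        (τ, τ * (a.1 * ξ * a.1⁻¹) ^ p ^ j) := by
      apply Prod.ext
      · change a.1 * τ * a.1⁻¹ = τ
        rw [c1.eq, mul_inv_cancel_right]
      · change a.1 * (τ * ξ ^ p ^ j) * a.1⁻¹ = τ * (a.1 * ξ * a.1⁻¹) ^ p ^ j
        rw [conj_pow, ← mul_assoc, c1.eq]
        group
    rw [← h2]
    constructor
    · intro hk
      obtain ⟨n, rfl⟩ := mem_zpowers_iff.1 hk
      refine mem_zpowers_iff.2 ⟨n, ?_⟩
      rw [conj_zpow]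
      group
    · intro hk
      obtain ⟨n, hn⟩ := mem_zpowers_iff.1 hk
      refine mem_zpowers_iff.2 ⟨n, ?_⟩
      rw [conj_zpow, hn]
      group
  · intro ξ _ T hT c hcT
    let Qξ : Subgroup G := T.map Q.subtype
    have hQξQ : Qξ ≤ Q := by
      rintro _ ⟨a, _, rfl⟩
      exact a.2
    have hmem : ∀ a, a ∈ Qξ ↔ a ∈ Q ∧ a * ξ = ξ * a := by
      intro a
      constructor
      · rintro ⟨a, ha, rfl⟩
        refine ⟨a.2, ?_⟩
        have := (hT a).1 ha
        rw [hφ, mul_inv_eq_iff_eq_mul] at this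
        exact this
      · rintro ⟨ha, h2⟩
        refine ⟨⟨a, ha⟩, (hT _).2 ?_, rfl⟩
        rw [hφ, mul_inv_eq_iff_eq_mul]
        exact h2
    have hcard : Nat.card Qξ = Nat.card T :=
      (Nat.card_congr (T.equivMapOfInjective Q.subtype Q.subtype_injective).toEquiv).symm
    by_cases hτξ : τ * ξ = ξ * τ
    · have h2 := FK_cl (q := q) (ξ := ξ) hq (hQ.to_le hQξQ) (fun a ha => hg a (hQξQ ha))
        (fun a ha => ((hmem a).1 ha).2) (τ := τ) ((hmem τ).2 ⟨hτ, hτξ⟩)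
        (fun a ha => hc a (hQξQ ha)) h1 j
      obtain ⟨d, hd⟩ := h2
      rw [hd, ← hcT, hcard]
      refine ⟨d, ?_⟩
      push_cast
      ring
    · have : XX p g q ξ (zpowers (τ, τ * ξ ^ p ^ j)) = ∅ := by
        rw [← Finset.not_nonempty_iff_eq_empty]
        rintro ⟨w, hw⟩
        rw [mem_XX] at hw
        apply hτξ
        have h2 : Commute τ w.x := (hw.2.2 _ (mem_zpowers _)).x
        rw [← hw.2.1]
        exact h2.pow_right q
      rw [FK, this, Finset.sum_empty, mul_zero]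
      exact dvd_zero _

end P179M
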