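import Vale.Agent.P179.H524.Defs

/-! Auxiliary counting functions used in the proofs. -/

namespace P179H524

/-- The number of irreducible characters of `K` of `p`-defect zero. -/
noncomputable def numDZ (p : ℕ) (K : Type*) [Group K] : ℕ :=
  Nat.card {χ : K → ℂ // IsDefectZeroChar p χ}

/-- The number of homomorphisms from the surface group of genus `g` to `K`. -/
noncomputable def numHom (g : ℕ) (K : Type*) [Group K] : ℕ := Nat.card (SurfaceGroup g →* K)

/-- The genus `1 + (p - 1) p ^ N`. -/
def gN (p N : ℕ) : ℕ := 1 + (p - 1) * p ^ N

end P179H524
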