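import Vale.Agent.P179.H524.SimpleIn
import Vale.Agent.P179.H166.BrauerHom

/-! (C9a) Blocks and central characters. -/

namespace P179C.C9

open Subgroup P179H524 P179A MonoidAlgebra

universe u

variable {k : Type u} [Field k] {G : Type} [Group G] {r : ℕ} {d : Fin r → ℕ}

/-- The centre of the group algebra. -/
noncomputable abbrev Z (k : Type u) [Field k] (G : Type) [Group G] := Subalgebra.center k (MonoidAlgebra k G)

theorem scalar_spec [∀ i, NeZero (d i)]
    (f : MonoidAlgebra k G →ₐ[k] Π i, Matrix (Fin (d i)) (Fin (d i)) k)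
    (hf : Function.Surjective f) (z : Z k G) (i : Fin r) :
    f z.1 i = Matrix.scalar _ (f z.1 i 0 0) := by
  obtain ⟨l, hl⟩ := C2.exists_scalar f hf z.1 z.2
  have h1 : f z.1 i 0 0 = l i := by
    rw [hl]
    simp
  rw [h1, hl]

/-- The central character of the `i`-th simple module. -/
noncomputable def lam [∀ i, NeZero (d i)]
    (f : MonoidAlgebra k G →ₐ[k] Π i, Matrix (Fin (d i)) (Fin (d i)) k)
    (hf : Function.Surjective f) (i : Fin r) : Z k G →ₐ[k] k where
  toFun z := f z.1 i 0 0
  map_one' := by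
    change f 1 i 0 0 = 1
    rw [map_one, Pi.one_apply, Matrix.one_apply_eq]
  map_mul' z w := by
    change f (z.1 * w.1) i 0 0 = f z.1 i 0 0 * f w.1 i 0 0
    rw [map_mul, Pi.mul_apply]
    conv_lhs => rw [scalar_spec f hf z i, scalar_spec f hf w i, ← map_mul]
    simp
  map_zero' := by
    change f 0 i 0 0 = 0
    rw [map_zero]
    rfl
  map_add' z w := by
    change f (z.1 + w.1) i 0 0 = f z.1 i 0 0 + f w.1 i 0 0
    rw [map_add]
    rfl
  commutes' c := by
    change f (algebraMap k (MonoidAlgebra k G) c) i 0 0 = c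
    rw [AlgHom.commutes, Pi.algebraMap_apply, Matrix.algebraMap_matrix_apply, if_pos rfl]
    rfl

theorem lam_spec [∀ i, NeZero (d i)]
    (f : MonoidAlgebra k G →ₐ[k] Π i, Matrix (Fin (d i)) (Fin (d i)) k)
    (hf : Function.Surjective f) (i : Fin r) (z : Z k G) :
    f z.1 i = Matrix.scalar _ (lam f hf i z) := scalar_spec f hf z i

theorem isNilpotent_of_lam [Finite G] [∀ i, NeZero (d i)]
    (f : MonoidAlgebra k G →ₐ[k] Π i, Matrix (Fin (d i)) (Fin (d i)) k)
    (hf : Function.Surjective f)
    (hker : ∀ x, f x = 0 → x ∈ Ring.jacobson (MonoidAlgebra k G)) (z : Z k G)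
    (hz : ∀ i, lam f hf i z = 0) : IsNilpotent z := by
  have h1 : f z.1 = 0 := by
    funext i
    rw [lam_spec f hf i z, hz, map_zero]
    rfl
  obtain ⟨n, hn⟩ := isNilpotent_of_mem_jacobson z.1 (hker _ h1)
  exact ⟨n, Subtype.ext (by rw [SubmonoidClass.coe_pow, hn]; rfl)⟩

theorem eq_of_lam [Finite G] [∀ i, NeZero (d i)]
    (f : MonoidAlgebra k G →ₐ[k] Π i, Matrix (Fin (d i)) (Fin (d i)) k)
    (hf : Function.Surjective f)
    (hker : ∀ x, f x = 0 → x ∈ Ring.jacobson (MonoidAlgebra k G)) (e e' : Z k G)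
    (he : IsIdempotentElem e) (he' : IsIdempotentElem e')
    (h : ∀ i, lam f hf i e = lam f hf i e') : e = e' :=
  eq_of_isNilpotent_sub_of_isIdempotentElem he he'
    (isNilpotent_of_lam f hf hker _ fun i =>
      (map_sub (lam f hf i) e e').trans (by rw [h, sub_self]))

theorem lam_idem [∀ i, NeZero (d i)]
    (f : MonoidAlgebra k G →ₐ[k] Π i, Matrix (Fin (d i)) (Fin (d i)) k)
    (hf : Function.Surjective f) (e : Z k G) (he : IsIdempotentElem e) (i : Fin r) :
    lam f hf i e = 0 ∨ lam f hf i e = 1 := by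
  have h1 : lam f hf i e * lam f hf i e = lam f hf i e := by rw [← map_mul, he.eq]
  rcases eq_or_ne (lam f hf i e) 0 with h | h
  · exact Or.inl h
  · exact Or.inr (mul_left_cancel₀ h (by rw [h1, mul_one]))

/-- Two different algebra homomorphisms to the field are separated. -/
theorem exists_sep (l l' : Z k G →ₐ[k] k) (h : l ≠ l') : ∃ z, l z = 1 ∧ l' z = 0 := by
  obtain ⟨x, hx⟩ := DFunLike.ne_iff.1 h
  have h1 : l x - l' x ≠ 0 := sub_ne_zero.2 hx
  refine ⟨(l x - l' x)⁻¹ • (x - algebraMap k _ (l' x)), ?_, ?_⟩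
  · rw [map_smul, map_sub, AlgHom.commutes, smul_eq_mul]
    exact inv_mul_cancel₀ h1
  · rw [map_smul, map_sub, AlgHom.commutes, smul_eq_mul]
    change (l x - l' x)⁻¹ * (l' x - l' x) = 0
    rw [sub_self, mul_zero]

/-- Every algebra homomorphism from the centre to the field is the central character of a simple
module. -/
theorem exists_lam_eq [Finite G] [∀ i, NeZero (d i)]
    (f : MonoidAlgebra k G →ₐ[k] Π i, Matrix (Fin (d i)) (Fin (d i)) k)
    (hf : Function.Surjective f)
    (hker : ∀ x, f x = 0 → x ∈ Ring.jacobson (MonoidAlgebra k G)) (l : Z k G →ₐ[k] k) :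
    ∃ i, l = lam f hf i := by
  by_contra hcon
  push Not at hcon
  choose z hz1 hz2 using fun i => exists_sep l (lam f hf i) (hcon i)
  have h1 : IsNilpotent (∏ i, z i) := by
    apply isNilpotent_of_lam f hf hker
    intro i
    rw [map_prod]
    exact Finset.prod_eq_zero (Finset.mem_univ i) (hz2 i)
  have h2 : IsNilpotent (l (∏ i, z i)) := h1.map l
  rw [map_prod, Finset.prod_congr rfl (fun i _ => hz1 i), Finset.prod_const_one] at h2
  exact not_isNilpotent_one h2

open scoped Classical in
/-- The central idempotent attached to a simple module. -/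
theorem exists_idem [Finite G] [∀ i, NeZero (d i)]
    (f : MonoidAlgebra k G →ₐ[k] Π i, Matrix (Fin (d i)) (Fin (d i)) k)
    (hf : Function.Surjective f)
    (hker : ∀ x, f x = 0 → x ∈ Ring.jacobson (MonoidAlgebra k G)) (i : Fin r) :
    ∃ e : Z k G, IsIdempotentElem e ∧
      ∀ j, lam f hf j e = if lam f hf j = lam f hf i then 1 else 0 := by
  let L : Z k G →+* (Fin r → k) := RingHom.pi fun j => (lam f hf j : Z k G →+* k)
  have hL : ∀ z j, L z j = lam f hf j z := fun _ _ => rfl
  have hsep : ∀ j, ∃ z, lam f hf i z = 1 ∧ (lam f hf j ≠ lam f hf i → lam f hf j z = 0) := by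
    intro j
    by_cases h : lam f hf j = lam f hf i
    · exact ⟨1, map_one _, fun h' => absurd h h'⟩
    · obtain ⟨z, hz1, hz2⟩ := exists_sep _ _ (Ne.symm h)
      exact ⟨z, hz1, fun _ => hz2⟩
  choose z hz1 hz2 using hsep
  have hw : L (∏ j, z j) = fun j => if lam f hf j = lam f hf i then (1 : k) else 0 := by
    funext j
    rw [hL, map_prod]
    split_ifs with h
    · rw [h]
      exact Finset.prod_eq_one fun j' _ => hz1 j'
    · exact Finset.prod_eq_zero (Finset.mem_univ j) (hz2 j h)
  obtain ⟨e, he1, he2⟩ := exists_isIdempotentElem_eq_of_ker_isNilpotent L (by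
    intro x hx
    apply isNilpotent_of_lam f hf hker
    intro j
    rw [← hL, (RingHom.mem_ker).1 hx]
    rfl) (fun j => if lam f hf j = lam f hf i then (1 : k) else 0) ⟨_, hw⟩ (by
    funext j
    rw [Pi.mul_apply]
    split_ifs <;> simp)
  exact ⟨e, he1, fun j => by rw [← hL, he2]⟩

open scoped Classical in
/-- The blocks are the idempotents `e_i`. -/
theorem block_spec [Finite G] [∀ i, NeZero (d i)]
    (f : MonoidAlgebra k G →ₐ[k] Π i, Matrix (Fin (d i)) (Fin (d i)) k)
    (hf : Function.Surjective f)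
    (hker : ∀ x, f x = 0 → x ∈ Ring.jacobson (MonoidAlgebra k G)) (B : MonoidAlgebra k G) :
    IsBlock B ↔ ∃ (hB : B ∈ Z k G) (i : Fin r), IsIdempotentElem (⟨B, hB⟩ : Z k G) ∧
      ∀ j, lam f hf j ⟨B, hB⟩ = if lam f hf j = lam f hf i then 1 else 0 := by
  have hback : ∀ (B : MonoidAlgebra k G) (hB : B ∈ Z k G) (i : Fin r),
      IsIdempotentElem (⟨B, hB⟩ : Z k G) →
      (∀ j, lam f hf j ⟨B, hB⟩ = if lam f hf j = lam f hf i then 1 else 0) → IsBlock B := by
    intro B hB i h1 h2
    refine ⟨hB, congrArg Subtype.val h1.eq, ?_, ?_⟩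
    · rintro rfl
      have h3 := h2 i
      rw [if_pos rfl] at h3
      have h4 : (⟨0, hB⟩ : Z k G) = 0 := rfl
      rw [h4, map_zero] at h3
      exact zero_ne_one h3
    · intro e he1 he2 he3
      have hidem : IsIdempotentElem (⟨e, he1⟩ : Z k G) := Subtype.ext he2
      have hmul : (⟨e, he1⟩ : Z k G) * ⟨B, hB⟩ = ⟨e, he1⟩ := Subtype.ext he3
      have hsupp : ∀ j, lam f hf j ≠ lam f hf i → lam f hf j ⟨e, he1⟩ = 0 := by
        intro j hj
        rw [← hmul, map_mul, h2, if_neg hj, mul_zero]
      rcases lam_idem f hf _ hidem i with h | h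
      · left
        have h5 := eq_of_lam f hf hker ⟨e, he1⟩ 0 hidem IsIdempotentElem.zero (by
          intro j
          rw [map_zero]
          by_cases hj : lam f hf j = lam f hf i
          · rw [hj, h]
          · exact hsupp j hj)
        exact congrArg Subtype.val h5
      · right
        have h5 := eq_of_lam f hf hker ⟨e, he1⟩ ⟨B, hB⟩ hidem h1 (by
          intro j
          rw [h2]
          split_ifs with hj
          · rw [hj, h]
          · exact hsupp j hj)
        exact congrArg Subtype.val h5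
  constructor
  · rintro ⟨hB, hBB, hB0, hprim⟩
    have hidem : IsIdempotentElem (⟨B, hB⟩ : Z k G) := Subtype.ext hBB
    obtain ⟨i, hi⟩ : ∃ i, lam f hf i ⟨B, hB⟩ ≠ 0 := by
      by_contra hcon
      push Not at hcon
      have h5 := eq_of_lam f hf hker ⟨B, hB⟩ 0 hidem IsIdempotentElem.zero (by
        intro j
        rw [map_zero, hcon])
      exact hB0 (congrArg Subtype.val h5)
    have hi1 := (lam_idem f hf _ hidem i).resolve_left hi
    obtain ⟨e, he1, he2⟩ := exists_idem f hf hker i
    have hblock := hback e.1 e.2 i he1 he2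
    -- `e * B` is a nonzero idempotent below `B` and below `e`
    have h6 : e.1 * B = 0 ∨ e.1 * B = B := by
      apply hprim (e.1 * B) (Subalgebra.mul_mem _ e.2 hB)
      · have h7 : IsIdempotentElem (e * ⟨B, hB⟩ : Z k G) := he1.mul hidem
        exact congrArg Subtype.val h7.eq
      · rw [mul_assoc, hBB]
    have hne : e.1 * B ≠ 0 := by
      intro h
      have h8 : lam f hf i (e * ⟨B, hB⟩ : Z k G) = 0 := by
        have : (e * ⟨B, hB⟩ : Z k G) = 0 := Subtype.ext h
        rw [this, map_zero]
      rw [map_mul, he2, if_pos rfl, hi1, mul_one] at h8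
      exact one_ne_zero h8
    have h9 : e.1 * B = B := h6.resolve_left hne
    have h10 : B * e.1 = B := by
      rw [← (Subalgebra.mem_center_iff.1 e.2) B] at h9
      exact h9
    have h11 := (hblock.2.2.2 B hB hBB h10).resolve_left hB0
    refine ⟨hB, i, hidem, ?_⟩
    have h12 : (⟨B, hB⟩ : Z k G) = e := Subtype.ext h11
    rw [h12]
    exact he2
  · rintro ⟨hB, i, h1, h2⟩
    exact hback B hB i h1 h2

theorem asAlgebraHom_of_iso {a b : IrrRep k G} (h : IrrRep.Iso a b) (z : MonoidAlgebra k G) (c : k)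
    (ha : a.1.2.asAlgebraHom z = c • 1) : b.1.2.asAlgebraHom z = c • 1 := by
  obtain ⟨T⟩ := h
  have key : ∀ (x : MonoidAlgebra k G) (v : Fin a.1.1 → k),
      T.toLinearEquiv (a.1.2.asAlgebraHom x v) =
        b.1.2.asAlgebraHom x (T.toLinearEquiv v) := by
    intro x v
    induction x using MonoidAlgebra.induction_linear with
    | zero => simp
    | add x y hx hy => simp only [map_add, LinearMap.add_apply, hx, hy]
    | single g a =>
      rw [Representation.asAlgebraHom_single, LinearMap.smul_apply, map_smul,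
        Representation.asAlgebraHom_single, LinearMap.smul_apply]
      congr 1
      exact LinearMap.congr_fun (T.isIntertwining' g) v
  apply LinearMap.ext
  intro w
  obtain ⟨v, rfl⟩ := T.toLinearEquiv.surjective w
  rw [← key, ha, LinearMap.smul_apply, LinearMap.smul_apply, map_smul]
  rfl

theorem compRep_central [∀ i, NeZero (d i)]
    (f : MonoidAlgebra k G →ₐ[k] Π i, Matrix (Fin (d i)) (Fin (d i)) k)
    (hf : Function.Surjective f) (i : Fin r) (z : Z k G) (c : k) :
    (compRep f i).asAlgebraHom z.1 = c • (1 : Module.End k (Fin (d i) → k)) ↔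
      lam f hf i z = c := by
  rw [compRep_asAlgebraHom, lam_spec f hf i z]
  have h1 : c • (1 : Module.End k (Fin (d i) → k)) =
      Matrix.toLin' (Matrix.scalar (Fin (d i)) c) := by
    have h2 : Matrix.scalar (Fin (d i)) c = c • (1 : Matrix (Fin (d i)) (Fin (d i)) k) := by
      rw [Matrix.smul_one_eq_diagonal]
      rfl
    rw [h2, map_smul, Matrix.toLin'_one]
    rfl
  rw [h1, Matrix.toLin'.injective.eq_iff]
  exact ⟨C2.scalar_inj _ _, fun h => by rw [h]⟩

open scoped Classical in
theorem centralChar_eq [Finite G] [∀ i, NeZero (d i)]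
    (f : MonoidAlgebra k G →ₐ[k] Π i, Matrix (Fin (d i)) (Fin (d i)) k)
    (hf : Function.Surjective f)
    (hker : ∀ x, f x = 0 → x ∈ Ring.jacobson (MonoidAlgebra k G)) (B : MonoidAlgebra k G)
    (hB : B ∈ Z k G) (i : Fin r)
    (hi : ∀ j, lam f hf j ⟨B, hB⟩ = if lam f hf j = lam f hf i then 1 else 0) (z : Z k G) :
    (∀ a : IrrRep k G, InBlock a B → a.1.2.asAlgebraHom z.1 = lam f hf i z • 1) ∧
      centralChar B z.1 = lam f hf i z ∧ InBlock (compIrr f hf i) B := by
  have hinb : ∀ j, InBlock (compIrr f hf j) B ↔ lam f hf j ⟨B, hB⟩ = 1 := fun j =>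
    C2.inBlock_iff f hf B (fun j => lam f hf j ⟨B, hB⟩) (fun j => lam_spec f hf j ⟨B, hB⟩) j
  have hall : ∀ a : IrrRep k G, InBlock a B → a.1.2.asAlgebraHom z.1 = lam f hf i z • 1 := by
    intro a ha
    have := a.2
    obtain ⟨j, hj⟩ := exists_iso_compRep f hf hker a.1.2
    have hj' : IrrRep.Iso (compIrr f hf j) a := hj
    have h1 := (hinb j).1 (C2.inBlock_of_iso (iso_equivalence.symm hj') B ha)
    rw [hi] at h1
    have h2 : lam f hf j = lam f hf i := by
      by_contra h
      rw [if_neg h] at h1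
      exact zero_ne_one h1
    apply asAlgebraHom_of_iso hj'
    exact (compRep_central f hf j z _).2 (by rw [h2])
  have hin : InBlock (compIrr f hf i) B := by
    rw [hinb, hi, if_pos rfl]
  refine ⟨hall, ?_, hin⟩
  have hex : ∃ l : k, ∀ a : IrrRep k G, InBlock a B → a.1.2.asAlgebraHom z.1 = l • 1 := ⟨_, hall⟩
  rw [centralChar, dif_pos hex]
  have h3 := hex.choose_spec (compIrr f hf i) hin
  exact ((compRep_central f hf i z _).1 h3).symm

end P179C.C9

namespace P179C

open Subgroup P179H524 P179A MonoidAlgebra C9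

universe u

variable {k : Type u} [Field k] [IsAlgClosed k] {G : Type} [Group G] [Finite G]

/-- The central character of a block is the scalar by which central elements act. -/
theorem centralChar_spec (B : MonoidAlgebra k G) (hB : IsBlock B) (z : MonoidAlgebra k G)
    (hz : z ∈ Subalgebra.center k (MonoidAlgebra k G)) (a : IrrRep k G) (ha : InBlock a B) :
    a.1.2.asAlgebraHom z = centralChar B z • 1 := by
  obtain ⟨r, d, hd, f, hf, hker⟩ := exists_wedderburn k G
  obtain ⟨hBc, i, -, hi⟩ := (block_spec f hf hker B).1 hB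
  obtain ⟨h1, h2, -⟩ := centralChar_eq f hf hker B hBc i hi ⟨z, hz⟩
  rw [h1 a ha, h2]

theorem exists_inBlock (B : MonoidAlgebra k G) (hB : IsBlock B) : ∃ a, InBlock a B := by
  obtain ⟨r, d, hd, f, hf, hker⟩ := exists_wedderburn k G
  obtain ⟨hBc, i, -, hi⟩ := (block_spec f hf hker B).1 hB
  exact ⟨_, (centralChar_eq f hf hker B hBc i hi 0).2.2⟩

theorem exists_algHom_of_block (B : MonoidAlgebra k G) (hB : IsBlock B) :
    ∃ l : Subalgebra.center k (MonoidAlgebra k G) →ₐ[k] k, ∀ z, l z = centralChar B z := by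
  obtain ⟨r, d, hd, f, hf, hker⟩ := exists_wedderburn k G
  obtain ⟨hBc, i, -, hi⟩ := (block_spec f hf hker B).1 hB
  exact ⟨C9.lam f hf i, fun z => (centralChar_eq f hf hker B hBc i hi z).2.1.symm⟩

theorem exists_block_of_algHom (l : Subalgebra.center k (MonoidAlgebra k G) →ₐ[k] k) :
    ∃ B : MonoidAlgebra k G, IsBlock B ∧ ∀ z, l z = centralChar B z := by
  classical
  obtain ⟨r, d, hd, f, hf, hker⟩ := exists_wedderburn k G
  obtain ⟨i, rfl⟩ := exists_lam_eq f hf hker l
  obtain ⟨e, he1, he2⟩ := exists_idem f hf hker i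
  refine ⟨e.1, (block_spec f hf hker e.1).2 ⟨e.2, i, he1, ?_⟩, fun z => ?_⟩
  · convert he2
  · exact (centralChar_eq f hf hker e.1 e.2 i (by convert he2) z).2.1.symm

open Classical in
theorem centralChar_block (B B' : MonoidAlgebra k G) (hB : IsBlock B) (hB' : IsBlock B') :
    centralChar B B' = if B = B' then 1 else 0 := by
  obtain ⟨r, d, hd, f, hf, hker⟩ := exists_wedderburn k G
  obtain ⟨hBc, i, he, hi⟩ := (block_spec f hf hker B).1 hB
  obtain ⟨hBc', i', he', hi'⟩ := (block_spec f hf hker B').1 hB'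
  have h1 := (centralChar_eq f hf hker B hBc i hi ⟨B', hBc'⟩).2.1
  change centralChar B B' = _ at h1
  rw [h1, hi']
  have h2 : C9.lam f hf i = C9.lam f hf i' ↔ B = B' := by
    constructor
    · intro h
      have h3 := eq_of_lam f hf hker ⟨B, hBc⟩ ⟨B', hBc'⟩ he he' (by
        intro j
        rw [hi, hi', h])
      exact congrArg Subtype.val h3
    · rintro rfl
      by_contra h
      have h4 := hi i
      rw [if_pos rfl, hi', if_neg h] at h4
      exact zero_ne_one h4
  simp only [h2]

theorem blockHomStmt : BlockHomStmt k G := fun B hB => exists_algHom_of_block B hB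

theorem homBlockStmt : HomBlockStmt k G := fun l => exists_block_of_algHom l

theorem charBlockStmt : CharBlockStmt k G := fun B B' hB hB' => by
  classical
  convert centralChar_block B B' hB hB'

end P179C
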