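import Vale.Agent.P179.H524.MainB
import Vale.Agent.P179.H525.DZ

/-! The number of surjections from the surface group of genus `1 + (p - 1) p ^ N` onto a finite
group is a `p`-adic Cauchy sequence. -/

namespace P179H524

universe u v w

/-- Homomorphisms with image `L` are surjections onto `L`. -/
def rangeEquiv {A : Type u} {H : Type w} [Group A] [Group H] (L : Subgroup H) :
    {f : A →* H // f.range = L} ≃ {f : A →* L // Function.Surjective f} where
  toFun f := ⟨f.1.codRestrict L (fun x => f.2.le ⟨x, rfl⟩), by
    rintro ⟨y, hy⟩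
    obtain ⟨x, hx⟩ := f.2.ge hy
    exact ⟨x, Subtype.ext hx⟩⟩
  invFun f := ⟨L.subtype.comp f.1, by
    rw [MonoidHom.range_comp, MonoidHom.range_eq_top.2 f.2, ← MonoidHom.range_eq_map,
      Subgroup.range_subtype]⟩
  left_inv f := Subtype.ext (by ext x; rfl)
  right_inv f := Subtype.ext (by ext x; rfl)

theorem numHom_eq_sum (g : ℕ) (H : Type w) [Group H] [Finite H] [Fintype (Subgroup H)] :
    numHom g H = ∑ L : Subgroup H, numEpi g L := by
  rw [numHom, Nat.card_congr (Equiv.sigmaFiberEquiv
    (fun f : SurfaceGroup g →* H => f.range)).symm, Nat.card_sigma]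
  exact Finset.sum_congr rfl fun L _ => Nat.card_congr (rangeEquiv L)

theorem numEpi_congr (g : ℕ) {H : Type v} {H' : Type w} [Group H] [Group H'] (e : H ≃* H') :
    numEpi g H = numEpi g H' := by
  refine Nat.card_congr
    { toFun := fun f => ⟨e.toMonoidHom.comp f.1, e.surjective.comp f.2⟩
      invFun := fun f => ⟨e.symm.toMonoidHom.comp f.1, e.symm.surjective.comp f.2⟩
      left_inv := fun f => Subtype.ext (by ext x; simp)
      right_inv := fun f => Subtype.ext (by ext x; simp) }

theorem numEpi_cauchy (p : ℕ) [hp : Fact p.Prime] (H : Type) [Group H] [Finite H] (N N' : ℕ)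
    (hN : N ≤ N') : numEpi (gN p N') H ≡ numEpi (gN p N) H [MOD p ^ (N + 1)] := by
  classical
  have key : ∀ (n : ℕ) (H : Type) [Group H] [Finite H], Nat.card H = n →
      numEpi (gN p N') H ≡ numEpi (gN p N) H [MOD p ^ (N + 1)] := by
    intro n
    induction n using Nat.strong_induction_on with
    | _ n ih =>
      intro H _ _ hn
      have := Fintype.ofFinite (Subgroup H)
      have h1 : numHom (gN p N') H ≡ numHom (gN p N) H [MOD p ^ (N + 1)] :=
        ((numHom_modEq p H N').of_dvd (pow_dvd_pow p (by omega))).trans (numHom_modEq p H N).symm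
      rw [numHom_eq_sum, numHom_eq_sum, ← Finset.add_sum_erase _ _ (Finset.mem_univ ⊤),
        ← Finset.add_sum_erase (a := ⊤) (f := fun L : Subgroup H => numEpi (gN p N) L) _
          (Finset.mem_univ ⊤)] at h1
      have h2 : ∑ L ∈ Finset.univ.erase (⊤ : Subgroup H), numEpi (gN p N') L ≡
          ∑ L ∈ Finset.univ.erase (⊤ : Subgroup H), numEpi (gN p N) L [MOD p ^ (N + 1)] := by
        apply Nat.ModEq.sum
        intro L hL
        refine ih (Nat.card L) ?_ L rfl
        rw [← hn]
        have hL' : L ≠ ⊤ := (Finset.mem_erase.1 hL).1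
        exact lt_of_le_of_ne (Subgroup.card_le_card_group L) fun h =>
          hL' (Subgroup.eq_top_of_card_eq L h)
      have h3 := Nat.ModEq.add_right_cancel h2 h1
      rw [numEpi_congr _ Subgroup.topEquiv, numEpi_congr _ Subgroup.topEquiv] at h3
      exact h3
  exact key _ H rfl

end P179H524
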