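import Vale.Agent.P179.H524.Basic

/-! Kernels of surjections onto a finite group `H`, and `n`-subsets of the set of these kernels. -/

namespace P179H524

universe u v w

/-- The kernels of surjective homomorphisms `A → H`. -/
def KerSet (A : Type u) (H : Type v) [Group A] [Group H] : Set (Subgroup A) :=
  {M | ∃ f : A →* H, Function.Surjective f ∧ f.ker = M}

variable {A : Type u} {B : Type v} {H : Type w} [Group A] [Group B] [Group H]

theorem mem_kerSet_iff (M : Subgroup A) :
    M ∈ KerSet A H ↔ ∃ _ : M.Normal, Nonempty ((A ⧸ M) ≃* H) := by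
  constructor
  · rintro ⟨f, hf, rfl⟩
    exact ⟨inferInstance, ⟨QuotientGroup.quotientKerEquivOfSurjective f hf⟩⟩
  · rintro ⟨hM, ⟨e⟩⟩
    refine ⟨e.toMonoidHom.comp (QuotientGroup.mk' M), ?_, ?_⟩
    · exact e.surjective.comp (QuotientGroup.mk'_surjective M)
    · ext x
      simp

theorem kerSet_congr {H' : Type*} [Group H'] (e : H ≃* H') : KerSet A H = KerSet A H' := by
  ext M
  constructor
  · rintro ⟨f, hf, rfl⟩
    refine ⟨e.toMonoidHom.comp f, e.surjective.comp hf, ?_⟩
    ext x
    simp [MonoidHom.mem_ker]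
  · rintro ⟨f, hf, rfl⟩
    refine ⟨e.symm.toMonoidHom.comp f, e.symm.surjective.comp hf, ?_⟩
    ext x
    simp [MonoidHom.mem_ker]

/-- Surjections onto `H` are parametrised by their kernels and the automorphisms of `H`. -/
theorem card_epi_eq (A : Type u) (H : Type w) [Group A] [Group H] :
    Nat.card {f : A →* H // Function.Surjective f} =
      Nat.card (MulAut H) * Nat.card (KerSet A H) := by
  classical
  choose e he1 he2 using fun M : KerSet A H => M.2
  let F : MulAut H × KerSet A H → {f : A →* H // Function.Surjective f} := fun x =>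
    ⟨x.1.toMonoidHom.comp (e x.2), x.1.surjective.comp (he1 x.2)⟩
  rw [← Nat.card_prod]
  symm
  refine Nat.card_congr (Equiv.ofBijective F ⟨?_, ?_⟩)
  · rintro ⟨α, M⟩ ⟨β, N⟩ h
    have h1 : α.toMonoidHom.comp (e M) = β.toMonoidHom.comp (e N) := Subtype.ext_iff.1 h
    have h2 : M = N := by
      apply Subtype.ext
      rw [← he2 M, ← he2 N]
      have h3 := congrArg MonoidHom.ker h1
      ext x
      have h4 := SetLike.ext_iff.1 h3 x
      simpa [MonoidHom.mem_ker] using h4
    subst h2
    have h3 : α = β := by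
      ext y
      obtain ⟨x, rfl⟩ := he1 M y
      exact DFunLike.congr_fun h1 x
    rw [h3]
  · rintro ⟨f, hf⟩
    let M : KerSet A H := ⟨f.ker, f, hf, rfl⟩
    let a : (A ⧸ f.ker) ≃* H := QuotientGroup.quotientKerEquivOfSurjective f hf
    let b : (A ⧸ (e M).ker) ≃* H := QuotientGroup.quotientKerEquivOfSurjective (e M) (he1 M)
    let c : (A ⧸ (e M).ker) ≃* (A ⧸ f.ker) := QuotientGroup.quotientMulEquivOfEq (he2 M)
    refine ⟨((b.symm.trans c).trans a, M), ?_⟩
    apply Subtype.ext
    ext x
    change a (c (b.symm (e M x))) = f x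
    have h1 : b.symm (e M x) = QuotientGroup.mk x := by
      rw [MulEquiv.symm_apply_eq]
      rfl
    rw [h1]
    rfl

theorem numEpi_eq_card_mulAut (g : ℕ) (H : Type w) [Group H] :
    numEpi g H = Nat.card (MulAut H) * numKernels g H := by
  have h1 : numKernels g H = Nat.card (KerSet (SurfaceGroup g) H) := by
    rw [numKernels]
    congr 1
    congr 1
    ext M
    exact (mem_kerSet_iff M).symm
  rw [h1, ← card_epi_eq]
  rfl

theorem numKernels_eq (g : ℕ) (H : Type w) [Group H] :
    numKernels g H = Nat.card (KerSet (SurfaceGroup g) H) := by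
  rw [numKernels]
  congr 1
  congr 1
  ext M
  exact (mem_kerSet_iff M).symm

/-- `n`-element sets of kernels of surjections onto `H`. -/
def KerSub (A : Type u) (H : Type w) [Group A] [Group H] (n : ℕ) : Type u :=
  {s : Finset (Subgroup A) // s.card = n ∧ ∀ M ∈ s, M ∈ KerSet A H}

/-- The intersection of an `n`-set of kernels. -/
def KerSub.meet {n : ℕ} (s : KerSub A H n) : Subgroup A := sInf (s.1 : Set (Subgroup A))

theorem card_kerSub [Finite (KerSet A H)] (n : ℕ) :
    Nat.card (KerSub A H n) = (Nat.card (KerSet A H)).choose n := by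
  classical
  have := Fintype.ofFinite (KerSet A H)
  have h1 : Nat.card (KerSet A H) = (KerSet A H).toFinset.card := by
    rw [Nat.card_eq_fintype_card, Set.toFinset_card]
  rw [h1, ← Finset.card_powersetCard, ← Nat.card_eq_finsetCard]
  refine Nat.card_congr (Equiv.subtypeEquivRight ?_)
  intro s
  rw [Finset.mem_powersetCard, and_comm]
  apply and_congr_left
  intro _
  constructor
  · intro h M hM
    exact Set.mem_toFinset.2 (h M hM)
  · intro h M hM
    exact Set.mem_toFinset.1 (h hM)

theorem comap_mem_kerSet {q : A →* B} (hq : Function.Surjective q) {N : Subgroup B}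
    (hN : N ∈ KerSet B H) : N.comap q ∈ KerSet A H := by
  obtain ⟨f, hf, rfl⟩ := hN
  exact ⟨f.comp q, hf.comp hq, by ext x; simp [MonoidHom.mem_ker]⟩

theorem map_mem_kerSet {q : A →* B} (hq : Function.Surjective q) {M : Subgroup A}
    (hM : M ∈ KerSet A H) (h : q.ker ≤ M) : M.map q ∈ KerSet B H := by
  obtain ⟨f, hf, rfl⟩ := hM
  let φ := q.liftOfSurjective hq ⟨f, h⟩
  have hφ : φ.comp q = f := q.liftOfRightInverse_comp _ (Function.rightInverse_surjInv hq) ⟨f, h⟩
  refine ⟨φ, ?_, ?_⟩
  · intro y
    obtain ⟨x, rfl⟩ := hf y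
    exact ⟨q x, DFunLike.congr_fun hφ x⟩
  · ext y
    obtain ⟨x, rfl⟩ := hq y
    have h1 : φ (q x) = f x := DFunLike.congr_fun hφ x
    rw [MonoidHom.mem_ker, h1]
    constructor
    · intro hx
      exact ⟨x, hx, rfl⟩
    · rintro ⟨x', hx', hxx⟩
      have h2 : x' * x⁻¹ ∈ q.ker := by
        rw [MonoidHom.mem_ker, map_mul, map_inv, hxx, mul_inv_cancel]
      have h3 := h h2
      rw [MonoidHom.mem_ker, map_mul, map_inv, mul_inv_eq_one] at h3
      rw [← h3]
      exact hx'

/-- The number of `n`-sets of kernels with intersection the kernel of `q : A → B` only depends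
on `B`. -/
theorem card_meet_eq (q : A →* B) (hq : Function.Surjective q) (n : ℕ) :
    Nat.card {s : KerSub A H n // s.meet = q.ker} =
      Nat.card {t : KerSub B H n // t.meet = ⊥} := by
  classical
  let em : Subgroup B ↪ Subgroup A := ⟨Subgroup.comap q, Subgroup.comap_injective hq⟩
  have hmeet : ∀ t : Finset (Subgroup B), sInf ((t.map em : Finset (Subgroup A)) : Set _) =
      (sInf (t : Set (Subgroup B))).comap q := by
    intro t
    ext x
    simp [Subgroup.mem_sInf, em]
  symm
  let F : {t : KerSub B H n // t.meet = ⊥} → {s : KerSub A H n // s.meet = q.ker} := fun t =>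
    ⟨⟨t.1.1.map em, by rw [Finset.card_map, t.1.2.1], by
      intro M hM
      obtain ⟨N, hN, rfl⟩ := Finset.mem_map.1 hM
      exact comap_mem_kerSet hq (t.1.2.2 N hN)⟩, by
      change sInf ((t.1.1.map em : Finset (Subgroup A)) : Set _) = q.ker
      rw [hmeet]
      have h1 : sInf (t.1.1 : Set (Subgroup B)) = ⊥ := t.2
      rw [h1]
      rfl⟩
  refine Nat.card_congr (Equiv.ofBijective F ⟨?_, ?_⟩)
  · intro t t' h
    have h1 : t.1.1.map em = t'.1.1.map em := congrArg (fun z => z.1.1) h
    exact Subtype.ext (Subtype.ext (Finset.map_injective em h1))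
  · rintro ⟨⟨s, hs1, hs2⟩, hs3⟩
    have hle : ∀ M ∈ s, q.ker ≤ M := by
      intro M hM
      rw [← hs3]
      exact sInf_le hM
    have hsec : ∀ M ∈ s, (M.map q).comap q = M := fun M hM =>
      Subgroup.comap_map_eq_self (hle M hM)
    let t : Finset (Subgroup B) := s.image (Subgroup.map q)
    have ht : t.map em = s := by
      ext M
      simp only [t, em, Finset.mem_map, Finset.mem_image, Function.Embedding.coeFn_mk]
      constructor
      · rintro ⟨N, ⟨M', hM', rfl⟩, rfl⟩
        rw [hsec M' hM']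
        exact hM'
      · intro hM
        exact ⟨M.map q, ⟨M, hM, rfl⟩, hsec M hM⟩
    refine ⟨⟨⟨t, ?_, ?_⟩, ?_⟩, ?_⟩
    · rw [← hs1, ← ht, Finset.card_map]
    · intro N hN
      obtain ⟨M, hM, rfl⟩ := Finset.mem_image.1 hN
      exact map_mem_kerSet hq (hs2 M hM) (hle M hM)
    · change sInf (t : Set (Subgroup B)) = ⊥
      apply Subgroup.comap_injective hq
      rw [← hmeet, ht]
      exact hs3
    · exact Subtype.ext (Subtype.ext ht)

theorem meet_normal {n : ℕ} (s : KerSub A H n) : s.meet.Normal := by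
  constructor
  intro x hx g
  rw [KerSub.meet, Subgroup.mem_sInf] at hx ⊢
  intro M hM
  obtain ⟨f, -, rfl⟩ := s.2.2 M hM
  exact (MonoidHom.normal_ker f).conj_mem x (hx _ hM) g

/-- If all classes of an equivalence relation on a finite type have cardinality divisible by `p`
then so has the type. -/
theorem dvd_card_of_classes {S : Type*} [Finite S] (r : Setoid S) (p : ℕ)
    (h : ∀ s : S, p ∣ Nat.card {s' : S // r s' s}) : p ∣ Nat.card S := by
  classical
  have := Fintype.ofFinite S
  have : Finite (Quotient r) := Quotient.finite _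
  have := Fintype.ofFinite (Quotient r)
  rw [Nat.card_congr (Equiv.sigmaFiberEquiv (Quotient.mk r)).symm, Nat.card_sigma]
  apply Finset.dvd_sum
  intro q _
  induction q using Quotient.inductionOn with
  | h s =>
  have h1 := h s
  rw [Nat.card_congr (Equiv.subtypeEquivRight (q := fun s' => r s' s) ?_)]
  · exact h1
  · intro s'
    exact Quotient.eq

theorem dvd_card_kerSub [Finite (KerSet A H)] (p n : ℕ)
    (h : ∀ (s : KerSub A H n) (B : Type u) [Group B] (q : A →* B), Function.Surjective q →
      q.ker = s.meet → p ∣ Nat.card (KerSet A B)) : p ∣ Nat.card (KerSub A H n) := by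
  classical
  have hfin : Finite (KerSub A H n) := by
    have := Fintype.ofFinite (KerSet A H)
    have h2 : Finite {s // s ∈ Finset.powersetCard n (KerSet A H).toFinset} := inferInstance
    refine Finite.of_injective
      (fun s : KerSub A H n => (⟨s.1, ?_⟩ : {s // s ∈ Finset.powersetCard n (KerSet A H).toFinset}))
      ?_
    · rw [Finset.mem_powersetCard]
      exact ⟨fun M hM => Set.mem_toFinset.2 (s.2.2 M hM), s.2.1⟩
    · intro s t hst
      have h3 := congrArg Subtype.val hst
      exact Subtype.ext h3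
  have hn : ∀ s : KerSub A H n, s.meet.Normal := meet_normal
  let r : Setoid (KerSub A H n) :=
    { r := fun s' s => Nonempty ((A ⧸ s'.meet) ≃* (A ⧸ s.meet))
      iseqv :=
        { refl := fun s => ⟨MulEquiv.refl _⟩
          symm := fun ⟨e⟩ => ⟨e.symm⟩
          trans := fun ⟨e⟩ ⟨f⟩ => ⟨e.trans f⟩ } }
  apply dvd_card_of_classes r
  intro s
  have hp := h s (A ⧸ s.meet) (QuotientGroup.mk' _) (QuotientGroup.mk'_surjective _)
    (QuotientGroup.ker_mk' _)
  -- the class of `s` fibres over `KerSet A (A ⧸ s.meet)`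
  let F : {s' : KerSub A H n // r s' s} → KerSet A (A ⧸ s.meet) := fun s' =>
    ⟨s'.1.meet, (mem_kerSet_iff _).2 ⟨hn _, s'.2⟩⟩
  have hfib : ∀ M : KerSet A (A ⧸ s.meet), Nat.card {s' // F s' = M} =
      Nat.card {t : KerSub (A ⧸ s.meet) H n // t.meet = ⊥} := by
    rintro ⟨M, q, hq, rfl⟩
    rw [← card_meet_eq q hq n]
    refine Nat.card_congr
      { toFun := fun s' => ⟨s'.1.1, Subtype.ext_iff.1 s'.2⟩
        invFun := fun s' => ⟨⟨s'.1, ?_⟩, Subtype.ext s'.2⟩
        left_inv := fun _ => rfl
        right_inv := fun _ => rfl }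
    have h1 : s'.1.meet ∈ KerSet A (A ⧸ s.meet) := by
      rw [s'.2]
      exact ⟨q, hq, rfl⟩
    obtain ⟨_, h2⟩ := (mem_kerSet_iff _).1 h1
    exact h2
  have hpos : 0 < Nat.card {t : KerSub (A ⧸ s.meet) H n // t.meet = ⊥} := by
    rw [← card_meet_eq (QuotientGroup.mk' s.meet) (QuotientGroup.mk'_surjective _) n]
    have : Nonempty {s' : KerSub A H n // s'.meet = (QuotientGroup.mk' s.meet).ker} :=
      ⟨⟨s, (QuotientGroup.ker_mk' _).symm⟩⟩
    exact Nat.card_pos
  have hfin2 : Finite (KerSet A (A ⧸ s.meet)) := by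
    refine Finite.of_surjective F ?_
    intro M
    have h3 := hfib M
    rw [← h3] at hpos
    obtain ⟨⟨s', hs'⟩⟩ := (Nat.card_pos_iff.1 hpos).1
    exact ⟨s', hs'⟩
  have := Fintype.ofFinite (KerSet A (A ⧸ s.meet))
  rw [Nat.card_congr (Equiv.sigmaFiberEquiv F).symm, Nat.card_sigma]
  simp only [hfib, Finset.sum_const, smul_eq_mul, Finset.card_univ]
  rw [← Nat.card_eq_fintype_card]
  exact Dvd.dvd.mul_right hp _

end P179H524
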