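import Vale.Agent.P179.H905.Tri

/-!
# Theorem M: definitions (transfer for a nonabelian `P`)
-/

namespace P179M

open P179A

variable {P Ω : Type*} [Group P] [MulAction P Ω]

/-- `c` is a trivialisation of the `P`-stable finite set `S`. -/
structure Triv (S : Finset Ω) (c : Ω → P) : Prop where
  stable : ∀ w ∈ S, ∀ e : P, e • w ∈ S
  map : ∀ w ∈ S, ∀ e : P, c (e • w) = e * c w

/-- `a` restricts to a `P`-equivariant bijection `S → S'`. -/
structure Eqv (P : Type*) {Ω : Type*} [Group P] [MulAction P Ω] (S S' : Finset Ω)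
    (a : Ω → Ω) : Prop where
  maps : ∀ w ∈ S, a w ∈ S'
  comm : ∀ w ∈ S, ∀ e : P, a (e • w) = e • a w
  inj : ∀ w ∈ S, ∀ w' ∈ S, a w = a w' → w = w'
  surj : ∀ w' ∈ S', ∃ w ∈ S, a w = w'

open Classical in
/-- Representatives of the orbits. -/
noncomputable def reps (c : Ω → P) (S : Finset Ω) : Finset Ω := S.filter (fun w => c w = 1)

/-- The transfer, with respect to `L : P → A` (additive: `L (a * b) = L a + L b`). -/
noncomputable def tr {A : Type*} [AddCommGroup A] (L : P → A) (c : Ω → P) (a : Ω → Ω)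
    (S : Finset Ω) : A := ∑ w ∈ reps c S, L (c (a w))

end P179M
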