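import Vale.Agent.P179.H905.MainLem
import Vale.Agent.P179.H143.LemQ
import Vale.Agent.P179.H524.MDefs

/-!
# Theorem M, part C: the action of `G × G` on triples, toggling
-/

namespace P179M

open P179A Subgroup

open scoped Classical Pointwise

variable {G : Type*} [Group G]

/-- The pair `k` fixes the triple `w`. -/
structure Fix (k : G × G) (w : Tri G) : Prop where
  x : k.1 * w.x = w.x * k.1
  s : k.1 ∈ stab w.s
  y : k.1 * w.y = w.y * k.2

/-- `G × G` acts on triples. -/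
@[reducible] noncomputable def act2 : MulAction (G × G) (Tri G) where
  smul k w := ⟨k.1 * w.x * k.1⁻¹, k.1 * w.y * k.2⁻¹, MulAut.conj k.1 • w.s⟩
  one_smul w := by
    apply Tri.ext
    · change 1 * w.x * 1⁻¹ = w.x; simp
    · change 1 * w.y * 1⁻¹ = w.y; simp
    · change MulAut.conj 1 • w.s = w.s; simp
  mul_smul a b w := by
    apply Tri.ext
    · change (a.1 * b.1) * w.x * (a.1 * b.1)⁻¹ = a.1 * (b.1 * w.x * b.1⁻¹) * a.1⁻¹; group
    · change (a.1 * b.1) * w.y * (a.2 * b.2)⁻¹ = a.1 * (b.1 * w.y * b.2⁻¹) * a.2⁻¹; group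
    · change MulAut.conj (a.1 * b.1) • w.s = MulAut.conj a.1 • MulAut.conj b.1 • w.s
      rw [map_mul, mul_smul]

attribute [local instance] act2

@[simp] theorem act_x (k : G × G) (w : Tri G) : (k • w).x = k.1 * w.x * k.1⁻¹ := rfl
@[simp] theorem act_y (k : G × G) (w : Tri G) : (k • w).y = k.1 * w.y * k.2⁻¹ := rfl
@[simp] theorem act_s (k : G × G) (w : Tri G) : (k • w).s = MulAut.conj k.1 • w.s := rfl

theorem act_eq_iff [Finite G] {p : ℕ} {w : Tri G} (hch : IsPChain p w.s) (k : G × G) :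
    k • w = w ↔ Fix k w := by
  constructor
  · intro h
    have h1 := congrArg Tri.x h
    have h2 := congrArg Tri.y h
    have h3 := congrArg Tri.s h
    simp only [act_x, act_y, act_s] at h1 h2 h3
    exact ⟨mul_inv_eq_iff_eq_mul.1 h1, mem_stab_of_conj_smul_eq hch.2 h3,
      mul_inv_eq_iff_eq_mul.1 h2⟩
  · rintro ⟨h1, h2, h3⟩
    apply Tri.ext
    · simp only [act_x]; rw [h1, mul_inv_cancel_right]
    · simp only [act_y]; rw [h3, mul_inv_cancel_right]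
    · simp only [act_s]; exact conj_smul_eq_self_of_mem h2

theorem Fix.mul {k l : G × G} {w : Tri G} (hk : Fix k w) (hl : Fix l w) : Fix (k * l) w := by
  refine ⟨?_, mul_mem hk.s hl.s, ?_⟩
  · change k.1 * l.1 * w.x = w.x * (k.1 * l.1)
    rw [mul_assoc, hl.x, ← mul_assoc, hk.x, mul_assoc]
  · change k.1 * l.1 * w.y = w.y * (k.2 * l.2)
    rw [mul_assoc, hl.y, ← mul_assoc, hk.y, mul_assoc]

theorem Fix.one (w : Tri G) : Fix (1 : G × G) w :=
  ⟨by simp, one_mem _, by simp⟩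

theorem Fix.inv {k : G × G} {w : Tri G} (hk : Fix k w) : Fix k⁻¹ w := by
  refine ⟨?_, inv_mem hk.s, ?_⟩
  · change k.1⁻¹ * w.x = w.x * k.1⁻¹
    rw [inv_mul_eq_iff_eq_mul, ← mul_assoc, hk.x, mul_inv_cancel_right]
  · change k.1⁻¹ * w.y = w.y * k.2⁻¹
    rw [inv_mul_eq_iff_eq_mul, ← mul_assoc, hk.y, mul_inv_cancel_right]

/-- the stabiliser in `G × G` -/
def St (w : Tri G) : Subgroup (G × G) where
  carrier := {k | Fix k w}
  mul_mem' h h' := h.mul h'
  one_mem' := Fix.one w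
  inv_mem' h := h.inv

theorem mem_St {w : Tri G} {k : G × G} : k ∈ St w ↔ Fix k w := Iff.rfl

/-- the relation with the action: `Fix` of a translate -/
theorem fix_act (k e : G × G) (w : Tri G) : Fix k (e • w) ↔ Fix (e⁻¹ * k * e) w := by
  constructor
  · rintro ⟨h1, h2, h3⟩
    simp only [act_x, act_y, act_s] at h1 h2 h3
    refine ⟨?_, ?_, ?_⟩
    · change (e.1⁻¹ * k.1 * e.1) * w.x = w.x * (e.1⁻¹ * k.1 * e.1)
      calc (e.1⁻¹ * k.1 * e.1) * w.x = e.1⁻¹ * (k.1 * (e.1 * w.x * e.1⁻¹)) * e.1 := by group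
        _ = e.1⁻¹ * (e.1 * w.x * e.1⁻¹ * k.1) * e.1 := by rw [h1]
        _ = w.x * (e.1⁻¹ * k.1 * e.1) := by group
    · change e.1⁻¹ * k.1 * e.1 ∈ stab w.s
      rw [← smul_mem_stab_iff (MulAut.conj e.1), MulAut.conj_apply]
      convert h2 using 1
      group
    · change (e.1⁻¹ * k.1 * e.1) * w.y = w.y * (e.2⁻¹ * k.2 * e.2)
      calc (e.1⁻¹ * k.1 * e.1) * w.y = e.1⁻¹ * (k.1 * (e.1 * w.y * e.2⁻¹)) * e.2 := by group
        _ = e.1⁻¹ * (e.1 * w.y * e.2⁻¹ * k.2) * e.2 := by rw [h3]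
        _ = w.y * (e.2⁻¹ * k.2 * e.2) := by group
  · rintro ⟨h1, h2, h3⟩
    change (e.1⁻¹ * k.1 * e.1) * w.x = w.x * (e.1⁻¹ * k.1 * e.1) at h1
    change e.1⁻¹ * k.1 * e.1 ∈ stab w.s at h2
    change (e.1⁻¹ * k.1 * e.1) * w.y = w.y * (e.2⁻¹ * k.2 * e.2) at h3
    refine ⟨?_, ?_, ?_⟩
    · simp only [act_x]
      calc k.1 * (e.1 * w.x * e.1⁻¹) = e.1 * ((e.1⁻¹ * k.1 * e.1) * w.x) * e.1⁻¹ := by group
        _ = e.1 * (w.x * (e.1⁻¹ * k.1 * e.1)) * e.1⁻¹ := by rw [h1]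
        _ = e.1 * w.x * e.1⁻¹ * k.1 := by group
    · simp only [act_s]
      rw [← smul_mem_stab_iff (MulAut.conj e.1), MulAut.conj_apply] at h2
      convert h2 using 1
      group
    · simp only [act_y]
      calc k.1 * (e.1 * w.y * e.2⁻¹) = e.1 * ((e.1⁻¹ * k.1 * e.1) * w.y) * e.2⁻¹ := by group
        _ = e.1 * (w.y * (e.2⁻¹ * k.2 * e.2)) * e.2⁻¹ := by rw [h3]
        _ = e.1 * w.y * e.2⁻¹ * k.2 := by group

section

variable [Finite G]

/-- The triples with `x ^ q = ξ` fixed by `K`. -/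
noncomputable def XX (p : ℕ) (g : G) (q : ℕ) (ξ : G) (K : Subgroup (G × G)) : Finset (Tri G) :=
  (OF p g).filter (fun w => w.x ^ q = ξ ∧ K ≤ St w)

theorem mem_XX {p : ℕ} {g : G} {q : ℕ} {ξ : G} {K : Subgroup (G × G)} {w : Tri G} :
    w ∈ XX p g q ξ K ↔ InO p g w ∧ w.x ^ q = ξ ∧ ∀ k ∈ K, Fix k w := by
  rw [XX, Finset.mem_filter, mem_OF]
  rfl

/-- The signed number of elements. -/
noncomputable def FK (p : ℕ) (g : G) (q : ℕ) (ξ : G) (K : Subgroup (G × G)) : ℤ :=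
  ∑ w ∈ XX p g q ξ K, (-1 : ℤ) ^ w.s.card

/-- **Toggling.** -/
theorem FK_toggle {p : ℕ} {g : G} {q : ℕ} {ξ : G} {K : Subgroup (G × G)} {U : Subgroup G}
    (hU : IsPGroup p U) (hU1 : U ≠ ⊥) (hUV : ∀ u ∈ U, ∃ u' ∈ U, (u, u') ∈ K)
    (hn : ∀ k ∈ K, k.1 ∈ normalizer (U : Set G)) : FK p g q ξ K = 0 := by
  have key : ∀ w ∈ XX p g q ξ K, U ≤ T U w ∧ w.y ∈ normalizer (U : Set G) := by
    intro w hw
    rw [mem_XX] at hw
    constructor
    · intro u hu
      obtain ⟨u', _, h⟩ := hUV u hu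
      have := hw.2.2 _ h
      exact mem_T.2 ⟨hu, this.x, this.s⟩
    · have h1 : w.y⁻¹ ∈ normalizer (U : Set G) := by
        refine mem_normalizer_fintype fun u hu => ?_
        obtain ⟨u', hu', h⟩ := hUV u hu
        have h2 := (hw.2.2 _ h).y
        rw [inv_inv]
        have h3 : w.y⁻¹ * u * w.y = u' := by
          rw [mul_assoc, h2, inv_mul_cancel_left]
        rw [h3]; exact hu'
      have := inv_mem h1
      rwa [inv_inv] at this
  refine Finset.sum_involution (fun w _ => tg U w) ?_ ?_ ?_ ?_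
  · intro w hw
    simp only [tg]
    rw [neg_one_pow_card_tog]; ring
  · intro w hw _ h
    have := congrArg Tri.s h
    exact tog_ne _ _ this
  · intro w hw
    obtain ⟨h1, h2⟩ := key w hw
    rw [mem_XX] at hw ⊢
    refine ⟨hw.1.tg hU h1 hU1 h2, hw.2.1, fun k hk => ?_⟩
    have h3 := hw.2.2 k hk
    exact ⟨h3.x, (mem_stab_tog hw.1.chain hU hU1 (fun u hu => (mem_T.1 (h1 hu)).2.2)
      (hn k hk)).2 h3.s, h3.y⟩
  · intro w hw
    exact tg_tg _ _

end

end P179M
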