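import Vale.Agent.P179.H524.MC1

/-!
# Theorem M, part C: the triples with exact stabiliser
-/

namespace P179M

open P179A Subgroup

open scoped Classical Pointwise

attribute [local instance] act2

/-- Divisibility of an invariant sum over a stable set, orbit by orbit. -/
theorem dvd_sum_stable {Γ Ω : Type*} [Group Γ] [MulAction Γ Ω] (X : Finset Ω)
    (hX : ∀ e : Γ, ∀ w ∈ X, e • w ∈ X) (F : Ω → ℤ) (hF : ∀ e : Γ, ∀ w ∈ X, F (e • w) = F w) (M : ℤ)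
    (h : ∀ w ∈ X, M ∣ ((MulAction.orbit Γ w).ncard : ℤ) * F w) : M ∣ ∑ w ∈ X, F w := by
  rw [← Finset.sum_fiberwise_of_maps_to (s := X)
    (t := X.image (fun x => (Quotient.mk'' x : MulAction.orbitRel.Quotient Γ Ω)))
    (g := fun x => (Quotient.mk'' x : MulAction.orbitRel.Quotient Γ Ω))
    (fun x hx => Finset.mem_image_of_mem _ hx)]
  refine Finset.dvd_sum fun ω hω => ?_
  obtain ⟨x, hx, rfl⟩ := Finset.mem_image.1 hω
  have h1 : ∀ y, (Quotient.mk'' y : MulAction.orbitRel.Quotient Γ Ω) = Quotient.mk'' x ↔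
      y ∈ MulAction.orbit Γ x := by
    intro y
    rw [Quotient.eq'']
    exact MulAction.orbitRel_apply
  have h2 : ∀ y ∈ X.filter (fun y => (Quotient.mk'' y : MulAction.orbitRel.Quotient Γ Ω) =
      Quotient.mk'' x), F y = F x := by
    intro y hy
    rw [Finset.mem_filter, h1] at hy
    obtain ⟨g, rfl⟩ := hy.2
    exact hF g x hx
  rw [Finset.sum_congr rfl h2, Finset.sum_const, nsmul_eq_mul]
  have h3 : (X.filter (fun y => (Quotient.mk'' y : MulAction.orbitRel.Quotient Γ Ω) =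
      Quotient.mk'' x)).card = (MulAction.orbit Γ x).ncard := by
    rw [← Set.ncard_coe_finset]
    congr 1
    ext y
    rw [Finset.mem_coe, Finset.mem_filter, h1]
    constructor
    · exact fun hy => hy.2
    · intro hy
      obtain ⟨e, rfl⟩ := hy
      exact ⟨hX e x hx, e, rfl⟩
  rw [h3]
  exact h x hx

variable {G : Type*} [Group G]

/-- the first projection -/
abbrev VK (K : Subgroup (G × G)) : Subgroup G := K.map (MonoidHom.fst G G)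

theorem mem_VK {K : Subgroup (G × G)} {v : G} : v ∈ VK K ↔ ∃ v', (v, v') ∈ K := by
  simp only [VK, mem_map, MonoidHom.coe_fst, Prod.exists]
  constructor
  · rintro ⟨a, b, h, rfl⟩; exact ⟨b, h⟩
  · rintro ⟨v', h⟩; exact ⟨v, v', h, rfl⟩

/-- `V⟨ξ⟩` -/
abbrev AK (ξ : G) (K : Subgroup (G × G)) : Subgroup G := VK K ⊔ zpowers ξ

/-- The hypotheses on `K`. -/
structure Good (p : ℕ) (g ξ : G) (Q : Subgroup G) (K : Subgroup (G × G)) : Prop where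
  pQ : IsPGroup p Q
  pξ : ∃ n : ℕ, ξ ^ p ^ n = 1
  cg : ∀ a ∈ Q, a * g = g * a
  cξ : ∀ a ∈ Q, a * ξ = ξ * a
  fst : ∀ k ∈ K, k.1 ∈ Q
  snd : ∀ k ∈ K, k.2 ∈ AK ξ K

theorem mem_sup_zpowers {V : Subgroup G} {ξ : G} (h : ∀ v ∈ V, v * ξ = ξ * v) {a : G}
    (ha : a ∈ V ⊔ zpowers ξ) : ∃ v ∈ V, ∃ n : ℤ, a = v * ξ ^ n := by
  let B : Subgroup G :=
    { carrier := {a | ∃ v ∈ V, ∃ n : ℤ, a = v * ξ ^ n}
      mul_mem' := by
        rintro _ _ ⟨v, hv, n, rfl⟩ ⟨v', hv', n', rfl⟩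
        refine ⟨v * v', mul_mem hv hv', n + n', ?_⟩
        have hc : Commute (ξ ^ n) v' := Commute.zpow_left (h v' hv').symm n
        rw [zpow_add, mul_assoc v, ← mul_assoc (ξ ^ n), hc.eq]
        simp only [mul_assoc]
      one_mem' := ⟨1, one_mem _, 0, by simp⟩
      inv_mem' := by
        rintro _ ⟨v, hv, n, rfl⟩
        refine ⟨v⁻¹, inv_mem hv, -n, ?_⟩
        have hc : Commute (ξ ^ n) v := Commute.zpow_left (h v hv).symm n
        rw [zpow_neg, ← hc.eq, mul_inv_rev] }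
  have hle : V ⊔ zpowers ξ ≤ B := by
    refine sup_le (fun v hv => ⟨v, hv, 0, by simp⟩) ?_
    rw [zpowers_le]
    exact ⟨1, one_mem _, 1, by simp⟩
  exact hle ha

namespace Good

variable {p : ℕ} {g ξ : G} {Q : Subgroup G} {K : Subgroup (G × G)} (h : Good p g ξ Q K)

include h

theorem V_le : VK K ≤ Q := by
  intro v hv
  obtain ⟨v', hv'⟩ := mem_VK.1 hv
  exact h.fst _ hv'

theorem Vξ : ∀ v ∈ VK K, v * ξ = ξ * v := fun v hv => h.cξ v (h.V_le hv)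

theorem A_exp {a : G} (ha : a ∈ AK ξ K) : ∃ v ∈ VK K, ∃ n : ℤ, a = v * ξ ^ n :=
  mem_sup_zpowers h.Vξ ha

theorem pA [hp : Fact p.Prime] : IsPGroup p (AK ξ K) := by
  have h1 : IsPGroup p (VK K) := h.pQ.to_le h.V_le
  have h2 : IsPGroup p (zpowers ξ) := by
    obtain ⟨n, hn⟩ := h.pξ
    refine IsPGroup.of_card (n := (Nat.card (zpowers ξ)).factorization p) ?_
    rw [Nat.card_zpowers]
    have : orderOf ξ ∣ p ^ n := orderOf_dvd_of_pow_eq_one hn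
    obtain ⟨k, _, hk⟩ := (Nat.dvd_prime_pow hp.out).1 this
    rw [hk, hp.out.factorization_pow]
    simp
  refine IsPGroup.to_sup_of_normal_right' h1 h2 ?_
  intro t ht
  refine mem_normalizer_of_comm fun v hv => ?_
  obtain ⟨k, rfl⟩ := mem_zpowers_iff.1 hv
  have h3 : Commute ξ t := (h.Vξ t ht).symm
  exact (h3.zpow_left k).symm

theorem A_comm (hab : ∀ a ∈ VK K, ∀ b ∈ VK K, a * b = b * a) :
    ∀ a ∈ AK ξ K, ∀ b ∈ AK ξ K, a * b = b * a := by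
  intro a ha b hb
  obtain ⟨v, hv, n, rfl⟩ := h.A_exp ha
  obtain ⟨v', hv', n', rfl⟩ := h.A_exp hb
  have c1 : Commute v v' := hab v hv v' hv'
  have c2 : Commute v (ξ ^ n') := (Commute.zpow_right (h.Vξ v hv) n')
  have c3 : Commute (ξ ^ n) v' := (Commute.zpow_right (h.Vξ v' hv') n).symm
  have c4 : Commute (ξ ^ n) (ξ ^ n') := Commute.zpow_zpow_self ξ n n'
  exact ((c1.mul_right c2).mul_left (c3.mul_right c4))

theorem ξ_comm_A {a : G} (ha : a ∈ AK ξ K) : a * ξ = ξ * a := by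
  obtain ⟨v, hv, n, rfl⟩ := h.A_exp ha
  have c1 : Commute v ξ := h.Vξ v hv
  have c2 : Commute (ξ ^ n) ξ := (Commute.refl ξ).zpow_left n
  exact c1.mul_left c2

end Good

theorem ξ_mem_AK (ξ : G) (K : Subgroup (G × G)) : ξ ∈ AK ξ K :=
  (le_sup_right : zpowers ξ ≤ VK K ⊔ zpowers ξ) (mem_zpowers ξ)

/-- The diagonal. -/
def dg (n : G) : G × G := (n, n)

/-- `N` normalises `K`. -/
def NormK (N : Subgroup G) (K : Subgroup (G × G)) : Prop :=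
  ∀ n ∈ N, ∀ k ∈ K, dg n * k * (dg n)⁻¹ ∈ K

theorem NormK.V {N : Subgroup G} {K : Subgroup (G × G)} (h : NormK N K) {n : G} (hn : n ∈ N)
    {v : G} (hv : v ∈ VK K) : n * v * n⁻¹ ∈ VK K := by
  obtain ⟨v', hv'⟩ := mem_VK.1 hv
  exact mem_VK.2 ⟨_, h n hn _ hv'⟩

theorem NormK.A {N : Subgroup G} {K : Subgroup (G × G)} (h : NormK N K) {ξ : G}
    (hVξ : ∀ v ∈ VK K, v * ξ = ξ * v) (hξ : ∀ n ∈ N, n * ξ = ξ * n) {n : G} (hn : n ∈ N)
    {a : G} (ha : a ∈ AK ξ K) : n * a * n⁻¹ ∈ AK ξ K := by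
  obtain ⟨v, hv, m, rfl⟩ := mem_sup_zpowers hVξ ha
  have c : Commute n (ξ ^ m) := Commute.zpow_right (hξ n hn) m
  have e : n * (v * ξ ^ m) * n⁻¹ = (n * v * n⁻¹) * ξ ^ m := by
    calc n * (v * ξ ^ m) * n⁻¹ = n * v * (ξ ^ m * n⁻¹) := by group
      _ = n * v * (n⁻¹ * ξ ^ m) := by rw [(c.inv_left).eq]
      _ = _ := by group
  rw [e]
  exact mul_mem ((le_sup_left : VK K ≤ _) (h.V hn hv))
    ((le_sup_right : zpowers ξ ≤ VK K ⊔ zpowers ξ) (zpow_mem (mem_zpowers ξ) m))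

/-- The group `N V⟨ξ⟩` of pairs `(n, a n)`. -/
def EE (N A : Subgroup G) (hA : ∀ n ∈ N, ∀ a ∈ A, n * a * n⁻¹ ∈ A) : Subgroup (G × G) where
  carrier := {e | e.1 ∈ N ∧ e.2 * e.1⁻¹ ∈ A}
  mul_mem' := by
    rintro ⟨a, a'⟩ ⟨b, b'⟩ ⟨h1, h2⟩ ⟨h3, h4⟩
    refine ⟨mul_mem h1 h3, ?_⟩
    change a' * b' * (a * b)⁻¹ ∈ A
    have : a' * b' * (a * b)⁻¹ = (a' * a⁻¹) * (a * (b' * b⁻¹) * a⁻¹) := by group
    rw [this]
    exact mul_mem h2 (hA a h1 _ h4)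
  one_mem' := ⟨one_mem _, by simp⟩
  inv_mem' := by
    rintro ⟨a, a'⟩ ⟨h1, h2⟩
    refine ⟨inv_mem h1, ?_⟩
    change a'⁻¹ * a⁻¹⁻¹ ∈ A
    have : a'⁻¹ * a⁻¹⁻¹ = a⁻¹ * (a' * a⁻¹)⁻¹ * a⁻¹⁻¹ := by group
    rw [this]
    exact hA _ (inv_mem h1) _ (inv_mem h2)

theorem mem_EE {N A : Subgroup G} {hA : ∀ n ∈ N, ∀ a ∈ A, n * a * n⁻¹ ∈ A} {e : G × G} :
    e ∈ EE N A hA ↔ e.1 ∈ N ∧ e.2 * e.1⁻¹ ∈ A := Iff.rfl

theorem card_EE {N A : Subgroup G} {hA : ∀ n ∈ N, ∀ a ∈ A, n * a * n⁻¹ ∈ A} :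
    Nat.card (EE N A hA) = Nat.card N * Nat.card A := by
  rw [← Nat.card_prod]
  refine Nat.card_congr
    { toFun := fun e => (⟨e.1.1, e.2.1⟩, ⟨e.1.2 * e.1.1⁻¹, e.2.2⟩)
      invFun := fun t => ⟨(t.1.1, t.2.1 * t.1.1), t.1.2, by simp⟩
      left_inv := fun e => by apply Subtype.ext; simp
      right_inv := fun t => by simp }

end P179M
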