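import Vale.Agent.P179.H524.MC2

/-!
# Theorem M, part C: the sum over the triples with exact stabiliser
-/

namespace P179M

open P179A Subgroup

open scoped Classical Pointwise

attribute [local instance] act2

variable {G : Type*} [Group G] [Finite G]

/-- the triples with exact stabiliser `K` in `E` -/
noncomputable def XE (p : ℕ) (g : G) (q : ℕ) (ξ : G) (K E : Subgroup (G × G)) : Finset (Tri G) :=
  (XX p g q ξ K).filter (fun w => ∀ e ∈ E, Fix e w → e ∈ K)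

section

variable {p : ℕ} {g ξ : G} {q : ℕ} {Q : Subgroup G} {K : Subgroup (G × G)}
  (h : Good p g ξ Q K) {N : Subgroup G} (hNQ : N ≤ Q) (hN : NormK N K)
  (hab : ∀ a ∈ VK K, ∀ b ∈ VK K, a * b = b * a)

omit [Finite G] in
include h hNQ hN in
theorem NA : ∀ n ∈ N, ∀ a ∈ AK ξ K, n * a * n⁻¹ ∈ AK ξ K :=
  fun _ hn _ ha => hN.A h.Vξ (fun n hn => h.cξ n (hNQ hn)) hn ha

include h hNQ hN hab in
/-- `E` normalises `K` -/
theorem E_norm {e : G × G} (he : e ∈ EE N (AK ξ K) (NA h hNQ hN)) {k : G × G} (hk : k ∈ K) :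
    e⁻¹ * k * e ∈ K := by
  have he' := inv_mem he
  rw [mem_EE] at he'
  obtain ⟨h1, h2⟩ := he'
  have h3 := hN _ h1 k hk
  have hfst : e⁻¹.1 = e.1⁻¹ := rfl
  have hsnd : e⁻¹.2 = e.2⁻¹ := rfl
  rw [hfst, hsnd] at h2
  rw [hfst] at h3
  have h4 : e⁻¹ * k * e = dg e.1⁻¹ * k * (dg e.1⁻¹)⁻¹ := by
    apply Prod.ext
    · change e.1⁻¹ * k.1 * e.1 = e.1⁻¹ * k.1 * e.1⁻¹⁻¹
      rw [inv_inv]
    · change e.2⁻¹ * k.2 * e.2 = e.1⁻¹ * k.2 * e.1⁻¹⁻¹
      have h5 : e.1⁻¹ * k.2 * e.1⁻¹⁻¹ ∈ AK ξ K := h.snd _ h3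
      have h6 := h.A_comm hab _ h2 _ h5
      have h7 : e.2⁻¹ * k.2 * e.2 = (e.2⁻¹ * e.1⁻¹⁻¹) * (e.1⁻¹ * k.2 * e.1⁻¹⁻¹) *
          (e.2⁻¹ * e.1⁻¹⁻¹)⁻¹ := by group
      rw [h7, h6, mul_inv_cancel_right]
  rw [h4]; exact h3

include h hNQ hN hab in
/-- `E` acts on `XX K`. -/
theorem XX_stable {e : G × G} (he : e ∈ EE N (AK ξ K) (NA h hNQ hN)) {w : Tri G}
    (hw : w ∈ XX p g q ξ K) : e • w ∈ XX p g q ξ K := by
  rw [mem_XX] at hw ⊢
  obtain ⟨hw1, hw2, hw3⟩ := hw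
  have he0 := he
  obtain ⟨hn, ha⟩ := mem_EE.1 he
  -- the element `e` as conjugation followed by a right multiplication
  have h1 : e • w = rm (e.2 * e.1⁻¹)⁻¹ (e.1 • w) := by
    apply Tri.ext
    · rfl
    · simp only [act_y, rm, smul_y]; group
    · rfl
  have hcg : e.1 * g = g * e.1 := h.cg _ (hNQ hn)
  have h2 := hw1.smul hcg
  have hV : ∀ v ∈ VK K, v * (e.1 • w).x = (e.1 • w).x * v ∧ v ∈ stab (e.1 • w).s := by
    intro v hv
    obtain ⟨v', hv'⟩ := mem_VK.1 hv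
    have h3 := E_norm h hNQ hN hab he hv'
    have h4 := hw3 _ h3
    have h5 := (fix_act (v, v') e w).2 h4
    exact ⟨h5.x, h5.s⟩
  have hξ : ξ * (e.1 • w).x = (e.1 • w).x * ξ ∧ ξ ∈ stab (e.1 • w).s := by
    have hc : Commute e.1 ξ := h.cξ _ (hNQ hn)
    have h6 : (e.1 • w).x ^ q = ξ := by
      rw [smul_x, conj_pow, hw2, hc.eq, mul_inv_cancel_right]
    constructor
    · rw [← h6]
      exact (Commute.pow_self _ q)
    · rw [← h6]
      exact pow_mem h2.hx q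
  have hA : ∀ a ∈ AK ξ K, a * (e.1 • w).x = (e.1 • w).x * a ∧ a ∈ stab (e.1 • w).s := by
    intro a ha
    obtain ⟨v, hv, n, rfl⟩ := h.A_exp ha
    obtain ⟨h7, h8⟩ := hV v hv
    refine ⟨?_, mul_mem h8 (zpow_mem hξ.2 n)⟩
    have c1 : Commute v (e.1 • w).x := h7
    have c2 : Commute ξ (e.1 • w).x := hξ.1
    exact c1.mul_left (c2.zpow_left n)
  refine ⟨?_, ?_, ?_⟩
  · rw [h1]
    obtain ⟨h9, h10⟩ := hA _ (inv_mem ha)
    exact h2.rm h9 h10
  · have hc : Commute e.1 ξ := h.cξ _ (hNQ hn)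
    rw [act_x, conj_pow, hw2, hc.eq, mul_inv_cancel_right]
  · intro k hk
    rw [fix_act]
    exact hw3 _ (E_norm h hNQ hN hab he hk)

include h hNQ hN hab in
theorem XE_stable {e : G × G} (he : e ∈ EE N (AK ξ K) (NA h hNQ hN)) {w : Tri G}
    (hw : w ∈ XE p g q ξ K (EE N (AK ξ K) (NA h hNQ hN))) :
    e • w ∈ XE p g q ξ K (EE N (AK ξ K) (NA h hNQ hN)) := by
  rw [XE, Finset.mem_filter] at hw ⊢
  refine ⟨XX_stable h hNQ hN hab he hw.1, fun f hf hfw => ?_⟩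
  rw [fix_act] at hfw
  have h1 := hw.2 _ (mul_mem (mul_mem (inv_mem he) hf) he) hfw
  have h2 := E_norm h hNQ hN hab (inv_mem he) h1
  have h3 : e⁻¹⁻¹ * (e⁻¹ * f * e) * e⁻¹ = f := by group
  rwa [h3] at h2

include h hNQ hN hab in
/-- **The exact part.** -/
theorem XE_dvd [hp : Fact p.Prime] (hVN : VK K ≤ N)
    (hno : ∀ U : Subgroup G, (∀ u ∈ U, ∃ u' ∈ U, (u, u') ∈ K) → U = ⊥) :
    ((Nat.card N * orderOf ξ : ℕ) : ℤ) ∣
      ∑ w ∈ XE p g q ξ K (EE N (AK ξ K) (NA h hNQ hN)), (-1 : ℤ) ^ w.s.card := by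
  set E := EE N (AK ξ K) (NA h hNQ hN) with hE
  refine dvd_sum_stable (Γ := E) _ (fun e w hw => XE_stable h hNQ hN hab e.2 hw) _
    (fun e w hw => ?_) _ (fun w hw => ?_)
  · change (-1 : ℤ) ^ (MulAut.conj e.1.1 • w.s).card = _
    rw [card_smul_chain]
  · refine Dvd.dvd.mul_right ?_ _
    rw [XE, Finset.mem_filter] at hw
    have hw1 := mem_XX.1 hw.1
    -- `K ≤ E`
    have hKE : K ≤ E := by
      intro k hk
      have h1 : k.1 ∈ VK K := mem_VK.2 ⟨k.2, hk⟩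
      refine mem_EE.2 ⟨hVN h1, mul_mem (h.snd k hk) (inv_mem (le_sup_left (a := VK K) h1))⟩
    -- the stabiliser
    have hst : MulAction.stabilizer E w = K.subgroupOf E := by
      ext e
      rw [MulAction.mem_stabilizer_iff, mem_subgroupOf]
      have h1 : e • w = (e : G × G) • w := rfl
      rw [h1, act_eq_iff hw1.1.chain]
      exact ⟨fun hf => hw.2 _ e.2 hf, fun hk => hw1.2.2 _ hk⟩
    have hcard : (MulAction.orbit E w).ncard * Nat.card K = Nat.card N * Nat.card (AK ξ K) := by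
      rw [← MulAction.index_stabilizer, hst, ← card_EE (hA := NA h hNQ hN), ← hE,
        ← Subgroup.card_mul_index (K.subgroupOf E), mul_comm]
      congr 1
      exact (Nat.card_congr (subgroupOfEquivOfLe hKE).toEquiv).symm
    -- `K → V` is injective
    have hKV : Nat.card K = Nat.card (AK ξ K ⊓ (VK K).map (MulAut.conj w.y⁻¹).toMonoidHom :
        Subgroup G) := by
      refine Nat.card_congr (Equiv.ofBijective (fun k => ⟨k.1.2, ?_⟩) ⟨?_, ?_⟩)
      · refine mem_inf.2 ⟨h.snd _ k.2, mem_map.2 ⟨k.1.1, mem_VK.2 ⟨_, k.2⟩, ?_⟩⟩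
        have h1 := (hw1.2.2 _ k.2).y
        simp only [MulEquiv.toMonoidHom_eq_coe, MonoidHom.coe_coe, MulAut.conj_apply, inv_inv]
        rw [mul_assoc, h1, inv_mul_cancel_left]
      · intro k k' hkk
        have h0 : k.1.2 = k'.1.2 := congrArg Subtype.val hkk
        have h1 := (hw1.2.2 _ k.2).y
        have h2 := (hw1.2.2 _ k'.2).y
        rw [h0, ← h2] at h1
        exact Subtype.ext (Prod.ext (mul_right_cancel h1) h0)
      · rintro ⟨z, hz⟩
        obtain ⟨_, hz2⟩ := mem_inf.1 hz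
        obtain ⟨v, hv, hvz⟩ := mem_map.1 hz2
        obtain ⟨v', hv'⟩ := mem_VK.1 hv
        have h1 := (hw1.2.2 _ hv').y
        refine ⟨⟨(v, v'), hv'⟩, Subtype.ext ?_⟩
        change v' = z
        rw [← hvz]
        simp only [MulEquiv.toMonoidHom_eq_coe, MonoidHom.coe_coe, MulAut.conj_apply, inv_inv]
        rw [mul_assoc, h1, inv_mul_cancel_left]
    have hlem := P179H143.lemQ p (VK K) (AK ξ K) le_sup_left (h.A_comm hab) h.pA w.y ξ
      (ξ_mem_AK ξ K) (by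
        intro U hUV hUy
        apply hno
        intro u hu
        obtain ⟨u', hu'⟩ := mem_VK.1 (hUV hu)
        have h1 := (hw1.2.2 _ hu').y
        have h2 : w.y⁻¹ * u * w.y = u' := by
          rw [mul_assoc, h1, inv_mul_cancel_left]
        exact ⟨u', h2 ▸ hUy u hu, hu'⟩)
    rw [← hKV] at hlem
    obtain ⟨c, hc⟩ := hlem
    rw [hc] at hcard
    have hKpos : 0 < Nat.card K := Nat.card_pos
    have h5 : (MulAction.orbit E w).ncard = Nat.card N * orderOf ξ * c := by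
      apply Nat.eq_of_mul_eq_mul_right hKpos
      rw [hcard]; ring
    rw [h5]
    exact_mod_cast Dvd.intro c rfl

end

end P179M
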