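import Vale.Agent.P179.H524.MC3

/-!
# Theorem M, part C: the main claim by inclusion and exclusion
-/

set_option linter.unusedSectionVars false

namespace P179M

open P179A Subgroup

open scoped Classical Pointwise commutatorElement

attribute [local instance] act2

variable {G : Type*} [Group G] [Finite G]

omit [Finite G] in
theorem dvd_sum_hom {Γ Ω : Type*} [Group Γ] (φ : Γ →* Equiv.Perm Ω) (X : Finset Ω)
    (hX : ∀ e : Γ, ∀ w ∈ X, φ e w ∈ X) (F : Ω → ℤ) (hF : ∀ e : Γ, ∀ w ∈ X, F (φ e w) = F w) (M : ℤ)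
    (h : ∀ w ∈ X, ∀ T : Subgroup Γ, (∀ t, t ∈ T ↔ φ t w = w) → ∀ c : ℕ,
      c * Nat.card T = Nat.card Γ → M ∣ (c : ℤ) * F w) : M ∣ ∑ w ∈ X, F w := by
  let _ : MulAction Γ Ω := MulAction.compHom Ω φ
  refine dvd_sum_stable (Γ := Γ) X hX F hF M fun w hw => ?_
  refine h w hw (MulAction.stabilizer Γ w) (fun t => Iff.rfl) _ ?_
  rw [← MulAction.index_stabilizer, mul_comm, Subgroup.card_mul_index]

theorem mem_XX_sup {p : ℕ} {g : G} {q : ℕ} {ξ : G} {K : Subgroup (G × G)} {S : Finset (G × G)}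
    {w : Tri G} : w ∈ XX p g q ξ (K ⊔ closure (S : Set (G × G))) ↔
      w ∈ XX p g q ξ K ∧ ∀ b ∈ S, Fix b w := by
  rw [XX, XX, Finset.mem_filter, Finset.mem_filter, sup_le_iff, closure_le]
  constructor
  · rintro ⟨h1, h2, h3, h4⟩
    exact ⟨⟨h1, h2, h3⟩, fun b hb => h4 (Finset.mem_coe.2 hb)⟩
  · rintro ⟨⟨h1, h2, h3⟩, h4⟩
    exact ⟨h1, h2, h3, fun b hb => h4 b (Finset.mem_coe.1 hb)⟩

/-- Inclusion and exclusion. -/
theorem sum_exact (p : ℕ) (g : G) (q : ℕ) (ξ : G) (K E : Subgroup (G × G)) (B : Finset (G × G))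
    (hB : ∀ e, e ∈ B ↔ e ∈ E ∧ e ∉ K) :
    ∑ w ∈ XE p g q ξ K E, (-1 : ℤ) ^ w.s.card =
      ∑ S ∈ B.powerset, (-1 : ℤ) ^ S.card * FK p g q ξ (K ⊔ closure (S : Set (G × G))) := by
  have h1 : ∀ S : Finset (G × G), FK p g q ξ (K ⊔ closure (S : Set (G × G))) =
      ∑ w ∈ XX p g q ξ K, if ∀ b ∈ S, Fix b w then (-1 : ℤ) ^ w.s.card else 0 := by
    intro S
    rw [FK, ← Finset.sum_filter]
    refine Finset.sum_congr ?_ fun _ _ => rfl
    ext w
    rw [mem_XX_sup, Finset.mem_filter]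
  simp only [h1, Finset.mul_sum]
  rw [Finset.sum_comm, XE, Finset.sum_filter]
  refine Finset.sum_congr rfl fun w _ => ?_
  have h2 : ∀ S ∈ B.powerset, ((-1 : ℤ) ^ S.card *
      if ∀ b ∈ S, Fix b w then (-1 : ℤ) ^ w.s.card else 0) =
      if ∀ b ∈ S, Fix b w then (-1 : ℤ) ^ S.card * (-1 : ℤ) ^ w.s.card else 0 := by
    intro S _
    split_ifs <;> simp
  rw [Finset.sum_congr rfl h2, ← Finset.sum_filter]
  have h3 : B.powerset.filter (fun S => ∀ b ∈ S, Fix b w) =
      (B.filter (fun b => Fix b w)).powerset := by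
    ext S
    rw [Finset.mem_filter, Finset.mem_powerset, Finset.mem_powerset]
    constructor
    · rintro ⟨h4, h5⟩ b hb
      exact Finset.mem_filter.2 ⟨h4 hb, h5 b hb⟩
    · intro h4
      exact ⟨fun b hb => (Finset.mem_filter.1 (h4 hb)).1,
        fun b hb => (Finset.mem_filter.1 (h4 hb)).2⟩
  rw [h3, ← Finset.sum_mul, Finset.sum_powerset_neg_one_pow_card]
  have h4 : (B.filter (fun b => Fix b w) = ∅) ↔ ∀ e ∈ E, Fix e w → e ∈ K := by
    rw [Finset.filter_eq_empty_iff]
    constructor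
    · intro h5 e he hf
      by_contra hK
      exact h5 ((hB e).2 ⟨he, hK⟩) hf
    · intro h5 b hb hf
      have := (hB b).1 hb
      exact this.2 (h5 b this.1 hf)
  by_cases h5 : B.filter (fun b => Fix b w) = ∅
  · rw [if_pos h5, if_pos (h4.1 h5), one_mul]
  · rw [if_neg h5, if_neg (fun h6 => h5 (h4.2 h6)), zero_mul]

/-- Enlarging `K`. -/
theorem Good.sup {p : ℕ} {g ξ : G} {Q : Subgroup G} {K : Subgroup (G × G)}
    (h : Good p g ξ Q K) {S : Set (G × G)} (hS : ∀ b ∈ S, b.1 ∈ Q ∧ b.2 * b.1⁻¹ ∈ AK ξ K) :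
    Good p g ξ Q (K ⊔ closure S) := by
  have hV : VK K ≤ VK (K ⊔ closure S) := map_mono le_sup_left
  have hA : AK ξ K ≤ AK ξ (K ⊔ closure S) := sup_le_sup hV le_rfl
  refine ⟨h.pQ, h.pξ, h.cg, h.cξ, ?_, ?_⟩
  · have : K ⊔ closure S ≤ Q.prod ⊤ := by
      refine sup_le (fun k hk => mem_prod.2 ⟨h.fst k hk, mem_top _⟩) ?_
      rw [closure_le]
      intro b hb
      exact mem_prod.2 ⟨(hS b hb).1, mem_top _⟩
    intro k hk
    exact (mem_prod.1 (this hk)).1
  · have : K ⊔ closure S ≤ (⊤ : Subgroup G).prod (AK ξ (K ⊔ closure S)) := by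
      refine sup_le (fun k hk => mem_prod.2 ⟨mem_top _, hA (h.snd k hk)⟩) ?_
      rw [closure_le]
      intro b hb
      refine mem_prod.2 ⟨mem_top _, ?_⟩
      have h1 : b.1 ∈ AK ξ (K ⊔ closure S) :=
        (le_sup_left (a := VK (K ⊔ closure S))) (mem_map.2 ⟨b,
          (le_sup_right : closure S ≤ K ⊔ closure S) (subset_closure hb), rfl⟩)
      have h2 := mul_mem (hA (hS b hb).2) h1
      rwa [inv_mul_cancel_right] at h2
    intro k hk
    exact (mem_prod.1 (this hk)).2

/-- Conjugation. -/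
theorem FK_conj {p : ℕ} {g ξ : G} {q : ℕ} {n : G} (hng : n * g = g * n) (hnξ : n * ξ = ξ * n)
    {K K' : Subgroup (G × G)} (hK : ∀ k, k ∈ K' ↔ (dg n)⁻¹ * k * dg n ∈ K) :
    FK p g q ξ K' = FK p g q ξ K := by
  have hx : ∀ w : Tri G, dg n • w = n • w := fun _ => rfl
  have hc : Commute n ξ := hnξ
  symm
  refine Finset.sum_bij (fun w _ => dg n • w) ?_ ?_ ?_ ?_
  · intro w hw
    rw [mem_XX] at hw ⊢
    refine ⟨?_, ?_, fun k hk => ?_⟩
    · rw [hx]; exact hw.1.smul hng
    · rw [act_x, conj_pow, hw.2.1]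
      change n * ξ * n⁻¹ = ξ
      rw [hnξ, mul_inv_cancel_right]
    · rw [fix_act]
      exact hw.2.2 _ ((hK k).1 hk)
  · intro w _ w' _ h
    exact MulAction.injective (dg n) h
  · intro w hw
    rw [mem_XX] at hw
    refine ⟨(dg n)⁻¹ • w, ?_, smul_inv_smul _ _⟩
    rw [mem_XX]
    refine ⟨?_, ?_, fun k hk => ?_⟩
    · have h1 : (dg n)⁻¹ • w = n⁻¹ • w := rfl
      rw [h1]
      refine hw.1.smul ?_
      have hcg : Commute n g := hng
      exact hcg.inv_left
    · rw [act_x, conj_pow, hw.2.1]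
      change n⁻¹ * ξ * n⁻¹⁻¹ = ξ
      rw [hc.inv_left.eq, mul_inv_cancel_right]
    · rw [fix_act, inv_inv]
      refine hw.2.2 _ ((hK _).2 ?_)
      have : (dg n)⁻¹ * (dg n * k * (dg n)⁻¹) * dg n = k := by group
      rw [this]; exact hk
  · intro w _
    change _ = (-1 : ℤ) ^ (MulAut.conj n • w.s).card
    rw [card_smul_chain]

theorem conj_smul_of_normK {K : Subgroup (G × G)} {k : G × G}
    (hk : k ∈ normalizer (K : Set (G × G))) : MulAut.conj k • K = K := by
  ext x
  rw [Subgroup.mem_pointwise_smul_iff_inv_smul_mem]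
  rw [mem_normalizer_iff''] at hk
  rw [hk x]
  simp [MulAut.smul_def]

/-- **The main claim.** -/
theorem FK_dvd {p : ℕ} [hp : Fact p.Prime] {g ξ : G} {q : ℕ} {Q : Subgroup G}
    (K : Subgroup (G × G)) : Good p g ξ Q K → ∀ N : Subgroup G, N ≤ Q → NormK N K →
      ((Nat.card N * orderOf ξ : ℕ) : ℤ) ∣ FK p g q ξ K := by
  induction K using WellFoundedGT.induction with
  | ind K ih =>
  intro h N hNQ hN
  by_cases hB : ∃ U : Subgroup G, U ≠ ⊥ ∧ (∀ u ∈ U, ∃ u' ∈ U, (u, u') ∈ K) ∧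
      ∀ k ∈ K, k.1 ∈ normalizer (U : Set G)
  · obtain ⟨U, hU1, hU2, hU3⟩ := hB
    have hUQ : U ≤ Q := by
      intro u hu
      obtain ⟨u', _, h'⟩ := hU2 u hu
      exact h.fst _ h'
    rw [FK_toggle (h.pQ.to_le hUQ) hU1 hU2 hU3]
    exact dvd_zero _
  · -- `V` is abelian
    have hab : ∀ a ∈ VK K, ∀ b ∈ VK K, a * b = b * a := by
      by_contra hcon
      push Not at hcon
      obtain ⟨a, ha, b, hb, hne⟩ := hcon
      apply hB
      refine ⟨⁅VK K, VK K⁆, ?_, ?_, ?_⟩
      · intro h1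
        apply hne
        have h2 : ⁅a, b⁆ ∈ (⊥ : Subgroup G) := h1 ▸ commutator_mem_commutator ha hb
        rw [mem_bot, commutatorElement_eq_one_iff_mul_comm] at h2
        exact h2
      · -- the subgroup of the good elements
        let W : Subgroup G :=
          { carrier := {u | ∃ u' ∈ ⁅VK K, VK K⁆, (u, u') ∈ K}
            mul_mem' := by
              rintro x y ⟨x', h1, h2⟩ ⟨y', h3, h4⟩
              exact ⟨x' * y', mul_mem h1 h3, mul_mem h2 h4⟩
            one_mem' := ⟨1, one_mem _, one_mem _⟩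
            inv_mem' := by
              rintro x ⟨x', h1, h2⟩
              exact ⟨x'⁻¹, inv_mem h1, inv_mem h2⟩ }
        have hW : ⁅VK K, VK K⁆ ≤ W := by
          rw [commutator_le]
          intro v1 hv1 v2 hv2
          obtain ⟨v1', h1⟩ := mem_VK.1 hv1
          obtain ⟨v2', h2⟩ := mem_VK.1 hv2
          refine ⟨⁅v1', v2'⁆, ?_, ?_⟩
          · obtain ⟨a1, ha1, n1, e1⟩ := h.A_exp (h.snd _ h1)
            obtain ⟨a2, ha2, n2, e2⟩ := h.A_exp (h.snd _ h2)
            change v1' = _ at e1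
            change v2' = _ at e2
            have c1 : Commute a1 ξ := h.Vξ a1 ha1
            have c2 : Commute a2 ξ := h.Vξ a2 ha2
            have h3 : ⁅v1', v2'⁆ = ⁅a1, a2⁆ := by
              rw [e1, e2, commutatorElement_def, commutatorElement_def]
              have d1 : Commute (ξ ^ n1) (a2 * ξ ^ n2) :=
                ((c2.symm.zpow_left n1).mul_right (Commute.zpow_zpow_self ξ n1 n2))
              have d2 : Commute (ξ ^ n2) a1 := (c1.symm.zpow_left n2)
              calc a1 * ξ ^ n1 * (a2 * ξ ^ n2) * (a1 * ξ ^ n1)⁻¹ * (a2 * ξ ^ n2)⁻¹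
                  = a1 * (ξ ^ n1 * (a2 * ξ ^ n2)) * (ξ ^ n1)⁻¹ * a1⁻¹ * (a2 * ξ ^ n2)⁻¹ := by
                    group
                _ = a1 * ((a2 * ξ ^ n2) * ξ ^ n1) * (ξ ^ n1)⁻¹ * a1⁻¹ * (a2 * ξ ^ n2)⁻¹ := by
                    rw [d1.eq]
                _ = a1 * a2 * (ξ ^ n2 * a1⁻¹) * (ξ ^ n2)⁻¹ * a2⁻¹ := by group
                _ = a1 * a2 * (a1⁻¹ * ξ ^ n2) * (ξ ^ n2)⁻¹ * a2⁻¹ := by
                    rw [(d2.inv_right).eq]
                _ = a1 * a2 * a1⁻¹ * a2⁻¹ := by group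
            rw [h3]
            exact commutator_mem_commutator ha1 ha2
          · have h3 : (⁅v1, v2⁆, ⁅v1', v2'⁆) = ⁅((v1, v1') : G × G), (v2, v2')⁆ := rfl
            rw [h3, commutatorElement_def]
            exact mul_mem (mul_mem (mul_mem h1 h2) (inv_mem h1)) (inv_mem h2)
        intro u hu
        exact hW hu
      · intro k hk
        have hk1 : k.1 ∈ VK K := mem_VK.2 ⟨k.2, hk⟩
        refine mem_normalizer_fintype fun u hu => ?_
        have h1 : ⁅VK K, VK K⁆ ≤ VK K := by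
          rw [commutator_le]
          intro a ha b hb
          rw [commutatorElement_def]
          exact mul_mem (mul_mem (mul_mem ha hb) (inv_mem ha)) (inv_mem hb)
        have h2 : k.1 * u * k.1⁻¹ = ⁅k.1, u⁆ * u := by
          rw [commutatorElement_def]; group
        rw [h2]
        exact mul_mem (commutator_mem_commutator hk1 (h1 hu)) hu
    have hno : ∀ U : Subgroup G, (∀ u ∈ U, ∃ u' ∈ U, (u, u') ∈ K) → U = ⊥ := by
      intro U hU
      by_contra hU1
      apply hB
      refine ⟨U, hU1, hU, fun k hk => mem_normalizer_of_comm fun u hu => ?_⟩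
      obtain ⟨u', _, h'⟩ := hU u hu
      exact hab _ (mem_VK.2 ⟨k.2, hk⟩) _ (mem_VK.2 ⟨u', h'⟩)
    -- the full normaliser
    let D : G →* G × G := (MonoidHom.id G).prod (MonoidHom.id G)
    have hD : ∀ n, D n = dg n := fun _ => rfl
    let N' : Subgroup G := Q ⊓ (normalizer (K : Set (G × G))).comap D
    have hN'mem : ∀ n, n ∈ N' ↔ n ∈ Q ∧ dg n ∈ normalizer (K : Set (G × G)) := by
      intro n
      rw [mem_inf, mem_comap, hD]
    have hN'Q : N' ≤ Q := inf_le_left
    have hN'K : NormK N' K := by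
      intro n hn k hk
      exact (mem_normalizer_iff.1 ((hN'mem n).1 hn).2 k).1 hk
    have hNN' : N ≤ N' := by
      intro n hn
      rw [hN'mem]
      exact ⟨hNQ hn, mem_normalizer_fintype fun k hk => hN n hn k hk⟩
    have hVN' : VK K ≤ N' := by
      intro v hv
      rw [hN'mem]
      refine ⟨h.V_le hv, mem_normalizer_of_comm fun k hk => ?_⟩
      apply Prod.ext
      · exact hab v hv k.1 (mem_VK.2 ⟨k.2, hk⟩)
      · exact h.A_comm hab v (le_sup_left (a := VK K) hv) k.2 (h.snd k hk)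
    have hdvd : Nat.card N ∣ Nat.card N' := card_dvd_of_le hNN'
    refine dvd_trans (Int.natCast_dvd_natCast.2 (Nat.mul_dvd_mul_right hdvd (orderOf ξ))) ?_
    set E := EE N' (AK ξ K) (NA h hN'Q hN'K) with hE
    have hfin : {e : G × G | e ∈ E ∧ e ∉ K}.Finite := Set.toFinite _
    set B : Finset (G × G) := hfin.toFinset with hBdef
    have hBmem : ∀ e, e ∈ B ↔ e ∈ E ∧ e ∉ K := by
      intro e
      rw [hBdef, Set.Finite.mem_toFinset]
      rfl
    have hexact := XE_dvd (q := q) h hN'Q hN'K hab hVN' hno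
    rw [← hE, sum_exact p g q ξ K E B hBmem,
      ← Finset.add_sum_erase _ _ (Finset.empty_mem_powerset B)] at hexact
    simp only [Finset.card_empty, pow_zero, one_mul, Finset.coe_empty, Subgroup.closure_empty,
      sup_bot_eq] at hexact
    refine (Int.dvd_add_left ?_).1 hexact
    -- the remaining terms
    let φ : N' →* Equiv.Perm (Finset (G × G)) :=
      (MulAction.toPermHom (MulAut (G × G)) (Finset (G × G))).comp
        (MulAut.conj.comp (D.comp N'.subtype))
    have hsm : ∀ (n : N') (S : Finset (G × G)), φ n S = MulAut.conj (dg n.1) • S := fun _ _ => rfl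
    have hnorm : ∀ n : N', dg n.1 ∈ normalizer (K : Set (G × G)) := fun n =>
      ((hN'mem n.1).1 n.2).2
    have hKS : ∀ (n : N') (S : Finset (G × G)), MulAut.conj (dg n.1) •
        (K ⊔ closure (S : Set (G × G))) = K ⊔ closure ((φ n S : Finset (G × G)) : Set (G × G)) := by
      intro n S
      rw [Subgroup.smul_sup, conj_smul_of_normK (hnorm n), Subgroup.smul_closure, hsm,
        Finset.coe_smul_finset]
    have hmemE : ∀ n : N', dg n.1 ∈ E := by
      intro n
      rw [hE, mem_EE]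
      refine ⟨n.2, ?_⟩
      change n.1 * n.1⁻¹ ∈ _
      rw [mul_inv_cancel]; exact one_mem _
    have hBst : ∀ (n : N') (S : Finset (G × G)), S ∈ B.powerset.erase ∅ →
        φ n S ∈ B.powerset.erase ∅ := by
      intro n S hS
      rw [Finset.mem_erase, Finset.mem_powerset] at hS ⊢
      refine ⟨?_, ?_⟩
      · rw [hsm]
        intro h1
        apply hS.1
        rwa [Finset.smul_finset_eq_empty] at h1
      · intro b hb
        rw [hsm, Finset.mem_smul_finset] at hb
        obtain ⟨a, ha, rfl⟩ := hb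
        have h1 := (hBmem a).1 (hS.2 ha)
        have h2 : MulAut.conj (dg n.1) • a = dg n.1 * a * (dg n.1)⁻¹ := rfl
        rw [h2, hBmem]
        refine ⟨mul_mem (mul_mem (hmemE n) h1.1) (inv_mem (hmemE n)), fun h3 => h1.2 ?_⟩
        exact (mem_normalizer_iff.1 (hnorm n) a).2 h3
    refine dvd_sum_hom φ _ hBst _ ?_ _ ?_
    · intro n S hS
      congr 1
      · rw [hsm, Finset.card_smul_finset]
      · refine FK_conj (h.cg _ (hN'Q n.2)) (h.cξ _ (hN'Q n.2)) fun k => ?_
        rw [← hKS, Subgroup.mem_pointwise_smul_iff_inv_smul_mem]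
        have h2 : (MulAut.conj (dg n.1))⁻¹ • k = (dg n.1)⁻¹ * k * dg n.1 := by
          rw [← map_inv]
          change (dg n.1)⁻¹ * k * ((dg n.1)⁻¹)⁻¹ = _
          rw [inv_inv]
        rw [h2]
    · intro S hS T hT c hcT
      rw [Finset.mem_erase, Finset.mem_powerset] at hS
      obtain ⟨b, hb⟩ := Finset.nonempty_iff_ne_empty.2 hS.1
      have hbB := (hBmem b).1 (hS.2 hb)
      have hlt : K < K ⊔ closure (S : Set (G × G)) := by
        refine lt_of_le_of_ne le_sup_left fun h1 => hbB.2 ?_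
        rw [h1]
        exact (le_sup_right : closure (S : Set (G × G)) ≤ _) (subset_closure hb)
      have hgood : Good p g ξ Q (K ⊔ closure (S : Set (G × G))) := by
        refine h.sup fun b hb => ?_
        have h1 := ((hBmem b).1 (hS.2 hb)).1
        rw [hE, mem_EE] at h1
        exact ⟨hN'Q h1.1, h1.2⟩
      let NS : Subgroup G := T.map N'.subtype
      have hNSQ : NS ≤ Q := by
        rintro _ ⟨n, _, rfl⟩
        exact hN'Q n.2
      have hNSK : NormK NS (K ⊔ closure (S : Set (G × G))) := by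
        rintro _ ⟨n, hn, rfl⟩ k hk
        have h1 : φ n S = S := (hT n).1 hn
        have h2 := hKS n S
        rw [h1] at h2
        have h3 : MulAut.conj (dg n.1) • k ∈ MulAut.conj (dg n.1) •
            (K ⊔ closure (S : Set (G × G))) := Subgroup.smul_mem_pointwise_smul _ _ _ hk
        rw [h2] at h3
        exact h3
      have h1 := ih _ hlt hgood NS hNSQ hNSK
      have h2 : Nat.card NS = Nat.card T :=
        (Nat.card_congr (T.equivMapOfInjective N'.subtype
          N'.subtype_injective).toEquiv).symm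
      obtain ⟨d, hd⟩ := h1
      rw [hd, ← hcT, h2]
      refine ⟨(-1 : ℤ) ^ S.card * d, ?_⟩
      push_cast
      ring

end P179M
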