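import Vale.Agent.P179.H524.Kernels
import Vale.Agent.P179.H525.Surf

/-! The mod `p` condition on numbers of kernels implies the `p`-adic condition on numbers of
surjections. -/

namespace P179H524

universe u v w

section subdirect

variable {A : Type u} {H : Type w} [Group A] [Group H]

/-- Subdirect subgroups of `H ^ n`. -/
def IsSubdirect {n : ℕ} (L : Subgroup (Fin n → H)) : Prop :=
  ∀ (i : Fin n) (h : H), ∃ x ∈ L, x i = h

theorem exists_subdirect {n : ℕ} (s : KerSub A H n) :
    ∃ L : Subgroup (Fin n → H), IsSubdirect L ∧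
      ∀ (B : Type v) [Group B] (q : A →* B), Function.Surjective q → q.ker = s.meet →
        Nonempty (B ≃* L) := by
  classical
  choose f hf1 hf2 using fun M : s.1 => s.2.2 M.1 M.2
  let e : s.1 ≃ Fin n := s.1.equivFinOfCardEq s.2.1
  let F : A →* (Fin n → H) := MonoidHom.pi (fun i => f (e.symm i))
  have hF : F.ker = s.meet := by
    ext x
    rw [MonoidHom.mem_ker, KerSub.meet, Subgroup.mem_sInf]
    constructor
    · intro h M hM
      have h1 := congrFun h (e ⟨M, hM⟩)
      change f (e.symm (e ⟨M, hM⟩)) x = 1 at h1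
      rw [Equiv.symm_apply_apply] at h1
      have h2 : x ∈ (f ⟨M, hM⟩).ker := h1
      rw [hf2 ⟨M, hM⟩] at h2
      exact h2
    · intro h
      funext i
      have h1 := h _ (e.symm i).2
      rw [← hf2 (e.symm i)] at h1
      exact h1
  refine ⟨F.range, ?_, ?_⟩
  · intro i h
    obtain ⟨x, hx⟩ := hf1 (e.symm i) h
    exact ⟨F x, ⟨x, rfl⟩, hx⟩
  · intro B _ q hq hq2
    exact ⟨(QuotientGroup.quotientKerEquivOfSurjective q hq).symm.trans
      ((QuotientGroup.quotientMulEquivOfEq (hq2.trans hF.symm)).trans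
        (QuotientGroup.quotientKerEquivRange F))⟩

theorem IsSubdirect.nonAbelian {n : ℕ} {L : Subgroup (Fin n → H)} (hL : IsSubdirect L)
    (hn : 0 < n) (hH : NonAbelian H) : NonAbelian L := by
  obtain ⟨a, b, hab⟩ := hH
  obtain ⟨x, hx, rfl⟩ := hL ⟨0, hn⟩ a
  obtain ⟨y, hy, rfl⟩ := hL ⟨0, hn⟩ b
  refine ⟨⟨x, hx⟩, ⟨y, hy⟩, ?_⟩
  intro h
  apply hab
  exact congrFun (congrArg Subtype.val h) ⟨0, hn⟩

theorem IsSubdirect.opTrivial {p n : ℕ} {L : Subgroup (Fin n → H)} (hL : IsSubdirect L)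
    (hH : OpTrivial p H) : OpTrivial p L := by
  intro R hR hRp
  rw [eq_bot_iff]
  intro x hx
  rw [Subgroup.mem_bot]
  apply Subtype.ext
  funext i
  let ev : L →* H := (Pi.evalMonoidHom (fun _ => H) i).comp L.subtype
  have hev : Function.Surjective ev := by
    intro h
    obtain ⟨x, hx, rfl⟩ := hL i h
    exact ⟨⟨x, hx⟩, rfl⟩
  have h1 : R.map ev = ⊥ := hH _ (Subgroup.Normal.map hR ev hev) (hRp.map ev)
  have h2 : ev x ∈ R.map ev := ⟨x, hx, rfl⟩
  rw [h1, Subgroup.mem_bot] at h2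
  exact h2

end subdirect

instance finite_surfaceHom (g : ℕ) (H : Type w) [Group H] [Finite H] :
    Finite (SurfaceGroup g →* H) := by
  exact Finite.of_equiv _ (surfaceHomEquiv g H).symm

instance finite_kerSet (g : ℕ) (H : Type w) [Group H] [Finite H] :
    Finite (KerSet (SurfaceGroup g) H) := by
  choose f hf1 hf2 using fun M : KerSet (SurfaceGroup g) H => M.2
  refine Finite.of_injective f ?_
  intro M N h
  apply Subtype.ext
  rw [← hf2 M, ← hf2 N, h]

theorem not_dvd_choose (p : ℕ) [hp : Fact p.Prime] (a m : ℕ) (hm : ¬ p ∣ m) :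
    ¬ p ∣ (p ^ a * m).choose (p ^ a) := by
  have key : (p ^ a * m).choose (p ^ a) ≡ m [MOD p] := by
    induction a with
    | zero => simp [Nat.ModEq.refl]
    | succ a ih =>
      have h1 := Choose.choose_modEq_choose_mod_mul_choose_div_nat
        (n := p ^ (a + 1) * m) (k := p ^ (a + 1)) (p := p)
      have h2 : p ^ (a + 1) * m % p = 0 := by
        rw [pow_succ, mul_comm (p ^ a) p, mul_assoc, Nat.mul_mod_right]
      have h3 : p ^ (a + 1) % p = 0 := by
        rw [pow_succ, Nat.mul_mod_left]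
      have h4 : p ^ (a + 1) * m / p = p ^ a * m := by
        rw [pow_succ, mul_comm (p ^ a) p, mul_assoc, Nat.mul_div_cancel_left _ hp.out.pos]
      have h5 : p ^ (a + 1) / p = p ^ a := by
        rw [pow_succ, Nat.mul_div_cancel _ hp.out.pos]
      rw [h2, h3, h4, h5, Nat.choose_self, one_mul] at h1
      exact h1.trans ih
  rw [Nat.dvd_iff_mod_eq_zero, key, ← Nat.dvd_iff_mod_eq_zero]
  exact hm

theorem epi_of_kernels (p : ℕ) [hp : Fact p.Prime]
    (cauchy : ∀ (H : Type) [Group H] [Finite H] (N N' : ℕ), N ≤ N' →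
      numEpi (gN p N') H ≡ numEpi (gN p N) H [MOD p ^ (N + 1)])
    (h3 : ∀ (H : Type) [Group H] [Finite H], NonAbelian H → OpTrivial p H →
      ∃ N₀ : ℕ, ∀ N ≥ N₀, p ∣ numKernels (gN p N) H)
    (H : Type) [Group H] [Finite H] (hH : NonAbelian H) (hO : OpTrivial p H) (N : ℕ) :
    p ^ (N + 1) ∣ numEpi (gN p N) H := by
  classical
  by_contra hcon
  have hc : 0 < Nat.card (MulAut H) := Nat.card_pos
  -- the valuation is constant
  have hdvd : ∀ N' ≥ N, ∀ j ≤ N + 1, (p ^ j ∣ numEpi (gN p N') H ↔ p ^ j ∣ numEpi (gN p N) H) := by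
    intro N' hN' j hj
    exact ((cauchy H N N' hN').of_dvd (pow_dvd_pow p hj)).dvd_iff dvd_rfl
  have he0 : ∀ N' ≥ N, numEpi (gN p N') H ≠ 0 := by
    intro N' hN' h0
    apply hcon
    rw [← hdvd N' hN' (N + 1) le_rfl, h0]
    exact dvd_zero _
  have hval : ∀ N' ≥ N, (numEpi (gN p N') H).factorization p =
      (numEpi (gN p N) H).factorization p := by
    intro N' hN'
    have hlt : ∀ N'' ≥ N, (numEpi (gN p N'') H).factorization p < N + 1 := by
      intro N'' hN''
      by_contra hge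
      push Not at hge
      apply hcon
      rw [← hdvd N'' hN'' (N + 1) le_rfl]
      exact (hp.out.pow_dvd_iff_le_factorization (he0 N'' hN'')).2 hge
    apply le_antisymm
    · rw [← hp.out.pow_dvd_iff_le_factorization (he0 N le_rfl), ← hdvd N' hN' _ (hlt N' hN').le]
      exact Nat.ordProj_dvd _ _
    · rw [← hp.out.pow_dvd_iff_le_factorization (he0 N' hN'), hdvd N' hN' _ (hlt N le_rfl).le]
      exact Nat.ordProj_dvd _ _
  have hT0 : ∀ N' ≥ N, numKernels (gN p N') H ≠ 0 := by
    intro N' hN' h0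
    apply he0 N' hN'
    rw [numEpi_eq_card_mulAut, h0, mul_zero]
  have hvalT : ∀ N' ≥ N, (numKernels (gN p N') H).factorization p =
      (numKernels (gN p N) H).factorization p := by
    intro N' hN'
    have h1 := hval N' hN'
    rw [numEpi_eq_card_mulAut, numEpi_eq_card_mulAut, Nat.factorization_mul hc.ne' (hT0 N' hN'),
      Nat.factorization_mul hc.ne' (hT0 N le_rfl)] at h1
    simpa using h1
  let a := (numKernels (gN p N) H).factorization p
  -- uniform bound for all subdirect products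
  choose! N₀ hN₀ using fun L : Subgroup (Fin (p ^ a) → H) =>
    fun hL : IsSubdirect L =>
      h3 L (hL.nonAbelian (pow_pos hp.out.pos a) hH) (hL.opTrivial hO)
  have := Fintype.ofFinite (Subgroup (Fin (p ^ a) → H))
  let N' := max N (Finset.univ.sup N₀)
  have hN'1 : N ≤ N' := le_max_left _ _
  have hN'2 : ∀ L, N₀ L ≤ N' := fun L =>
    (Finset.le_sup (Finset.mem_univ L)).trans (le_max_right _ _)
  have h4 : p ∣ Nat.card (KerSub (SurfaceGroup (gN p N')) H (p ^ a)) := by
    apply dvd_card_kerSub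
    intro s B _ q hq hq2
    obtain ⟨L, hL1, hL2⟩ := exists_subdirect s
    obtain ⟨e⟩ := hL2 B q hq hq2
    rw [kerSet_congr e, ← numKernels_eq]
    exact hN₀ L hL1 N' (hN'2 L)
  rw [card_kerSub, ← numKernels_eq] at h4
  obtain ⟨m, hm1⟩ : ∃ m, numKernels (gN p N') H = p ^ a * m := by
    obtain ⟨m, hm⟩ := Nat.ordProj_dvd (numKernels (gN p N') H) p
    rw [hvalT N' hN'1] at hm
    exact ⟨m, hm⟩
  have hm2 : ¬ p ∣ m := by
    intro hpm
    obtain ⟨m', rfl⟩ := hpm
    have h5 : p ^ (a + 1) ∣ numKernels (gN p N') H := by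
      rw [hm1, pow_succ]
      exact Nat.mul_dvd_mul dvd_rfl (Dvd.intro _ rfl)
    rw [hp.out.pow_dvd_iff_le_factorization (hT0 N' hN'1), hvalT N' hN'1] at h5
    exact absurd h5 (Nat.not_succ_le_self _)
  rw [hm1] at h4
  exact not_dvd_choose p a m hm2 h4

theorem kernels_of_epi (p : ℕ) [hp : Fact p.Prime] (H : Type w) [Group H] [Finite H]
    (h : ∀ N : ℕ, p ^ (N + 1) ∣ numEpi (gN p N) H) :
    ∃ N₀ : ℕ, ∀ N ≥ N₀, p ∣ numKernels (gN p N) H := by
  have hc : 0 < Nat.card (MulAut H) := Nat.card_pos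
  refine ⟨(Nat.card (MulAut H)).factorization p, fun N hN => ?_⟩
  rcases eq_or_ne (numKernels (gN p N) H) 0 with h0 | h0
  · rw [h0]
    exact dvd_zero _
  have h1 := h N
  rw [numEpi_eq_card_mulAut, hp.out.pow_dvd_iff_le_factorization (mul_ne_zero hc.ne' h0),
    Nat.factorization_mul hc.ne' h0, Finsupp.add_apply] at h1
  have h2 : 1 ≤ (numKernels (gN p N) H).factorization p := by omega
  have h3 := (hp.out.pow_dvd_iff_le_factorization h0).2 h2
  rwa [pow_one] at h3

end P179H524
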