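import Mathlib

/-! Linear algebra for (N3): minors, lifting of linear independence, idempotents. -/

namespace P179P

open Matrix

/-- A linearly independent family of functions has a nonzero minor. -/
theorem exists_minor {k : Type*} [Field k] {n : ℕ} {X : Type*} [Finite X] (v : Fin n → X → k)
    (hv : LinearIndependent k v) : ∃ x : Fin n → X, (Matrix.of fun i j => v i (x j)).det ≠ 0 := by
  classical
  have := Fintype.ofFinite X
  let M : Matrix (Fin n) X k := Matrix.of v
  have h1 : M.rank = n := by
    have := LinearIndependent.rank_matrix (M := M) hv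
    rw [this, Fintype.card_fin]
  rw [rank_eq_finrank_span_cols] at h1
  have h1' : Module.finrank k (Submodule.span k (Set.range M.col)) = n := h1
  obtain ⟨f, hf1, hf2, hf3⟩ := Submodule.exists_fun_fin_finrank_span_eq k (Set.range M.col)
  have hg : ∀ j : Fin n, ∃ x : X, M.col x = f (Fin.cast h1'.symm j) := fun j => hf1 _
  choose x hx using hg
  refine ⟨x, ?_⟩
  have h2 : LinearIndependent k (Matrix.of fun i j => v i (x j)).col := by
    have h3 : (Matrix.of fun i j => v i (x j)).col = f ∘ Fin.cast h1'.symm := by
      funext j
      rw [Function.comp_apply, ← hx j]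
      rfl
    rw [h3]
    exact hf3.comp _ (Fin.cast_injective _)
  rw [linearIndependent_cols_iff_isUnit] at h2
  exact (isUnit_iff_isUnit_det _).1 h2 |>.ne_zero

/-- Lifting of linear independence through a ring homomorphism. -/
theorem linearIndependent_lift {k : Type*} [Field k] (red : integralClosure ℤ ℂ →+* k) {n : ℕ}
    {X : Type*} [Finite X] (v : Fin n → X → integralClosure ℤ ℂ)
    (hv : LinearIndependent k fun i x => red (v i x)) :
    LinearIndependent ℂ fun i x => (v i x : ℂ) := by
  classical
  obtain ⟨x, hx⟩ := exists_minor _ hv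
  let N : Matrix (Fin n) (Fin n) (integralClosure ℤ ℂ) := Matrix.of fun i j => v i (x j)
  have h1 : red N.det ≠ 0 := by
    rw [RingHom.map_det]
    exact hx
  have h2 : N.det ≠ 0 := fun h => h1 (by rw [h, map_zero])
  have h3 : (N.map ((integralClosure ℤ ℂ).val.toRingHom)).det ≠ 0 := by
    have h4 := RingHom.map_det (integralClosure ℤ ℂ).val.toRingHom N
    intro h5
    apply h2
    apply Subtype.val_injective
    have h6 : (N.det : ℂ) = 0 := by
      rw [← h5]; exact h4
    exact h6
  have h4 : LinearIndependent ℂ (N.map ((integralClosure ℤ ℂ).val.toRingHom)).row := by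
    rw [linearIndependent_rows_iff_isUnit, isUnit_iff_isUnit_det]
    exact isUnit_iff_ne_zero.2 h3
  have h5 : (N.map ((integralClosure ℤ ℂ).val.toRingHom)).row =
      (LinearMap.funLeft ℂ ℂ x) ∘ fun i x => (v i x : ℂ) := rfl
  rw [h5] at h4
  exact LinearIndependent.of_comp _ h4

end P179P
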