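import Vale.Agent.P179.H905.N4
import Vale.Agent.P179.H524.SimpleIn
import Vale.Agent.P179.H143.LemW
import Vale.Agent.P179.H166.Blocks
import Vale.Agent.P179.H524.Minor

/-! (N3), first part: the reductions of the irreducible characters span the class functions on the
`p`-regular elements. -/

namespace P179P

open P179H524 P179C P179A Finset

open P179X (pp)

section Eigen

variable {k : Type*} [Field k] (red : integralClosure ℤ ℂ →+* k) {G : Type*} [Group G] [Fintype G]

/-- The reduction of an irreducible character is an eigenfunction. -/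
theorem sum_mul_red (χ : Irr G) {z : G → k} (hz : IsCF z) (y : G) :
    ∑ g : G, z g * redC red (χ.1 (g * y)) = lam red χ.1 z * redC red (χ.1 y) := by
  classical
  have := Fintype.ofFinite (ConjClasses G)
  have h1 : ∀ g : G, z g * redC red (χ.1 (g * y)) =
      ∑ D : ConjClasses G, z D.out * (((ind D g : ℤ) : k) * redC red (χ.1 (g * y))) := by
    intro g
    conv_lhs => rw [cf_eq_sum hz g]
    rw [Finset.sum_mul]
    exact Finset.sum_congr rfl fun D _ => by ring
  rw [Finset.sum_congr rfl fun g _ => h1 g, Finset.sum_comm, lam, finsum_eq_sum_of_fintype,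
    Finset.sum_mul]
  refine Finset.sum_congr rfl fun D _ => ?_
  rw [← Finset.mul_sum, mul_assoc]
  congr 1
  have h2 : ∀ g : G, ((ind D g : ℤ) : k) * redC red (χ.1 (g * y)) =
      redC red (((ind D g : ℤ) : ℂ) * χ.1 (g * y)) := fun g =>
    (redC_intCast_mul red (Irr.integral χ _) _).symm
  rw [Finset.sum_congr rfl fun g _ => h2 g, ← redC_sum]
  · have hcf : IsCF (fun g : G => ((ind D g : ℤ) : ℂ)) := fun g x => by
      beta_reduce
      rw [isCF_ind D g x]
    rw [sum_mul_irr χ hcf, ← om_eq_omC, redC_mul red (isIntegral_om χ.2 (isCF_ind D))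
      (Irr.integral χ _)]
  · intro g _
    exact mul_mem (intCast_mem _ _) (Irr.integral χ _)

end Eigen

section Span

variable {p : ℕ} [hp : Fact p.Prime] {G : Type*} [Group G] [Finite G]

theorem avg_integral (χ : Irr G) (h : G) (Q : Subgroup G) (hQ : ∀ x ∈ Q, x * h = h * x) :
    (∑ᶠ x : Q, χ.1 (h⁻¹ * x)) / Nat.card Q ∈ integralClosure ℤ ℂ := by
  have := Fintype.ofFinite Q
  obtain ⟨χ, n, ρ, hρ, rfl⟩ := χ
  have hq : (Nat.card Q : ℂ) ≠ 0 := by exact_mod_cast Nat.card_pos.ne'
  let e : Module.End ℂ (Fin n → ℂ) := (Nat.card Q : ℂ)⁻¹ • ∑ x : Q, ρ (x : G)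
  have he1 : ∀ y : Q, ρ (y : G) * (∑ x : Q, ρ (x : G)) = ∑ x : Q, ρ (x : G) := by
    intro y
    rw [Finset.mul_sum, ← Equiv.sum_comp (Equiv.mulLeft y) (fun x : Q => ρ (x : G))]
    refine Finset.sum_congr rfl fun x _ => ?_
    rw [← map_mul]; rfl
  have hee : e * e = e := by
    simp only [e]
    rw [smul_mul_assoc, mul_smul_comm, Finset.sum_mul, Finset.sum_congr rfl fun y _ => he1 y,
      Finset.sum_const, Finset.card_univ, ← Nat.card_eq_fintype_card, ← Nat.cast_smul_eq_nsmul ℂ,
      smul_smul, smul_smul]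
    congr 1
    field_simp
  have hcomm : ρ h⁻¹ * e = e * ρ h⁻¹ := by
    simp only [e]
    rw [mul_smul_comm, smul_mul_assoc, Finset.mul_sum, Finset.sum_mul]
    congr 1
    refine Finset.sum_congr rfl fun x _ => ?_
    rw [← map_mul, ← map_mul]
    congr 1
    have := hQ x x.2
    rw [inv_mul_eq_iff_eq_mul, ← mul_assoc, ← this, mul_inv_cancel_right]
  let T := ρ h⁻¹ * e
  have hT : ∀ m : ℕ, T ^ (m + 1) = ρ (h⁻¹ ^ (m + 1)) * e := by
    intro m
    induction m with
    | zero => simp [T]
    | succ m ih =>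
      rw [pow_succ, ih]
      simp only [T]
      calc ρ (h⁻¹ ^ (m + 1)) * e * (ρ h⁻¹ * e) = ρ (h⁻¹ ^ (m + 1)) * (e * ρ h⁻¹) * e := by
            simp only [mul_assoc]
        _ = ρ (h⁻¹ ^ (m + 1)) * (ρ h⁻¹ * e) * e := by rw [hcomm]
        _ = (ρ (h⁻¹ ^ (m + 1)) * ρ h⁻¹) * (e * e) := by simp only [mul_assoc]
        _ = _ := by rw [hee, ← map_mul, ← pow_succ]
  have h0 : orderOf h⁻¹ ≠ 0 := (isOfFinOrder_of_finite _).orderOf_pos.ne'
  have h1 := trace_integral_of_pow T (2 * orderOf h⁻¹ - 1) (by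
    have h1 : 2 * orderOf h⁻¹ - 1 + 2 = 2 * orderOf h⁻¹ + 1 := by omega
    rw [h1, hT, pow_succ, pow_mul', pow_orderOf_eq_one]
    simp [T])
  have h2 : LinearMap.trace ℂ (Fin n → ℂ) T =
      (∑ᶠ x : Q, ρ.character (h⁻¹ * x)) / Nat.card Q := by
    simp only [T, e]
    rw [mul_smul_comm, map_smul, Finset.mul_sum, map_sum, finsum_eq_sum_of_fintype, smul_eq_mul,
      div_eq_inv_mul]
    congr 1
    refine Finset.sum_congr rfl fun x _ => ?_
    rw [← map_mul]; rfl
  rw [← h2]
  exact h1

variable (p)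

omit [Finite G] in
theorem card_conj_self (h : G) : Nat.card {t : G // t * h * t⁻¹ = h} =
    Nat.card (Subgroup.centralizer ({h} : Set G)) := by
  refine Nat.card_congr (Equiv.subtypeEquivRight fun t => ?_)
  rw [Subgroup.mem_centralizer_iff]
  simp only [Set.mem_singleton_iff, forall_eq]
  rw [mul_inv_eq_iff_eq_mul, eq_comm]

/-- The indicator function of the class of `h` on the `p`-regular elements. -/
theorem exists_ind (h : G) (hh : ¬ p ∣ orderOf h) :
    ∃ (c : Irr G → ℂ) (m : ℕ), ¬ p ∣ m ∧ (∀ χ, c χ ∈ integralClosure ℤ ℂ) ∧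
      ∀ y : G, ¬ p ∣ orderOf y → (IsConj h y → ∑ χ, c χ * χ.1 y = m) ∧
        (¬ IsConj h y → ∑ χ, c χ * χ.1 y = 0) := by
  classical
  have := Fintype.ofFinite G
  obtain ⟨Q'⟩ : Nonempty (Sylow p (Subgroup.centralizer ({h} : Set G))) := inferInstance
  let Q : Subgroup G := (Q' : Subgroup (Subgroup.centralizer ({h} : Set G))).map
    (Subgroup.centralizer ({h} : Set G)).subtype
  have hQcard : Nat.card Q = Nat.card (Q' : Subgroup (Subgroup.centralizer ({h} : Set G))) :=
    Nat.card_congr ((Q' : Subgroup (Subgroup.centralizer ({h} : Set G))).equivMapOfInjective _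
      (Subgroup.subtype_injective _)).symm.toEquiv
  have hQc : ∀ x ∈ Q, x * h = h * x := by
    rintro _ ⟨x, -, rfl⟩
    have h1 := x.2
    rw [Subgroup.mem_centralizer_iff] at h1
    exact (h1 h rfl).symm
  have hQp : ∀ x ∈ Q, ∃ n : ℕ, x ^ p ^ n = 1 := by
    rintro _ ⟨x, hx, rfl⟩
    obtain ⟨n, hn⟩ := Q'.2 ⟨x, hx⟩
    refine ⟨n, ?_⟩
    have h1 := congrArg (fun y : (Q' : Subgroup (Subgroup.centralizer ({h} : Set G))) =>
      ((y : Subgroup.centralizer ({h} : Set G)) : G)) hn
    simpa using h1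
  have hq0 : (Nat.card Q : ℂ) ≠ 0 := by exact_mod_cast Nat.card_pos.ne'
  have hm : Nat.card (Subgroup.centralizer ({h} : Set G)) =
      Nat.card Q * (Q' : Subgroup (Subgroup.centralizer ({h} : Set G))).index := by
    rw [hQcard]
    exact (Subgroup.card_mul_index _).symm
  refine ⟨fun χ => (∑ᶠ x : Q, χ.1 (h⁻¹ * x)) / Nat.card Q,
    (Q' : Subgroup (Subgroup.centralizer ({h} : Set G))).index, Q'.not_dvd_index,
    fun χ => avg_integral χ h Q hQc, fun y hy => ?_⟩
  have := Fintype.ofFinite Q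
  have key : ∑ χ : Irr G, (∑ᶠ x : Q, χ.1 (h⁻¹ * x)) / Nat.card Q * χ.1 y =
      (Nat.card {t : G // t * y * t⁻¹ = h} : ℂ) / Nat.card Q := by
    have h1 : ∀ χ : Irr G, (∑ᶠ x : Q, χ.1 (h⁻¹ * x)) / Nat.card Q * χ.1 y =
        (Nat.card Q : ℂ)⁻¹ * ∑ x : Q, χ.1 y * χ.1 ((x : G)⁻¹ * h)⁻¹ := by
      intro χ
      rw [finsum_eq_sum_of_fintype, div_eq_inv_mul, mul_assoc, Finset.sum_mul]
      congr 1
      refine Finset.sum_congr rfl fun x _ => ?_
      rw [mul_inv_rev, inv_inv, mul_comm]
    rw [Finset.sum_congr rfl fun χ _ => h1 χ, ← Finset.mul_sum, Finset.sum_comm, div_eq_inv_mul]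
    congr 1
    rw [Finset.sum_congr rfl fun (x : Q) _ => col_orth y ((x : G)⁻¹ * h),
      Finset.sum_eq_single (1 : Q)]
    · simp
    · intro x _ hx
      rw [Nat.cast_eq_zero, Nat.card_eq_zero]
      left
      refine ⟨fun t => hx ?_⟩
      have h2 : pp p ((x : G)⁻¹ * h) = (x : G)⁻¹ := by
        obtain ⟨n, hn⟩ := hQp x x.2
        refine pp_eq ?_ ⟨n, by rw [inv_pow, hn, inv_one]⟩ hh
        rw [inv_mul_eq_iff_eq_mul, ← mul_assoc, hQc x x.2, mul_inv_cancel_right]
      have h3 : pp p ((x : G)⁻¹ * h) = 1 := by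
        rw [pp_eq_one_iff, ← t.2]
        have := MulEquiv.orderOf_eq (MulAut.conj t.1) y
        rw [MulAut.conj_apply] at this
        rw [this]
        exact hy
      rw [h2, inv_eq_one] at h3
      exact Subtype.ext h3
    · intro h'; exact absurd (Finset.mem_univ _) h'
  constructor
  · intro hc
    rw [key]
    obtain ⟨s, hs⟩ := isConj_iff.1 hc
    have h2 : Nat.card {t : G // t * y * t⁻¹ = h} = Nat.card {t : G // t * h * t⁻¹ = h} := by
      refine Nat.card_congr ((Equiv.mulRight s).subtypeEquiv fun t => ?_)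
      simp only [Equiv.coe_mulRight, mul_inv_rev]
      rw [← hs]
      simp only [mul_assoc]
    rw [h2, card_conj_self, hm]
    push_cast
    field_simp
  · intro hc
    rw [key]
    have h2 : Nat.card {t : G // t * y * t⁻¹ = h} = 0 := by
      rw [Nat.card_eq_zero]
      left
      exact ⟨fun t => hc (isConj_iff.2 ⟨t.1, t.2⟩ : IsConj y h).symm⟩
    rw [h2]; simp

/-- The reductions of the irreducible characters span the class functions on the `p`-regular
elements. -/
theorem exists_comb {k : Type*} [Field k] [CharP k p] (red : integralClosure ℤ ℂ →+* k)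
    {a : G → k} (ha : IsCF a) :
    ∃ c : Irr G → k, ∀ y : G, ¬ p ∣ orderOf y → ∑ χ, c χ * redC red (χ.1 y) = a y := by
  classical
  have := Fintype.ofFinite (ConjClasses G)
  have key : ∀ D : ConjClasses G, ∃ c : Irr G → k, ∀ y : G, ¬ p ∣ orderOf y →
      ∑ χ, c χ * redC red (χ.1 y) = if ConjClasses.mk y = D then 1 else 0 := by
    intro D
    by_cases hD : p ∣ orderOf D.out
    · refine ⟨0, fun y hy => ?_⟩
      rw [if_neg]
      · simp
      · rintro rfl
        apply hy
        have h1 : IsConj (ConjClasses.mk y).out y := by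
          rw [← ConjClasses.mk_eq_mk_iff_isConj]
          exact Quot.out_eq _
        obtain ⟨t, ht⟩ := isConj_iff.1 h1
        rw [← ht, orderOf_conj]
        exact hD
    · obtain ⟨c, m, hm, hc, h⟩ := exists_ind p D.out hD
      have hm0 : (m : k) ≠ 0 := by
        rw [Ne, CharP.cast_eq_zero_iff k p]
        exact hm
      refine ⟨fun χ => (m : k)⁻¹ * redC red (c χ), fun y hy => ?_⟩
      have h1 : ∑ χ : Irr G, (m : k)⁻¹ * redC red (c χ) * redC red (χ.1 y) =
          (m : k)⁻¹ * redC red (∑ χ : Irr G, c χ * χ.1 y) := by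
        rw [redC_sum _ _ _ fun χ _ => mul_mem (hc χ) (Irr.integral χ y), Finset.mul_sum]
        refine Finset.sum_congr rfl fun χ _ => ?_
        rw [redC_mul red (hc χ) (Irr.integral χ y), mul_assoc]
      rw [h1]
      by_cases hDy : ConjClasses.mk y = D
      · have h2 : IsConj D.out y := by
          rw [← ConjClasses.mk_eq_mk_iff_isConj, hDy]
          exact Quot.out_eq _
        rw [if_pos hDy, (h y hy).1 h2]
        have h3 : redC red (m : ℂ) = m := by
          rw [redC_of_mem red (natCast_mem _ m), ← map_natCast red m]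
          rfl
        rw [h3, inv_mul_cancel₀ hm0]
      · have h2 : ¬ IsConj D.out y := by
          intro h2
          apply hDy
          rw [← ConjClasses.mk_eq_mk_iff_isConj] at h2
          rw [← h2]
          exact Quot.out_eq _
        rw [if_neg hDy, (h y hy).2 h2]
        have h3 : redC red (0 : ℂ) = 0 := by
          rw [redC_of_mem red (zero_mem _)]
          exact map_zero red
        rw [h3, mul_zero]
  choose c hc using key
  refine ⟨fun χ => ∑ D, a D.out * c D χ, fun y hy => ?_⟩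
  have h1 : ∀ χ : Irr G, (∑ D, a D.out * c D χ) * redC red (χ.1 y) =
      ∑ D, a D.out * (c D χ * redC red (χ.1 y)) := by
    intro χ
    rw [Finset.sum_mul]
    exact Finset.sum_congr rfl fun D _ => by ring
  rw [Finset.sum_congr rfl fun χ _ => h1 χ, Finset.sum_comm]
  simp only [← Finset.mul_sum]
  rw [Finset.sum_congr rfl fun D _ => by rw [hc D y hy]]
  rw [Finset.sum_eq_single (ConjClasses.mk y)]
  · rw [if_pos rfl, mul_one]
    have h2 : IsConj (ConjClasses.mk y).out y := by
      rw [← ConjClasses.mk_eq_mk_iff_isConj]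
      exact Quot.out_eq _
    obtain ⟨t, ht⟩ := isConj_iff.1 h2
    conv_rhs => rw [← ht]
    exact (ha _ _).symm
  · intro D _ hD
    rw [if_neg (Ne.symm hD), mul_zero]
  · intro h'; exact absurd (Finset.mem_univ _) h'

end Span

end P179P
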