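import Vale.Agent.P179.H524.Pr
import Vale.Agent.P179.H524.Brauer
import Vale.Agent.P179.H525.Quot
import Vale.Agent.P179.H525.QuotS

/-! The functionals `nL`, `nW` and the condition `Zab` for a quotient by a normal `p`-subgroup. -/

namespace P179C.Q7

open Subgroup P179H524 P179A

section classes

variable (p : ℕ) [hp : Fact p.Prime] {G : Type} [Group G] [Finite G] (R : Subgroup G) [R.Normal]

/-- `p`-regular elements with conjugate images modulo a normal `p`-subgroup are conjugate. -/
theorem conj_of_quotient (hR : IsPGroup p R) (a b : G) (ha : ¬ p ∣ orderOf a)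
    (hb : ¬ p ∣ orderOf b) (h : ∃ c : G ⧸ R, c * QuotientGroup.mk' R a * c⁻¹ =
      QuotientGroup.mk' R b) : ∃ c : G, c * a * c⁻¹ = b := by
  classical
  let k := AlgebraicClosure (ZMod p)
  have h1 := numSimple_eq_card_orbits p k G
  have h2 := numSimple_eq_card_orbits p k (G ⧸ R)
  rw [numSimple_quotient p k G R hR, h1] at h2
  have hreg : ∀ x : G, ¬ p ∣ orderOf x → ¬ p ∣ orderOf (QuotientGroup.mk' R x) := fun x hx h =>
    hx (h.trans (orderOf_map_dvd _ x))
  let F : MulAction.orbitRel.Quotient G (Reg p G) →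
      MulAction.orbitRel.Quotient (G ⧸ R) (Reg p (G ⧸ R)) := fun q =>
    Quotient.map' (fun x : Reg p G => (⟨QuotientGroup.mk' R x.1, hreg x.1 x.2⟩ : Reg p (G ⧸ R)))
      (by
        rintro x y ⟨g, hg⟩
        refine ⟨QuotientGroup.mk' R g, Subtype.ext ?_⟩
        have h3 : g * y.1 * g⁻¹ = x.1 := congrArg Subtype.val hg
        change QuotientGroup.mk' R g * QuotientGroup.mk' R y.1 * (QuotientGroup.mk' R g)⁻¹ =
          QuotientGroup.mk' R x.1
        rw [← h3, map_mul, map_mul, map_inv]) q
  have hF : ∀ x : Reg p G, F (Quotient.mk'' x) =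
      Quotient.mk'' (⟨QuotientGroup.mk' R x.1, hreg x.1 x.2⟩ : Reg p (G ⧸ R)) := fun _ => rfl
  have hsurj : Function.Surjective F := by
    intro q
    induction q using Quotient.inductionOn' with
    | h y =>
    obtain ⟨g, hg⟩ := QuotientGroup.mk'_surjective R y.1
    have hg0 : orderOf g ≠ 0 := (isOfFinOrder_of_finite g).orderOf_pos.ne'
    let x : Reg p G := ⟨pr p g, pr_regular p g hg0⟩
    refine ⟨Quotient.mk'' x, (hF x).trans ?_⟩
    congr 1
    apply Subtype.ext
    change QuotientGroup.mk' R (pr p g) = y.1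
    rw [map_pr p _ g hg0, hg]
    exact pr_of_regular p _ (isOfFinOrder_of_finite y.1).orderOf_pos.ne' y.2
  have : Finite (MulAction.orbitRel.Quotient G (Reg p G)) := Quotient.finite _
  have : Finite (MulAction.orbitRel.Quotient (G ⧸ R) (Reg p (G ⧸ R))) := Quotient.finite _
  have hbij : Function.Bijective F := by
    rw [Nat.bijective_iff_surjective_and_card]
    exact ⟨hsurj, h2⟩
  obtain ⟨c, hc⟩ := h
  let a' : Reg p G := ⟨a, ha⟩
  let b' : Reg p G := ⟨b, hb⟩
  have h3 : F (Quotient.mk'' b') = F (Quotient.mk'' a') := by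
    rw [hF, hF]
    exact Quotient.sound' ⟨c, Subtype.ext hc⟩
  obtain ⟨g, hg⟩ := Quotient.exact' (hbij.1 h3)
  exact ⟨g, congrArg Subtype.val hg⟩

end classes

section nL

variable (p : ℕ) [hp : Fact p.Prime] {G : Type} [Group G] [Finite G] (R : Subgroup G) [R.Normal]

/-- The fibres of `G → G/R` are the cosets of `R`. -/
def fibEquiv (g : G) : R ≃ {h : G // QuotientGroup.mk' R h = QuotientGroup.mk' R g} where
  toFun r := ⟨g * r, by
    rw [map_mul]
    have : QuotientGroup.mk' R (r : G) = 1 := (QuotientGroup.eq_one_iff _).2 r.2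
    rw [this, mul_one]⟩
  invFun h := ⟨g⁻¹ * h.1, by
    have h1 : QuotientGroup.mk' R (g⁻¹ * h.1) = 1 := by
      rw [map_mul, map_inv, h.2, inv_mul_cancel]
    exact (QuotientGroup.eq_one_iff _).1 h1⟩
  left_inv r := Subtype.ext (by simp)
  right_inv h := Subtype.ext (by simp)

omit [Finite G] in
theorem push_mk [Fintype R] (z : G → ℤ) (g : G) :
    push (QuotientGroup.mk' R) z (QuotientGroup.mk' R g) = ∑ r : R, z (g * r) := by
  rw [push, ← finsum_comp_equiv (fibEquiv R g), finsum_eq_sum_of_fintype]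
  rfl

omit [Finite G] in
theorem sum_quot [Fintype G] [Fintype (G ⧸ R)] (φ : G ⧸ R → ℤ) :
    ∑ g : G, φ (QuotientGroup.mk' R g) = Nat.card R * ∑ c : G ⧸ R, φ c := by
  classical
  rw [← Finset.sum_fiberwise (s := Finset.univ) (g := fun g : G => QuotientGroup.mk' R g)
    (f := fun g => φ (QuotientGroup.mk' R g)), Finset.mul_sum]
  apply Finset.sum_congr rfl
  intro c _
  obtain ⟨g, rfl⟩ := QuotientGroup.mk'_surjective R c
  rw [Finset.sum_congr rfl (g := fun _ => φ (QuotientGroup.mk' R g))]
  · rw [Finset.sum_const, nsmul_eq_mul]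
    congr 2
    rw [Nat.card_congr (fibEquiv R g), Nat.card_eq_fintype_card, Fintype.card_subtype]
  · intro h hh
    rw [(Finset.mem_filter.1 hh).2]

/-- The number of pairs giving the value `g`. -/
noncomputable def cntL (p : ℕ) {K : Type} [Group K] (g : K) : ℕ :=
  Nat.card {t : K × K // t.1 * t.2 * t.1⁻¹ * (pr p t.2)⁻¹ = g}

omit hp [Finite G] in
theorem nL_eq_sum_cntL [Fintype G] (z : G → ℤ) : nL p z = ∑ g : G, z g * cntL p g := by
  classical
  rw [nL, finsum_eq_sum_of_fintype, ← Finset.sum_fiberwise (s := Finset.univ)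
    (g := fun t : G × G => t.1 * t.2 * t.1⁻¹ * (pr p t.2)⁻¹)]
  apply Finset.sum_congr rfl
  intro g _
  rw [Finset.sum_congr rfl (g := fun _ => z g)]
  · rw [Finset.sum_const, nsmul_eq_mul, mul_comm]
    congr 2
    rw [cntL, Nat.card_eq_fintype_card, Fintype.card_subtype]
  · intro h hh
    rw [(Finset.mem_filter.1 hh).2]

/-- Pairs with value `g` are given by `h` regular and `x` with `x h x⁻¹ = (g h)_{p'}`. -/
noncomputable def cntEquiv (g : G) : {t : G × G // t.1 * t.2 * t.1⁻¹ * (pr p t.2)⁻¹ = g} ≃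
    {s : Reg p G × G // s.2 * s.1.1 * s.2⁻¹ = pr p (g * s.1.1)} where
  toFun t := ⟨(⟨pr p t.1.2, pr_regular p _ (isOfFinOrder_of_finite _).orderOf_pos.ne'⟩, t.1.1), by
    obtain ⟨⟨x, y⟩, ht⟩ := t
    dsimp only at ht ⊢
    have h1 : g * pr p y = x * y * x⁻¹ := by
      rw [← ht]
      group
    rw [h1, pr_conj p _ _ (isOfFinOrder_of_finite _).orderOf_pos.ne']⟩
  invFun s := ⟨(s.1.2, s.1.2⁻¹ * (g * s.1.1.1) * s.1.2), by
    obtain ⟨⟨h, x⟩, hs⟩ := s
    dsimp only at hs ⊢
    have h2 : pr p (x⁻¹ * (g * h.1) * x) = h.1 := by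
      have h3 := pr_conj p x⁻¹ (g * h.1) (isOfFinOrder_of_finite _).orderOf_pos.ne'
      rw [inv_inv] at h3
      rw [h3, ← hs]
      group
    rw [h2]
    group⟩
  left_inv t := by
    obtain ⟨⟨x, y⟩, ht⟩ := t
    apply Subtype.ext
    dsimp only at ht ⊢
    apply Prod.ext
    · rfl
    · dsimp only
      rw [← ht]
      group
  right_inv s := by
    obtain ⟨⟨h, x⟩, hs⟩ := s
    apply Subtype.ext
    dsimp only at hs ⊢
    apply Prod.ext
    · apply Subtype.ext
      dsimp only
      have h3 := pr_conj p x⁻¹ (g * h.1) (isOfFinOrder_of_finite _).orderOf_pos.ne'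
      rw [inv_inv] at h3
      rw [h3, ← hs]
      group
    · rfl

theorem cntL_mul (hR : IsPGroup p R) (g : G) (r : G) (hr : r ∈ R) :
    cntL p (g * r) = cntL p g := by
  classical
  have ho : ∀ y : G, orderOf y ≠ 0 := fun y => (isOfFinOrder_of_finite y).orderOf_pos.ne'
  have hc : ∀ h : Reg p G, ∃ c : G, c * pr p (g * h.1) * c⁻¹ = pr p (g * r * h.1) := by
    intro h
    refine conj_of_quotient p R hR (pr p (g * h.1)) (pr p (g * r * h.1))
      (pr_regular p _ (ho _)) (pr_regular p _ (ho _)) ⟨1, ?_⟩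
    rw [one_mul, inv_one, mul_one, map_pr p _ _ (ho _), map_pr p _ _ (ho _), map_mul, map_mul,
      map_mul]
    have : QuotientGroup.mk' R r = 1 := (QuotientGroup.eq_one_iff _).2 hr
    rw [this, mul_one]
  choose c hc using hc
  rw [cntL, cntL, Nat.card_congr (cntEquiv p g), Nat.card_congr (cntEquiv p (g * r))]
  symm
  refine Nat.card_congr
    { toFun := fun s => ⟨(s.1.1, c s.1.1 * s.1.2), ?_⟩
      invFun := fun s => ⟨(s.1.1, (c s.1.1)⁻¹ * s.1.2), ?_⟩
      left_inv := fun s => Subtype.ext (by simp)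
      right_inv := fun s => Subtype.ext (by simp) }
  · obtain ⟨⟨h, x⟩, hs⟩ := s
    dsimp only at hs ⊢
    calc c h * x * h.1 * (c h * x)⁻¹ = c h * (x * h.1 * x⁻¹) * (c h)⁻¹ := by group
      _ = pr p (g * r * h.1) := by rw [hs, hc]
  · obtain ⟨⟨h, x⟩, hs⟩ := s
    dsimp only at hs ⊢
    calc (c h)⁻¹ * x * h.1 * ((c h)⁻¹ * x)⁻¹ = (c h)⁻¹ * (x * h.1 * x⁻¹) * c h := by group
      _ = pr p (g * h.1) := by rw [hs, ← hc]; group

theorem nL_quot (hR : IsPGroup p R) (z : G → ℤ) (_hz : IsCF z) :
    nL p z = Nat.card R * nL p (push (QuotientGroup.mk' R) z) := by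
  classical
  have := Fintype.ofFinite G
  have := Fintype.ofFinite R
  have := Fintype.ofFinite (G ⧸ R)
  have ho : ∀ y : G, orderOf y ≠ 0 := fun y => (isOfFinOrder_of_finite y).orderOf_pos.ne'
  have h1 : (Nat.card R : ℤ) * (Nat.card R * nL p (push (QuotientGroup.mk' R) z)) =
      ∑ x : G, ∑ y : G, ∑ r : R, z (x * y * x⁻¹ * (pr p y)⁻¹ * r) := by
    rw [nL, finsum_eq_sum_of_fintype, Fintype.sum_prod_type, ← sum_quot, Finset.mul_sum]
    apply Finset.sum_congr rfl
    intro x _
    rw [← sum_quot]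
    apply Finset.sum_congr rfl
    intro y _
    rw [← push_mk]
    congr 1
    simp only [map_mul, map_inv, map_pr p _ y (ho y)]
  have h2 : ∑ x : G, ∑ y : G, ∑ r : R, z (x * y * x⁻¹ * (pr p y)⁻¹ * r) =
      Nat.card R * nL p z := by
    have h3 : ∀ r : R, ∑ x : G, ∑ y : G, z (x * y * x⁻¹ * (pr p y)⁻¹ * r) = nL p z := by
      intro r
      have h4 : ∑ x : G, ∑ y : G, z (x * y * x⁻¹ * (pr p y)⁻¹ * r) =
          nL p (fun g => z (g * r)) := by
        rw [nL, finsum_eq_sum_of_fintype, Fintype.sum_prod_type]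
      rw [h4, nL_eq_sum_cntL, nL_eq_sum_cntL]
      rw [← Equiv.sum_comp (Equiv.mulRight (r : G)) (fun g => z g * (cntL p g : ℤ))]
      apply Finset.sum_congr rfl
      intro g _
      rw [Equiv.coe_mulRight, cntL_mul p R hR g r r.2]
    calc _ = ∑ r : R, ∑ x : G, ∑ y : G, z (x * y * x⁻¹ * (pr p y)⁻¹ * r) := by
          rw [Finset.sum_comm (s := (Finset.univ : Finset R))]
          apply Finset.sum_congr rfl
          intro x _
          rw [Finset.sum_comm (s := (Finset.univ : Finset R))]
      _ = _ := by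
          simp only [h3, Finset.sum_const, Finset.card_univ, nsmul_eq_mul]
          rw [Nat.card_eq_fintype_card]
  rw [h2] at h1
  have h5 : (Nat.card R : ℤ) ≠ 0 := by
    exact_mod_cast Nat.card_pos.ne'
  exact (mul_left_cancel₀ h5 h1).symm

end nL

section push

variable {H K L : Type*} [Group H] [Group K] [Group L]

open scoped Classical in
theorem push_eq_sum [Fintype H] (f : H →* K) (z : H → ℤ) (c : K) :
    push f z c = ∑ h : H with f h = c, z h := by
  rw [push, finsum_eq_sum_of_fintype, Finset.sum_subtype (p := fun h => f h = c)]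
  intro h
  simp

theorem push_push [Finite H] [Finite K] (g : K →* L) (f : H →* K) (z : H → ℤ) :
    push g (push f z) = push (g.comp f) z := by
  classical
  have := Fintype.ofFinite H
  have := Fintype.ofFinite K
  funext c
  rw [push_eq_sum, push_eq_sum]
  rw [← Finset.sum_fiberwise_of_maps_to (s := Finset.univ.filter fun h => (g.comp f) h = c)
    (t := Finset.univ.filter fun k => g k = c) (g := f)]
  · apply Finset.sum_congr rfl
    intro k hk
    rw [Finset.mem_filter] at hk
    rw [push_eq_sum, Finset.filter_filter]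
    apply Finset.sum_congr _ (fun _ _ => rfl)
    apply Finset.filter_congr
    intro h _
    constructor
    · rintro rfl
      exact ⟨hk.2, rfl⟩
    · exact fun h1 => h1.2
  · intro h hh
    simpa using hh

theorem push_equiv (e : H ≃* K) (z : H → ℤ) (c : K) : push e.toMonoidHom z c = z (e.symm c) := by
  rw [push]
  let _ : Unique {h : H // e.toMonoidHom h = c} :=
    { default := ⟨e.symm c, e.apply_symm_apply c⟩
      uniq := fun h => Subtype.ext (e.symm_apply_eq.2 (h.2 : e h.1 = c).symm).symm }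
  exact finsum_unique _

end push

section nW

variable (p : ℕ) {K K' : Type*} [Group K] [Group K']

theorem om_equiv (e : K ≃* K') (χ : K → ℂ) (z : K → ℤ) :
    om (fun y => χ (e.symm y)) (push e.toMonoidHom z) = om χ z := by
  rw [om, om, map_one]
  congr 1
  rw [← finsum_comp_equiv e.toEquiv]
  apply finsum_congr
  intro g
  rw [push_equiv]
  simp

theorem dz_equiv (e : K ≃* K') (z : K → ℤ) : dz p (push e.toMonoidHom z) = dz p z := by
  rw [dz, dz]
  let E : {χ : K → ℂ // IsDefectZeroChar p χ} ≃ {χ : K' → ℂ // IsDefectZeroChar p χ} :=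
    ⟨fun χ => ⟨fun x => χ.1 (e.symm x), χ.2.comp e.symm⟩,
      fun χ => ⟨fun x => χ.1 (e x), χ.2.comp e⟩, fun χ => by ext x; simp, fun χ => by ext x; simp⟩
  rw [← finsum_comp_equiv E]
  apply finsum_congr
  intro χ
  exact om_equiv e χ.1 z

theorem dz_eq_zero [Fact p.Prime] {K : Type} [Group K] [Finite K] (h : ¬ OpTrivial p K)
    (z : K → ℤ) : dz p z = 0 := by
  have h1 := numDZ_eq_zero p K h
  have : IsEmpty {χ : K → ℂ // IsDefectZeroChar p χ} := by
    rw [numDZ] at h1
    exact (Nat.card_eq_zero.1 h1).resolve_right (fun h => h.false)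
  rw [dz, finsum_of_isEmpty]

end nW

section resNQ

variable {G G' : Type*} [Group G] [Group G'] (f : G →* G') (hf : Function.Surjective f)
  (Q' : Subgroup G')

theorem res_push (z : G → ℤ) :
    res (normalizer (Q' : Set G')) (push f z) =
      push (normalizerHom f hf Q') (res (normalizer ((Q'.comap f : Subgroup G) : Set G)) z) := by
  funext c
  rw [res, push, push]
  let E : {h : normalizer ((Q'.comap f : Subgroup G) : Set G) // normalizerHom f hf Q' h = c} ≃
      {h : G // f h = c} :=
    { toFun := fun h => ⟨h.1.1, congrArg Subtype.val h.2⟩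
      invFun := fun h => ⟨⟨h.1, (mem_normalizer_comap f hf Q' h.1).2 (by rw [h.2]; exact c.2)⟩,
        Subtype.ext h.2⟩
      left_inv := fun h => rfl
      right_inv := fun h => rfl }
  rw [← finsum_comp_equiv E]
  rfl

theorem resNQ_comap [Finite G] [Finite G'] (z : G → ℤ) :
    resNQ Q' (push f z) = push (nqComapEquiv f hf Q').toMonoidHom (resNQ (Q'.comap f) z) := by
  rw [resNQ, resNQ, res_push f hf, push_push, push_push]
  rfl

end resNQ

theorem nW_quot (p : ℕ) [Fact p.Prime] {G : Type} [Group G] [Finite G] (R : Subgroup G)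
    [R.Normal] (hR : IsPGroup p R) (z : G → ℤ) (_hz : IsCF z) :
    nW p z = Nat.card R * nW p (push (QuotientGroup.mk' R) z) := by
  classical
  have := Fintype.ofFinite {Q : Subgroup G // IsPGroup p Q}
  have := Fintype.ofFinite {Q : Subgroup (G ⧸ R) // IsPGroup p Q}
  rw [nW, nW, finsum_eq_sum_of_fintype, finsum_eq_sum_of_fintype]
  set π : G →* G ⧸ R := QuotientGroup.mk' R with hπ
  have hπs : Function.Surjective π := QuotientGroup.mk'_surjective R
  have hker : π.ker = R := QuotientGroup.ker_mk' R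
  let e : {Q : Subgroup (G ⧸ R) // IsPGroup p Q} → {Q : Subgroup G // IsPGroup p Q} :=
    fun Q => ⟨Q.1.comap π, Q.2.comap_of_ker_isPGroup π (by rw [hker]; exact hR)⟩
  have he : Function.Injective e := by
    intro Q Q' h
    exact Subtype.ext (comap_injective hπs (congrArg Subtype.val h))
  have hGR : Nat.card G = Nat.card (G ⧸ R) * Nat.card R := card_eq_card_quotient_mul_card_subgroup R
  rw [Finset.mul_sum]
  symm
  refine Fintype.sum_of_injective e he _ _ ?_ ?_
  · intro Q hQ
    have h2 : ¬ R ≤ Q.1 := by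
      intro h3
      refine hQ ⟨⟨Q.1.map π, Q.2.map π⟩, Subtype.ext ?_⟩
      change (Q.1.map π).comap π = Q.1
      rw [comap_map_eq_self]
      rw [hker]
      exact h3
    rw [dz_eq_zero p (not_opTrivial_nq R hR Q.1 Q.2 h2), mul_zero]
  · intro Q
    change _ = (Nat.card (normalizer ((Q.1.comap π : Subgroup G) : Set G)) : ℂ) *
      dz p (resNQ (Q.1.comap π) z)
    rw [resNQ_comap π hπs, dz_equiv, ← mul_assoc]
    congr 1
    have h2 : normalizer ((Q.1.comap π : Subgroup G) : Set G) =
        (normalizer (Q.1 : Set (G ⧸ R))).comap π := by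
      ext x
      rw [mem_comap]
      exact mem_normalizer_comap π hπs Q.1 x
    rw [h2]
    set M := normalizer (Q.1 : Set (G ⧸ R)) with hM
    have h3 : (M.comap π).index = M.index := index_comap_of_surjective _ hπs
    have h4 := card_mul_index (M.comap π)
    have h5 := card_mul_index M
    have h6 : 0 < M.index := Nat.pos_of_ne_zero M.index_ne_zero_of_finite
    rw [h3, hGR, ← h5] at h4
    have h7 : Nat.card (M.comap π) * M.index = Nat.card R * Nat.card M * M.index := by
      rw [h4]; ring
    have h8 := (Nat.eq_of_mul_eq_mul_right h6 h7).symm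
    exact_mod_cast h8

section fixed

variable (p : ℕ) [hp : Fact p.Prime]

/-- The sum of an invariant function over a finite set acted on by a `p`-group is congruent to the
sum over the fixed points. -/
theorem sum_fixed {P X : Type*} [Group P] [MulAction P X] [Fintype X] (hP : IsPGroup p P)
    [Finite P] (φ : X → ℤ) (hφ : ∀ (g : P) (x : X), φ (g • x) = φ x) (h : ¬ (p : ℤ) ∣ ∑ x, φ x) :
    ∃ x ∈ MulAction.fixedPoints P X, ¬ (p : ℤ) ∣ φ x := by
  classical
  by_contra hcon
  push Not at hcon
  apply h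
  have := Fintype.ofFinite (MulAction.orbitRel.Quotient P X)
  rw [← Finset.sum_fiberwise (s := Finset.univ)
    (g := fun x : X => (Quotient.mk'' x : MulAction.orbitRel.Quotient P X))]
  apply Finset.dvd_sum
  intro q _
  induction q using Quotient.inductionOn' with
  | h x =>
  rw [Finset.sum_congr rfl (g := fun _ => φ x)]
  · rw [Finset.sum_const, nsmul_eq_mul]
    by_cases hx : x ∈ MulAction.fixedPoints P X
    · exact (hcon x hx).mul_left _
    · apply Dvd.dvd.mul_right
      have h1 : (Finset.univ.filter fun y : X => (Quotient.mk'' y :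
          MulAction.orbitRel.Quotient P X) = Quotient.mk'' x).card =
          Nat.card (MulAction.orbit P x) := by
        rw [Nat.card_eq_fintype_card, ← Fintype.card_subtype]
        apply Fintype.card_congr
        refine Equiv.subtypeEquivRight fun y => ?_
        rw [Quotient.eq'', MulAction.orbitRel_apply]
      rw [h1]
      have h2 := hP.card_orbit x
      obtain ⟨n, hn⟩ := h2
      rw [hn]
      have h3 : n ≠ 0 := by
        rintro rfl
        rw [pow_zero] at hn
        apply hx
        rw [MulAction.mem_fixedPoints_iff_card_orbit_eq_one, ← Nat.card_eq_fintype_card]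
        exact hn
      exact_mod_cast dvd_pow_self p h3
  · intro y hy
    have h1 := (Finset.mem_filter.1 hy).2
    obtain ⟨g, hg⟩ := Quotient.exact' h1
    dsimp only at hg
    rw [← hg, hφ]

theorem Zab_quot {G : Type} [Group G] [Finite G] (R : Subgroup G)
    [R.Normal] (hR : IsPGroup p R) (z : G → ℤ) (hz : IsCF z) (hab : Zab p z) :
    Zab p (push (QuotientGroup.mk' R) z) := by
  classical
  have := Fintype.ofFinite G
  intro c hc P' hP' hPc a ha b hb
  set π : G →* G ⧸ R := QuotientGroup.mk' R with hπ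
  have hπs : Function.Surjective π := QuotientGroup.mk'_surjective R
  have hker : π.ker = R := QuotientGroup.ker_mk' R
  set P : Subgroup G := P'.comap π with hPdef
  have hP : IsPGroup p P := hP'.comap_of_ker_isPGroup π (by rw [hker]; exact hR)
  let act : MulAction P {h : G // π h = c} :=
    { smul := fun g h => ⟨g.1 * h.1 * g.1⁻¹, by
        have h1 : π g.1 ∈ centralizer {c} := hPc g.2
        rw [mem_centralizer_singleton_iff] at h1
        rw [map_mul, map_mul, map_inv, h.2, h1, mul_inv_cancel_right]⟩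
      one_smul := fun h => Subtype.ext (by
        change (1 : G) * h.1 * 1⁻¹ = h.1
        simp)
      mul_smul := fun g g' h => Subtype.ext (by
        change (g.1 * g'.1) * h.1 * (g.1 * g'.1)⁻¹ = g.1 * (g'.1 * h.1 * g'.1⁻¹) * g.1⁻¹
        group) }
  rw [push, finsum_eq_sum_of_fintype] at hc
  obtain ⟨h, hh, hzh⟩ := sum_fixed p hP (fun h : {h : G // π h = c} => z h.1)
    (fun g x => hz g.1 x.1) hc
  have hPh : P ≤ centralizer {h.1} := by
    intro g hg
    rw [mem_centralizer_singleton_iff]
    have h1 := congrArg Subtype.val (hh ⟨g, hg⟩)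
    have h2 : g * h.1 * g⁻¹ = h.1 := h1
    exact mul_inv_eq_iff_eq_mul.1 h2
  obtain ⟨x, rfl⟩ := hπs a
  obtain ⟨y, rfl⟩ := hπs b
  rw [← map_mul, ← map_mul, hab h.1 hzh P hP hPh x ha y hb]

end fixed

end P179C.Q7

namespace P179C

/-- `nL` of a quotient by a normal `p`-subgroup. -/
theorem nL_quot (p : ℕ) [Fact p.Prime] {G : Type} [Group G] [Finite G] (R : Subgroup G)
    [R.Normal] (hR : IsPGroup p R) (z : G → ℤ) (hz : IsCF z) :
    nL p z = Nat.card R * nL p (push (QuotientGroup.mk' R) z) :=
  Q7.nL_quot p R hR z hz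

/-- `nW` of a quotient by a normal `p`-subgroup. -/
theorem nW_quot (p : ℕ) [Fact p.Prime] {G : Type} [Group G] [Finite G] (R : Subgroup G)
    [R.Normal] (hR : IsPGroup p R) (z : G → ℤ) (hz : IsCF z) :
    nW p z = Nat.card R * nW p (push (QuotientGroup.mk' R) z) :=
  Q7.nW_quot p R hR z hz

/-- `Zab` of a quotient by a normal `p`-subgroup. -/
theorem Zab_quot (p : ℕ) [Fact p.Prime] {G : Type} [Group G] [Finite G] (R : Subgroup G)
    [R.Normal] (hR : IsPGroup p R) (z : G → ℤ) (hz : IsCF z) (hab : Zab p z) :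
    Zab p (push (QuotientGroup.mk' R) z) :=
  Q7.Zab_quot p R hR z hz hab

end P179C
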