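import Vale.Agent.P179.H524.Basic

/-! Irreducible representations of a finite group over an algebraically closed field, from a
surjection of the group algebra onto a product of matrix algebras. -/

namespace P179H524

open MonoidAlgebra

universe u v

theorem exists_wedderburn (k : Type u) (G : Type v) [Field k] [IsAlgClosed k] [Group G] [Finite G] :
    ∃ (r : ℕ) (d : Fin r → ℕ) (_ : ∀ i, NeZero (d i))
      (f : MonoidAlgebra k G →ₐ[k] Π i, Matrix (Fin (d i)) (Fin (d i)) k),
      Function.Surjective f ∧ (∀ x, f x = 0 → x ∈ Ring.jacobson (MonoidAlgebra k G)) := by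
  classical
  have : Module.Finite k (MonoidAlgebra k G) :=
    Module.Finite.equiv (MonoidAlgebra.coeffLinearEquiv k).symm
  have : IsArtinianRing (MonoidAlgebra k G) := IsArtinianRing.of_finite k _
  let J := Ring.jacobson (MonoidAlgebra k G)
  have : IsSemisimpleRing (MonoidAlgebra k G ⧸ J) :=
    IsSemiprimaryRing.isSemisimpleRing
  obtain ⟨r, d, hd, ⟨e⟩⟩ := IsSemisimpleRing.exists_algEquiv_pi_matrix_of_isAlgClosed k
    (MonoidAlgebra k G ⧸ J)
  refine ⟨r, d, hd, (e : _ →ₐ[k] _).comp (Ideal.Quotient.mkₐ k J), ?_, ?_⟩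
  · intro y
    obtain ⟨x, hx⟩ := Ideal.Quotient.mk_surjective (e.symm y)
    refine ⟨x, ?_⟩
    simp [hx]
  · intro x hx
    have : e (Ideal.Quotient.mk J x) = 0 := hx
    rw [map_eq_zero_iff _ e.injective] at this
    exact Ideal.Quotient.eq_zero_iff_mem.mp this

section

variable {k : Type u} {G : Type v} [Field k] [Group G]

theorem asAlgebraHom_eq_zero_of_mem_jacobson {V : Type*} [AddCommGroup V] [Module k V]
    (ρ : Representation k G V) [ρ.IsIrreducible] (x : MonoidAlgebra k G)
    (hx : x ∈ Ring.jacobson (MonoidAlgebra k G)) : ρ.asAlgebraHom x = 0 := by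
  ext v
  have h : x • (ρ.asModuleEquiv.symm v) ∈ Module.jacobson (MonoidAlgebra k G) ρ.asModule :=
    Ring.jacobson_smul_top_le _ _ (Submodule.smul_mem_smul hx trivial)
  rw [IsSimpleModule.jacobson_eq_bot] at h
  have h2 := congrArg ρ.asModuleEquiv ((Submodule.mem_bot _).1 h)
  simpa [Representation.asModuleEquiv_map_smul] using h2

variable {r : ℕ} {d : Fin r → ℕ}

/-- The `i`-th matrix representation. -/
noncomputable def compRep (f : MonoidAlgebra k G →ₐ[k] Π i, Matrix (Fin (d i)) (Fin (d i)) k)
    (i : Fin r) : Representation k G (Fin (d i) → k) where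
  toFun g := Matrix.toLin' (f (single g 1) i)
  map_one' := by
    rw [← MonoidAlgebra.one_def, map_one, Pi.one_apply, Matrix.toLin'_one]
    rfl
  map_mul' g h := by
    rw [Module.End.mul_eq_comp, ← Matrix.toLin'_mul, ← Pi.mul_apply, ← map_mul,
      MonoidAlgebra.single_mul_single, one_mul]

theorem compRep_apply (f : MonoidAlgebra k G →ₐ[k] Π i, Matrix (Fin (d i)) (Fin (d i)) k)
    (i : Fin r) (g : G) : compRep f i g = Matrix.toLin' (f (single g 1) i) := rfl

theorem compRep_asAlgebraHom
    (f : MonoidAlgebra k G →ₐ[k] Π i, Matrix (Fin (d i)) (Fin (d i)) k)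
    (i : Fin r) (x : MonoidAlgebra k G) :
    (compRep f i).asAlgebraHom x = Matrix.toLin' (f x i) := by
  have : (compRep f i).asAlgebraHom =
      ((Matrix.toLinAlgEquiv' (R := k) (n := Fin (d i))).toAlgHom.comp
        ((Pi.evalAlgHom k _ i).comp f)) := by
    apply MonoidAlgebra.algHom_ext
    · intro g
      rw [Representation.asAlgebraHom_single_one]
      rfl
    · exact Subsingleton.elim _ _
  rw [this]
  rfl

theorem isIrreducible_iff' {V : Type*} [AddCommGroup V] [Module k V]
    (ρ : Representation k G V) : ρ.IsIrreducible ↔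
      Nontrivial V ∧ ∀ W : Submodule k V, (∀ g, ∀ w ∈ W, ρ g w ∈ W) → W = ⊥ ∨ W = ⊤ := by
  constructor
  · intro h
    constructor
    · obtain ⟨a, b, hab⟩ := exists_pair_ne (Subrepresentation ρ)
      by_contra hn
      rw [not_nontrivial_iff_subsingleton] at hn
      exact hab (Subrepresentation.toSubmodule_injective (Subsingleton.elim _ _))
    · intro W hW
      rcases IsSimpleOrder.eq_bot_or_eq_top (⟨W, fun g v hv => hW g v hv⟩ : Subrepresentation ρ)
        with h | h
      · left
        exact congrArg Subrepresentation.toSubmodule h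
      · right
        exact congrArg Subrepresentation.toSubmodule h
  · rintro ⟨hV, h⟩
    refine @IsSimpleOrder.mk _ _ _ ⟨⊥, ⊤, ?_⟩ ?_
    · intro hbt
      have : (⊥ : Submodule k V) = ⊤ := congrArg Subrepresentation.toSubmodule hbt
      exact bot_ne_top this
    · intro W
      rcases h W.toSubmodule (fun g w hw => W.apply_mem_toSubmodule g hw) with h | h
      · left
        exact Subrepresentation.toSubmodule_injective h
      · right
        exact Subrepresentation.toSubmodule_injective h

/-- A subspace stable under `G` is stable under the group algebra. -/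
theorem asAlgebraHom_mem {V : Type*} [AddCommGroup V] [Module k V]
    (ρ : Representation k G V) (W : Submodule k V) (hW : ∀ g, ∀ w ∈ W, ρ g w ∈ W)
    (x : MonoidAlgebra k G) (w : V) (hw : w ∈ W) : ρ.asAlgebraHom x w ∈ W := by
  induction x using MonoidAlgebra.induction_linear with
  | zero => simp
  | add x y hx hy =>
    rw [map_add, LinearMap.add_apply]
    exact W.add_mem hx hy
  | single g a =>
    rw [Representation.asAlgebraHom_single, LinearMap.smul_apply]
    exact W.smul_mem _ (hW g w hw)

theorem compRep_isIrreducible [∀ i, NeZero (d i)]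
    (f : MonoidAlgebra k G →ₐ[k] Π i, Matrix (Fin (d i)) (Fin (d i)) k)
    (hf : Function.Surjective f) (i : Fin r) : (compRep f i).IsIrreducible := by
  classical
  rw [isIrreducible_iff']
  refine ⟨inferInstance, ?_⟩
  intro W hW
  by_cases hb : W = ⊥
  · exact Or.inl hb
  right
  obtain ⟨w, hw, hw0⟩ := (Submodule.ne_bot_iff W).1 hb
  obtain ⟨a, ha⟩ := Function.ne_iff.1 hw0
  -- all matrices preserve `W`
  have hM : ∀ (M : Matrix (Fin (d i)) (Fin (d i)) k), ∀ w ∈ W, Matrix.toLin' M w ∈ W := by
    intro M w hw
    obtain ⟨x, hx⟩ := hf (Function.update 0 i M)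
    have := asAlgebraHom_mem (compRep f i) W hW x w hw
    rw [compRep_asAlgebraHom, hx, Function.update_self] at this
    exact this
  rw [eq_top_iff]
  intro u _
  -- `u = M w` for a suitable matrix `M`
  have : u = Matrix.toLin' (Matrix.of fun b c => if c = a then u b * (w a)⁻¹ else 0) w := by
    ext b
    rw [Matrix.toLin'_apply, Matrix.mulVec, dotProduct]
    simp only [Matrix.of_apply, ite_mul, zero_mul, Finset.sum_ite_eq', Finset.mem_univ, if_true]
    rw [mul_assoc, inv_mul_cancel₀ ha, mul_one]
  rw [this]
  exact hM _ w hw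

theorem compRep_not_iso [∀ i, NeZero (d i)]
    (f : MonoidAlgebra k G →ₐ[k] Π i, Matrix (Fin (d i)) (Fin (d i)) k)
    (hf : Function.Surjective f) (i j : Fin r)
    (h : Nonempty (Representation.Equiv (compRep f i) (compRep f j))) : i = j := by
  classical
  obtain ⟨T⟩ := h
  by_contra hij
  obtain ⟨x, hx⟩ := hf (Function.update 0 i 1)
  have key : ∀ (x : MonoidAlgebra k G) (v : Fin (d i) → k),
      T.toLinearEquiv ((compRep f i).asAlgebraHom x v) =
        (compRep f j).asAlgebraHom x (T.toLinearEquiv v) := by
    intro x v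
    induction x using MonoidAlgebra.induction_linear with
    | zero => simp
    | add x y hx hy => simp only [map_add, LinearMap.add_apply, hx, hy]
    | single g a =>
      rw [Representation.asAlgebraHom_single, LinearMap.smul_apply, map_smul,
        Representation.asAlgebraHom_single, LinearMap.smul_apply]
      congr 1
      exact LinearMap.congr_fun (T.isIntertwining' g) v
  have h1 : ∀ v, T.toLinearEquiv v = 0 := by
    intro v
    have := key x v
    rw [compRep_asAlgebraHom, compRep_asAlgebraHom, hx, Function.update_self,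
      Function.update_of_ne (Ne.symm hij)] at this
    simpa using this
  have h2 : ∀ v : Fin (d i) → k, v = 0 := fun v =>
    T.toLinearEquiv.injective (by rw [h1 v, map_zero])
  have h3 := congrFun (h2 (fun _ => 1)) 0
  simp at h3

theorem exists_iso_compRep [∀ i, NeZero (d i)]
    (f : MonoidAlgebra k G →ₐ[k] Π i, Matrix (Fin (d i)) (Fin (d i)) k)
    (hf : Function.Surjective f)
    (hker : ∀ x, f x = 0 → x ∈ Ring.jacobson (MonoidAlgebra k G))
    {V : Type*} [AddCommGroup V] [Module k V] (ρ : Representation k G V)
    [hρ : ρ.IsIrreducible] : ∃ i, Nonempty (Representation.Equiv (compRep f i) ρ) := by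
  classical
  have hwd : ∀ x y : MonoidAlgebra k G, f x = f y → ρ.asAlgebraHom x = ρ.asAlgebraHom y := by
    intro x y hxy
    rw [← sub_eq_zero, ← map_sub]
    apply asAlgebraHom_eq_zero_of_mem_jacobson
    apply hker
    rw [map_sub, hxy, sub_self]
  choose s hs using hf
  -- the action of the product of matrix algebras
  let F : (Π i, Matrix (Fin (d i)) (Fin (d i)) k) → Module.End k V := fun M => ρ.asAlgebraHom (s M)
  have hF : ∀ x, F (f x) = ρ.asAlgebraHom x := fun x => hwd _ _ (hs _)
  have hFmul : ∀ M N, F (M * N) = F M * F N := by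
    intro M N
    change ρ.asAlgebraHom _ = ρ.asAlgebraHom _ * ρ.asAlgebraHom _
    rw [← map_mul]
    apply hwd
    rw [hs, map_mul, hs, hs]
  have hFadd : ∀ M N, F (M + N) = F M + F N := by
    intro M N
    change ρ.asAlgebraHom _ = ρ.asAlgebraHom _ + ρ.asAlgebraHom _
    rw [← map_add]
    apply hwd
    rw [hs, map_add, hs, hs]
  have hFsmul : ∀ (c : k) M, F (c • M) = c • F M := by
    intro c M
    change ρ.asAlgebraHom _ = c • ρ.asAlgebraHom _
    rw [← map_smul]
    apply hwd
    rw [hs, map_smul, hs]
  have hFone : F 1 = 1 := by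
    rw [← map_one f, hF, map_one]
  obtain ⟨hnt, -⟩ := (isIrreducible_iff' ρ).1 hρ
  obtain ⟨v, hv⟩ := exists_ne (0 : V)
  let L : (Π i, Matrix (Fin (d i)) (Fin (d i)) k) →ₗ[k] Module.End k V :=
    { toFun := F
      map_add' := hFadd
      map_smul' := hFsmul }
  have hL : ∀ M, L M = F M := fun _ => rfl
  let E : (i : Fin r) → Fin (d i) → Fin (d i) → (Π i, Matrix (Fin (d i)) (Fin (d i)) k) :=
    fun i a b => Pi.single i (Matrix.single a b 1)
  have h1 : (1 : Π i, Matrix (Fin (d i)) (Fin (d i)) k) = ∑ i, ∑ a, E i a a := by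
    funext j
    rw [Finset.sum_apply]
    rw [Finset.sum_eq_single j]
    · rw [Finset.sum_apply]
      simp only [E, Pi.single_eq_same]
      rw [Pi.one_apply]
      ext a b
      rw [Matrix.sum_apply, Matrix.one_apply]
      simp only [Matrix.single_apply]
      by_cases hab : a = b
      · subst hab
        simp
      · rw [if_neg hab, Finset.sum_eq_zero]
        intro c _
        rw [if_neg]
        rintro ⟨h1, h2⟩
        exact hab (h1.symm.trans h2)
    · intro i _ hij
      rw [Finset.sum_apply]
      apply Finset.sum_eq_zero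
      intro a _
      simp only [E]
      rw [Pi.single_eq_of_ne (Ne.symm hij)]
    · intro h
      exact absurd (Finset.mem_univ j) h
  have h2 : v = ∑ i, ∑ a, F (E i a a) v := by
    have h3 : v = F 1 v := by rw [hFone]; rfl
    rw [← hL, h1] at h3
    simp only [map_sum, LinearMap.sum_apply] at h3
    exact h3
  obtain ⟨i, a, hia⟩ : ∃ i, ∃ a, F (E i a a) v ≠ 0 := by
    by_contra hcon
    push Not at hcon
    apply hv
    rw [h2]
    exact Finset.sum_eq_zero fun i _ => Finset.sum_eq_zero fun a _ => hcon i a
  refine ⟨i, ?_⟩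
  let w := F (E i 0 a) v
  let C : (Fin (d i) → k) →ₗ[k] (Π i, Matrix (Fin (d i)) (Fin (d i)) k) :=
    { toFun := fun c => Pi.single i (Matrix.of fun b j => if j = 0 then c b else 0)
      map_add' := by
        intro x y
        rw [← Pi.single_add]
        congr 1
        ext b j
        simp only [Matrix.of_apply, Matrix.add_apply, Pi.add_apply]
        split_ifs <;> simp
      map_smul' := by
        intro c x
        rw [RingHom.id_apply, ← Pi.single_smul]
        congr 1
        ext b j
        simp only [Matrix.of_apply, Matrix.smul_apply, Pi.smul_apply, smul_eq_mul]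
        split_ifs <;> simp }
  let T : (Fin (d i) → k) →ₗ[k] V := (LinearMap.applyₗ (R := k) w) ∘ₗ L ∘ₗ C
  have hT : ∀ c, T c = F (C c) w := fun _ => rfl
  let T' : Representation.IntertwiningMap (compRep f i) ρ :=
    { T with
      isIntertwining' := by
        intro g
        apply LinearMap.ext
        intro c
        change T (compRep f i g c) = ρ g (T c)
        have hC : C (compRep f i g c) = f (single g 1) * C c := by
          change Pi.single i _ = f (single g 1) * Pi.single i _
          rw [compRep_apply]
          funext j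
          by_cases hj : j = i
          · subst hj
            rw [Pi.mul_apply, Pi.single_eq_same, Pi.single_eq_same]
            ext b l
            rw [Matrix.mul_apply, Matrix.toLin'_apply]
            simp only [Matrix.of_apply, Matrix.mulVec, dotProduct]
            split_ifs <;> simp
          · rw [Pi.mul_apply, Pi.single_eq_of_ne hj, Pi.single_eq_of_ne hj, mul_zero]
        rw [hT, hC, hFmul, Module.End.mul_apply, hF, Representation.asAlgebraHom_single_one]
        rfl }
  have := compRep_isIrreducible f (fun M => ⟨s M, hs M⟩) i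
  rcases Representation.IsIrreducible.bijective_or_eq_zero T' with h | h
  · exact ⟨Representation.IntertwiningMap.ofBijective T' h⟩
  · exfalso
    have h4 : T (Pi.single 0 1) = 0 := by
      change T' (Pi.single 0 1) = 0
      rw [h]
      rfl
    have h5 : C (Pi.single 0 1) = E i 0 0 := by
      change Pi.single i _ = Pi.single i _
      congr 1
      ext b j
      simp only [Matrix.of_apply, Matrix.single_apply, Pi.single_apply]
      by_cases hj : j = 0
      · subst hj
        simp [eq_comm]
      · simp [hj, Ne.symm hj]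
    rw [hT, h5, ← Module.End.mul_apply, ← hFmul] at h4
    have h6 : E i a 0 * (E i 0 0 * E i 0 a) = E i a a := by
      simp only [E, ← Pi.single_mul]
      simp
    have h7 : F (E i a 0 * (E i 0 0 * E i 0 a)) v = 0 := by
      rw [hFmul, Module.End.mul_apply, h4, map_zero]
    rw [h6] at h7
    exact hia h7

theorem iso_equivalence : Equivalence (IrrRep.Iso (k := k) (G := G)) where
  refl a := ⟨Representation.Equiv.refl _⟩
  symm := fun ⟨T⟩ => ⟨T.symm⟩
  trans := fun ⟨T⟩ ⟨S⟩ => ⟨T.trans S⟩

theorem quot_eq_iff (a b : IrrRep k G) :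
    Quot.mk IrrRep.Iso a = Quot.mk IrrRep.Iso b ↔ IrrRep.Iso a b := by
  rw [Quot.eq, iso_equivalence.eqvGen_iff]

/-- The irreducible representations attached to the components. -/
noncomputable def compIrr [∀ i, NeZero (d i)]
    (f : MonoidAlgebra k G →ₐ[k] Π i, Matrix (Fin (d i)) (Fin (d i)) k)
    (hf : Function.Surjective f) (i : Fin r) : IrrRep k G :=
  ⟨⟨d i, compRep f i⟩, compRep_isIrreducible f hf i⟩

theorem compIrr_bijective [∀ i, NeZero (d i)]
    (f : MonoidAlgebra k G →ₐ[k] Π i, Matrix (Fin (d i)) (Fin (d i)) k)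
    (hf : Function.Surjective f)
    (hker : ∀ x, f x = 0 → x ∈ Ring.jacobson (MonoidAlgebra k G)) :
    Function.Bijective (fun i => Quot.mk IrrRep.Iso (compIrr f hf i)) := by
  constructor
  · intro i j hij
    exact compRep_not_iso f hf i j ((quot_eq_iff _ _).1 hij)
  · intro q
    induction q using Quot.ind with
    | mk a =>
      have := a.2
      obtain ⟨i, hi⟩ := exists_iso_compRep f hf hker a.1.2
      exact ⟨i, (quot_eq_iff _ _).2 hi⟩

theorem numSimple_eq [∀ i, NeZero (d i)]
    (f : MonoidAlgebra k G →ₐ[k] Π i, Matrix (Fin (d i)) (Fin (d i)) k)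
    (hf : Function.Surjective f)
    (hker : ∀ x, f x = 0 → x ∈ Ring.jacobson (MonoidAlgebra k G)) :
    numSimple k G = r := by
  rw [numSimple, ← Nat.card_congr (Equiv.ofBijective _ (compIrr_bijective f hf hker)),
    Nat.card_fin]

theorem compRep_character
    (f : MonoidAlgebra k G →ₐ[k] Π i, Matrix (Fin (d i)) (Fin (d i)) k) (i : Fin r) (g : G) :
    (compRep f i).character g = (f (single g 1) i).trace := by
  rw [Representation.character, compRep_apply, Matrix.trace_toLin'_eq]

end

section complex

variable {K : Type v} [Group K] {r : ℕ} {d : Fin r → ℕ}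

theorem isIrrChar_iff [∀ i, NeZero (d i)]
    (f : MonoidAlgebra ℂ K →ₐ[ℂ] Π i, Matrix (Fin (d i)) (Fin (d i)) ℂ)
    (hf : Function.Surjective f)
    (hker : ∀ x, f x = 0 → x ∈ Ring.jacobson (MonoidAlgebra ℂ K)) (χ : K → ℂ) :
    IsIrrChar χ ↔ ∃ i, (compRep f i).character = χ := by
  constructor
  · rintro ⟨n, ρ, hρ, rfl⟩
    obtain ⟨i, ⟨T⟩⟩ := exists_iso_compRep f hf hker ρ
    exact ⟨i, Representation.char_iso T⟩
  · rintro ⟨i, rfl⟩
    exact ⟨d i, compRep f i, compRep_isIrreducible f hf i, rfl⟩

theorem character_injective [∀ i, NeZero (d i)]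
    (f : MonoidAlgebra ℂ K →ₐ[ℂ] Π i, Matrix (Fin (d i)) (Fin (d i)) ℂ)
    (hf : Function.Surjective f) :
    Function.Injective (fun i => (compRep f i).character) := by
  intro i j hij
  by_contra hne
  have key : ∀ x, (f x i).trace = (f x j).trace := by
    intro x
    induction x using MonoidAlgebra.induction_linear with
    | zero => simp
    | add x y hx hy => rw [map_add, Pi.add_apply, Pi.add_apply, Matrix.trace_add,
        Matrix.trace_add, hx, hy]
    | single g a =>
      have : (single g a : MonoidAlgebra ℂ K) = a • single g 1 := by simp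
      rw [this, map_smul, Pi.smul_apply, Pi.smul_apply, Matrix.trace_smul, Matrix.trace_smul,
        ← compRep_character, ← compRep_character]
      rw [show (compRep f i).character = (compRep f j).character from hij]
  obtain ⟨x, hx⟩ := hf (Pi.single i (Matrix.single 0 0 1))
  have := key x
  rw [hx, Pi.single_eq_same, Pi.single_eq_of_ne (Ne.symm hne)] at this
  simp at this

theorem numDZ_eq (p : ℕ) [∀ i, NeZero (d i)]
    (f : MonoidAlgebra ℂ K →ₐ[ℂ] Π i, Matrix (Fin (d i)) (Fin (d i)) ℂ)
    (hf : Function.Surjective f)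
    (hker : ∀ x, f x = 0 → x ∈ Ring.jacobson (MonoidAlgebra ℂ K)) :
    numDZ p K = Nat.card {i : Fin r // (d i).factorization p = (Nat.card K).factorization p} := by
  classical
  symm
  refine Nat.card_congr (Equiv.ofBijective
    (fun i => ⟨(compRep f i.1).character, (isIrrChar_iff f hf hker _).2 ⟨i.1, rfl⟩, d i.1, ?_, i.2⟩)
      ⟨?_, ?_⟩)
  · rw [Representation.char_one]
    simp
  · intro i j hij
    exact Subtype.ext (character_injective f hf (Subtype.ext_iff.1 hij))
  · rintro ⟨χ, hχ, n, hn, hn2⟩
    obtain ⟨i, rfl⟩ := (isIrrChar_iff f hf hker _).1 hχ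
    rw [Representation.char_one] at hn
    have : d i = n := by
      have h2 : ((d i : ℕ) : ℂ) = n := by simpa using hn
      exact_mod_cast h2
    subst this
    exact ⟨⟨i, hn2⟩, rfl⟩

end complex

end P179H524
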