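import Vale.Agent.P179.H524.SimpleIn
import Vale.Agent.P179.H905.Coset

/-!
# The number of simple modules in a central idempotent as a dimension
-/

namespace P179R

open P179H524 P179C P179A Finset MonoidAlgebra

open P179C.C2 (Om cls phi)

universe u

section Basis

variable (p : ℕ) [hp : Fact p.Prime] {k : Type u} [Field k] [IsAlgClosed k] [CharP k p]
  {G : Type} [Group G] [Fintype G]

open scoped Classical in
/-- the functions attached to the simple modules form a basis of eigenfunctions -/
theorem exists_basis (B : MonoidAlgebra k G) (hB : B ∈ Subalgebra.center k (MonoidAlgebra k G))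
    (hB2 : B * B = B) :
    ∃ (r : ℕ) (v : Module.Basis (Fin r) k (Om p G → k)) (I : Finset (Fin r)),
      I.card = numSimpleIn B ∧ ∀ (i : Fin r) (y : G),
        ∑ g : G, B.coeff g * v i (cls p (g * y)) = if i ∈ I then v i (cls p y) else 0 := by
  obtain ⟨r, d, hd, f, hf, hker⟩ := exists_wedderburn k G
  obtain ⟨l, hl⟩ := C2.exists_scalar f hf B hB
  let e := LinearEquiv.ofBijective (phi p f) (C2.phi_bijective p f hf hker)
  refine ⟨r, (Pi.basisFun k (Fin r)).map e, univ.filter (fun i => l i = 1), ?_, ?_⟩
  · rw [C2.numSimpleIn_eq_card f hf hker B l hl, Nat.card_eq_fintype_card, Fintype.card_subtype]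
  · intro i y
    rw [Module.Basis.map_apply, Pi.basisFun_apply]
    have he : e (Pi.single i 1) = phi p f (Pi.single i 1) := rfl
    have h1 : ∀ g : G, (phi p f (Pi.single i (1 : k))) (cls p g) = trFun f (Pi.single i 1) g := by
      intro g
      rw [cls, C2.phi_mk]
      exact C2.trFun_pr p f _ _
    rw [he, h1]
    simp only [h1]
    rw [C2.sum_coeff_mul_trFun]
    have h2 : ∀ j, (Pi.single i (1 : k) : Fin r → k) j * (f B j * f (single y 1) j).trace =
        l i * ((Pi.single i (1 : k) : Fin r → k) j * (f (single y 1) j).trace) := by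
      intro j
      rw [hl, Matrix.scalar_apply, ← Matrix.smul_eq_diagonal_mul, Matrix.trace_smul, smul_eq_mul]
      by_cases hj : j = i
      · subst hj; ring
      · rw [Pi.single_eq_of_ne hj]; ring
    rw [Finset.sum_congr rfl fun j _ => h2 j, ← Finset.mul_sum]
    have h3 : ∑ j, (Pi.single i (1 : k) : Fin r → k) j * (f (single y 1) j).trace =
        trFun f (Pi.single i 1) y := rfl
    rw [h3]
    have h4 : i ∈ univ.filter (fun i => l i = 1) ↔ l i = 1 := by simp
    rcases C2.scalar_idem f B hB2 l hl i with h | h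
    · rw [if_neg (by rw [h4, h]; exact zero_ne_one), h, zero_mul]
    · rw [if_pos (by rw [h4, h]), h, one_mul]

end Basis

section VB

variable (p : ℕ) [hp : Fact p.Prime] {k : Type u} [Field k] {G : Type} [Group G] [Fintype G]

/-- functions on the classes of regular elements fixed by `B` -/
noncomputable def VB (B : MonoidAlgebra k G) : Submodule k (Om p G → k) where
  carrier := {ψ | ∀ y : G, ¬ p ∣ orderOf y →
    ∑ g : G, B.coeff g * ψ (cls p (g * y)) = ψ (cls p y)}
  add_mem' := by
    intro a b ha hb y hy
    simp only [Pi.add_apply, mul_add, Finset.sum_add_distrib]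
    rw [ha y hy, hb y hy]
  zero_mem' := by
    intro y _
    simp
  smul_mem' := by
    intro c a ha y hy
    simp only [Pi.smul_apply, smul_eq_mul]
    rw [← ha y hy, Finset.mul_sum]
    exact Finset.sum_congr rfl fun g _ => by ring

theorem mem_VB {B : MonoidAlgebra k G} {ψ : Om p G → k} : ψ ∈ VB p B ↔ ∀ y : G,
    ¬ p ∣ orderOf y → ∑ g : G, B.coeff g * ψ (cls p (g * y)) = ψ (cls p y) := Iff.rfl

theorem cls_surj (ω : Om p G) : ∃ y : G, ¬ p ∣ orderOf y ∧ cls p y = ω := by
  induction ω using Quotient.inductionOn' with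
  | h x => exact ⟨x.1, x.2, C2.cls_reg p x⟩

theorem finrank_VB [IsAlgClosed k] [CharP k p] (B : MonoidAlgebra k G)
    (hB : B ∈ Subalgebra.center k (MonoidAlgebra k G)) (hB2 : B * B = B) :
    Module.finrank k (VB p B) = numSimpleIn B := by
  classical
  obtain ⟨r, v, I, hI, hv⟩ := exists_basis p B hB hB2
  rw [← hI]
  -- the basis of `VB`
  have hmem : ∀ i : I, v i ∈ VB p B := by
    intro i y _
    rw [hv, if_pos i.2]
  have hli : LinearIndependent k (fun i : I => (⟨v i, hmem i⟩ : VB p B)) := by
    have h1 : LinearIndependent k (fun i : I => v i) := v.linearIndependent.comp _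
      Subtype.val_injective
    exact LinearIndependent.of_comp (VB p B).subtype h1
  have hsp : ⊤ ≤ Submodule.span k (Set.range (fun i : I => (⟨v i, hmem i⟩ : VB p B))) := by
    rintro ⟨ψ, hψ⟩ -
    have h1 : ψ = ∑ i, v.repr ψ i • v i := (v.sum_repr ψ).symm
    have h2 : ∑ i, (v.repr ψ i * if i ∈ I then 1 else 0) • v i = ∑ i, v.repr ψ i • v i := by
      rw [← h1]
      funext ω
      obtain ⟨y, hy, rfl⟩ := cls_surj p ω
      have h3 := hψ y hy
      rw [← h3]
      conv_rhs => rw [h1]
      simp only [Finset.sum_apply, Pi.smul_apply, smul_eq_mul, Finset.mul_sum]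
      rw [Finset.sum_comm]
      refine Finset.sum_congr rfl fun i _ => ?_
      have h4 := hv i y
      have h5 : ∑ g : G, B.coeff g * (v.repr ψ i * v i (cls p (g * y))) =
          v.repr ψ i * ∑ g : G, B.coeff g * v i (cls p (g * y)) := by
        rw [Finset.mul_sum]
        exact Finset.sum_congr rfl fun g _ => by ring
      rw [h5, h4]
      split_ifs <;> ring
    have h3 : ∀ i, i ∉ I → v.repr ψ i = 0 := by
      intro i hi
      have h4 := congrArg (fun x => v.repr x i) h2
      simp only [map_sum, map_smul, Module.Basis.repr_self, Finsupp.coe_finsetSum,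
        Finset.sum_apply, Finsupp.coe_smul, Pi.smul_apply, smul_eq_mul] at h4
      simp only [Finsupp.single_apply, mul_ite, mul_one, mul_zero, Finset.sum_ite_eq',
        Finset.mem_univ, if_true, if_neg hi] at h4
      exact h4.symm
    have h4 : (⟨ψ, hψ⟩ : VB p B) = ∑ i : I, v.repr ψ i • (⟨v i, hmem i⟩ : VB p B) := by
      apply Subtype.ext
      push_cast
      conv_lhs => rw [h1]
      rw [← Finset.sum_subset (Finset.subset_univ I) (fun i _ hi => by rw [h3 i hi, zero_smul])]
      exact (Finset.sum_coe_sort I (fun i => v.repr ψ i • v i)).symm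
    rw [h4]
    exact Submodule.sum_mem _ fun i _ => Submodule.smul_mem _ _ (Submodule.subset_span ⟨i, rfl⟩)
  rw [Module.finrank_eq_card_basis (Module.Basis.mk hli hsp), Fintype.card_coe]

end VB

end P179R
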