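import Mathlib

/-!
# Product bases and orbit counting
-/

namespace P179R

open Finset

section Prod

variable {k : Type*} [Field k] {Q Ω : Type*} [Fintype Q] [DecidableEq Q] [Fintype Ω] {r : ℕ}

/-- products of basis functions -/
noncomputable def prodFun (v : Module.Basis (Fin r) k (Ω → k)) (c : Q → Fin r) : (Q → Ω) → k :=
  fun ω => ∏ q, v (c q) (ω q)

/-- the expansion map -/
noncomputable def prodMap (v : Module.Basis (Fin r) k (Ω → k)) :
    ((Q → Fin r) → k) →ₗ[k] ((Q → Ω) → k) where
  toFun a := fun ω => ∑ c, a c * prodFun v c ω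
  map_add' a b := by
    funext ω
    simp only [Pi.add_apply, add_mul, Finset.sum_add_distrib]
  map_smul' t a := by
    funext ω
    simp only [Pi.smul_apply, smul_eq_mul, RingHom.id_apply, Finset.mul_sum, mul_assoc]

omit [Fintype Ω] in
theorem prodMap_apply (v : Module.Basis (Fin r) k (Ω → k)) (a : (Q → Fin r) → k) (ω : Q → Ω) :
    prodMap v a ω = ∑ c, a c * ∏ q, v (c q) (ω q) := rfl

theorem prodMap_bijective (v : Module.Basis (Fin r) k (Ω → k)) :
    Function.Bijective (prodMap (Q := Q) v) := by
  classical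
  have hsurj : Function.Surjective (prodMap (Q := Q) v) := by
    rw [← LinearMap.range_eq_top, eq_top_iff]
    intro F _
    rw [← Finset.univ_sum_single F]
    refine Submodule.sum_mem _ fun ω _ => ?_
    refine ⟨fun c => F ω * ∏ q, v.repr (Pi.single (ω q) 1) (c q), ?_⟩
    funext ω'
    rw [prodMap_apply]
    have h1 : ∀ q, (Pi.single (ω q) (1 : k) : Ω → k) (ω' q) =
        ∑ i, v.repr (Pi.single (ω q) 1) i * v i (ω' q) := by
      intro q
      conv_lhs => rw [← v.sum_repr (Pi.single (ω q) (1 : k))]
      rw [Finset.sum_apply]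
      rfl
    have h2 : ∑ c : Q → Fin r, (F ω * ∏ q, v.repr (Pi.single (ω q) 1) (c q)) *
        ∏ q, v (c q) (ω' q) = F ω * ∏ q, (Pi.single (ω q) (1 : k) : Ω → k) (ω' q) := by
      simp only [h1]
      rw [Finset.prod_univ_sum, Finset.mul_sum]
      rw [Fintype.piFinset_univ]
      refine Finset.sum_congr rfl fun c _ => ?_
      rw [mul_assoc, ← Finset.prod_mul_distrib]
    rw [h2]
    by_cases h : ω' = ω
    · subst h
      have h3 : ∏ q, (Pi.single (ω' q) (1 : k) : Ω → k) (ω' q) = 1 :=
        Finset.prod_eq_one fun q _ => Pi.single_eq_same _ _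
      rw [Pi.single_eq_same, h3, mul_one]
    · rw [Pi.single_eq_of_ne h]
      obtain ⟨q, hq⟩ := Function.ne_iff.1 h
      have h3 : ∏ q, (Pi.single (ω q) (1 : k) : Ω → k) (ω' q) = 0 :=
        Finset.prod_eq_zero (mem_univ q) (Pi.single_eq_of_ne hq _)
      rw [h3, mul_zero]
  refine ⟨?_, hsurj⟩
  have hcard : Module.finrank k ((Q → Fin r) → k) = Module.finrank k ((Q → Ω) → k) := by
    have h1 : Fintype.card Ω = r := by
      have h2 := Module.finrank_eq_card_basis v
      rw [Module.finrank_fintype_fun_eq_card, Fintype.card_fin] at h2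
      exact h2
    rw [Module.finrank_fintype_fun_eq_card, Module.finrank_fintype_fun_eq_card,
      Fintype.card_fun, Fintype.card_fun, Fintype.card_fin, h1]
  exact (LinearMap.injective_iff_surjective_of_finrank_eq_finrank hcard).2 hsurj

end Prod

section Shift

/-- the shift action on functions on a group -/
@[reducible]
def shift (Q X : Type*) [Group Q] : MulAction Q (Q → X) where
  smul τ c := fun q => c (τ⁻¹ * q)
  one_smul c := by
    funext q
    change c (1⁻¹ * q) = c q
    simp
  mul_smul a b c := by
    funext q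
    change c ((a * b)⁻¹ * q) = c (b⁻¹ * (a⁻¹ * q))
    simp [mul_assoc]

/-- the number of orbits of the shift -/
theorem card_orbits_shift {p : ℕ} (hp : p.Prime) (Q : Type*) [Group Q] [Finite Q]
    (hQ : Nat.card Q = p) (X : Type*) [Finite X] :
    p * Nat.card (@MulAction.orbitRel.Quotient Q (Q → X) _ (shift Q X)) =
      Nat.card X ^ p + (p - 1) * Nat.card X := by
  classical
  let _ := shift Q X
  have := Fintype.ofFinite Q
  have := Fintype.ofFinite X
  have := Fintype.ofFinite (MulAction.orbitRel.Quotient Q (Q → X))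
  have : ∀ a : Q, Fintype (MulAction.fixedBy (Q → X) a) := fun a => Fintype.ofFinite _
  have h1 := MulAction.sum_card_fixedBy_eq_card_orbits_mul_card_group Q (Q → X)
  rw [← Nat.card_eq_fintype_card (α := Q), hQ] at h1
  have h2 : ∀ a : Q, Fintype.card (MulAction.fixedBy (Q → X) a) =
      if a = 1 then Nat.card X ^ p else Nat.card X := by
    intro a
    rw [← Nat.card_eq_fintype_card]
    split_ifs with ha
    · subst ha
      rw [← hQ, ← Nat.card_fun]
      refine Nat.card_congr ⟨fun c => c.1, fun c => ⟨c, ?_⟩, fun c => rfl, fun c => rfl⟩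
      rw [MulAction.mem_fixedBy, one_smul]
    · have hgen : ∀ q : Q, q ∈ Subgroup.zpowers a := by
        have hord : orderOf a = p := by
          have h3 : orderOf a ∣ p := hQ ▸ orderOf_dvd_natCard a
          rcases (Nat.dvd_prime hp).1 h3 with h4 | h4
          · exact absurd (orderOf_eq_one_iff.1 h4) ha
          · exact h4
        have h5 : Subgroup.zpowers a = ⊤ := by
          apply Subgroup.eq_top_of_card_eq
          rw [Nat.card_zpowers, hord, hQ]
        intro q
        rw [h5]; exact Subgroup.mem_top q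
      refine Nat.card_congr ⟨fun c => c.1 1, fun x => ⟨fun _ => x, rfl⟩, fun c => ?_, fun x => rfl⟩
      apply Subtype.ext
      funext q
      change c.1 1 = c.1 q
      obtain ⟨n, rfl⟩ := Subgroup.mem_zpowers_iff.1 (hgen q)
      have hc : a • c.1 = c.1 := c.2
      have hz : a ^ n • c.1 = c.1 := by
        have : a ∈ MulAction.stabilizer Q c.1 := hc
        exact (MulAction.stabilizer Q c.1).zpow_mem this n
      have h6 := congrFun hz (a ^ n)
      change c.1 ((a ^ n)⁻¹ * a ^ n) = c.1 (a ^ n) at h6
      rw [inv_mul_cancel] at h6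
      exact h6
  rw [Finset.sum_congr rfl fun a _ => h2 a] at h1
  rw [Nat.card_eq_fintype_card (α := MulAction.orbitRel.Quotient Q (Q → X)), mul_comm, ← h1,
    ← Finset.add_sum_erase _ _ (mem_univ (1 : Q)), if_pos rfl,
    Finset.sum_congr rfl (fun a ha => if_neg (Finset.ne_of_mem_erase ha)), Finset.sum_const,
    Finset.card_erase_of_mem (mem_univ _), Finset.card_univ, ← Nat.card_eq_fintype_card (α := Q),
    hQ, smul_eq_mul]

end Shift

end P179R
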