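import Vale.Agent.P179.H524.Wr1
import Vale.Agent.P179.H524.Wr2
import Vale.Agent.P179.H166.BrauerHom
import Mathlib.GroupTheory.RegularWreathProduct

/-!
# The number of simple modules of a wreath product `G ≀ C_p` in `e ⊗ ... ⊗ e`
-/

namespace P179R

open P179H524 P179C P179A Finset MonoidAlgebra RegularWreathProduct

open P179C.C2 (Om cls phi)

universe u

section Wr

variable {G : Type} [Group G] {Q : Type} [Group Q]

/-- the base group -/
def incl (G Q : Type) [Group G] [Group Q] : (Q → G) →* G ≀ᵣ Q where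
  toFun y := ⟨y, 1⟩
  map_one' := rfl
  map_mul' a b := by ext <;> simp

@[simp] theorem incl_left (y : Q → G) : (incl G Q y).left = y := rfl

@[simp] theorem incl_right (y : Q → G) : (incl G Q y).right = 1 := rfl

theorem incl_injective : Function.Injective (incl G Q) := fun _ _ h => congrArg left h

theorem eq_incl {x : G ≀ᵣ Q} (hx : x.right = 1) : x = incl G Q x.left := by
  ext
  · rfl
  · exact hx

theorem wr_conj (x : G ≀ᵣ Q) (y : Q → G) : x * incl G Q y * x⁻¹ =
    incl G Q (fun q => x.left q * y (x.right⁻¹ * q) * (x.left q)⁻¹) := by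
  ext q
  · simp [mul_assoc]
  · simp

variable {p : ℕ} [hp : Fact p.Prime]

theorem right_eq_one (hQ : Nat.card Q = p) {x : G ≀ᵣ Q} (hx : ¬ p ∣ orderOf x) :
    x.right = 1 := by
  have h1 : orderOf x.right ∣ orderOf x := orderOf_map_dvd rightHom x
  have h2 : orderOf x.right ∣ p := hQ ▸ orderOf_dvd_natCard x.right
  rw [← orderOf_eq_one_iff]
  rcases (Nat.dvd_prime hp.out).1 h2 with h3 | h3
  · exact h3
  · exact absurd (h3 ▸ h1) hx

variable [Finite G] [Finite Q]

theorem pr_incl (y : Q → G) : pr p (incl G Q y) = incl G Q (fun q => pr p (y q)) := by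
  rw [← P179C905.map_pr p (incl G Q) y]
  congr 1
  funext q
  exact P179C905.map_pr p (Pi.evalMonoidHom (fun _ : Q => G) q) y

theorem reg_incl {y : Q → G} : ¬ p ∣ orderOf (incl G Q y) ↔ ∀ q, ¬ p ∣ orderOf (y q) := by
  constructor
  · intro h q hq
    apply h
    rw [orderOf_injective _ incl_injective]
    exact hq.trans (orderOf_map_dvd (Pi.evalMonoidHom (fun _ : Q => G) q) y)
  · intro h
    have h1 : pr p (incl G Q y) = incl G Q y := by
      rw [pr_incl]
      congr 1
      funext q
      exact Q7.pr_of_regular p (y q) (C2.ord_ne _) (h q)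
    rw [← h1]
    exact Q7.pr_regular p _ (C2.ord_ne _)

/-- equality of classes -/
theorem cls_eq_iff {G : Type} [Group G] [Finite G] (a b : G) :
    cls p a = cls p b ↔ ∃ t : G, t * pr p b * t⁻¹ = pr p a := by
  unfold cls
  rw [Quotient.eq'']
  constructor
  · rintro ⟨t, ht⟩
    exact ⟨t, congrArg Subtype.val ht⟩
  · rintro ⟨t, ht⟩
    exact ⟨t, Subtype.ext ht⟩

theorem cls_incl {y y' : Q → G} (h : ∀ q, cls p (y q) = cls p (y' q)) :
    cls p (incl G Q y) = cls p (incl G Q y') := by
  choose t ht using fun q => (cls_eq_iff (p := p) (y q) (y' q)).1 (h q)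
  rw [cls_eq_iff]
  refine ⟨incl G Q t, ?_⟩
  rw [pr_incl, pr_incl, wr_conj]
  congr 1
  funext q
  simp only [incl_left, incl_right, inv_one, one_mul]
  exact ht q

theorem cls_shift (y : Q → G) (τ : Q) :
    cls p (incl G Q (fun q => y (τ⁻¹ * q))) = cls p (incl G Q y) := by
  have h1 : incl G Q (fun q => y (τ⁻¹ * q)) = inl τ * incl G Q y * (inl τ)⁻¹ := by
    rw [wr_conj]
    congr 1
    funext q
    simp
  rw [h1, C2.cls_conj]

theorem cls_incl_iff {y y' : Q → G} (h : cls p (incl G Q y) = cls p (incl G Q y')) :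
    ∃ τ : Q, ∀ q, cls p (y q) = cls p (y' (τ⁻¹ * q)) := by
  obtain ⟨x, hx⟩ := (cls_eq_iff _ _).1 h
  rw [pr_incl, pr_incl, wr_conj] at hx
  have h1 := incl_injective hx
  refine ⟨x.right, fun q => ?_⟩
  rw [cls_eq_iff]
  exact ⟨x.left q, congrFun h1 q⟩

theorem cls_surj' {G : Type} [Group G] [Finite G] (ω : Om p G) :
    ∃ y : G, ¬ p ∣ orderOf y ∧ cls p y = ω := by
  induction ω using Quotient.inductionOn' with
  | h x => exact ⟨x.1, x.2, C2.cls_reg p x⟩

theorem exists_cls_incl (hQ : Nat.card Q = p) (ω : Om p (G ≀ᵣ Q)) :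
    ∃ y : Q → G, (∀ q, ¬ p ∣ orderOf (y q)) ∧ cls p (incl G Q y) = ω := by
  obtain ⟨x, hx, rfl⟩ := cls_surj' ω
  have h1 := right_eq_one hQ hx
  refine ⟨x.left, ?_, ?_⟩
  · rw [← reg_incl, ← eq_incl h1]
    exact hx
  · rw [← eq_incl h1]

end Wr

section Ehat

variable {k : Type u} [Field k] {G : Type} [Group G] [Fintype G] {Q : Type} [Group Q]
  [Fintype Q]

open scoped Classical in
/-- the coefficients of `e ⊗ ... ⊗ e` -/
noncomputable def wcoef (e : MonoidAlgebra k G) (x : G ≀ᵣ Q) : k :=
  if x.right = 1 then ∏ q, e.coeff (x.left q) else 0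

/-- `e ⊗ ... ⊗ e` -/
noncomputable def ehat (Q : Type) [Group Q] [Fintype Q] (e : MonoidAlgebra k G) :
    MonoidAlgebra k (G ≀ᵣ Q) :=
  ∑ᶠ x : G ≀ᵣ Q, MonoidAlgebra.single x (wcoef e x)

theorem coeff_ehat (e : MonoidAlgebra k G) (x : G ≀ᵣ Q) :
    (ehat Q e).coeff x = wcoef e x := by
  classical
  have := Fintype.ofFinite (G ≀ᵣ Q)
  unfold ehat
  rw [coeff_finsum_single, Finset.sum_eq_single x]
  · rw [if_pos rfl]
  · intro y _ hy
    rw [if_neg hy]
  · intro h; exact absurd (Finset.mem_univ _) h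

omit [Fintype G] in
theorem wcoef_incl (e : MonoidAlgebra k G) (y : Q → G) :
    wcoef e (incl G Q y) = ∏ q, e.coeff (y q) := by
  rw [wcoef]
  exact if_pos rfl

/-- sums against `ehat` -/
theorem sum_ehat [Fintype (G ≀ᵣ Q)] [DecidableEq Q] (e : MonoidAlgebra k G) (F : G ≀ᵣ Q → k) :
    ∑ x : G ≀ᵣ Q, (ehat Q e).coeff x * F x =
      ∑ y : Q → G, (∏ q, e.coeff (y q)) * F (incl G Q y) := by
  rw [← (equivProd G Q).symm.sum_comp, Fintype.sum_prod_type]
  refine Finset.sum_congr rfl fun y _ => ?_
  rw [Finset.sum_eq_single (1 : Q)]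
  · rw [coeff_ehat]
    exact congrArg (· * _) (wcoef_incl e y)
  · intro τ _ hτ
    rw [coeff_ehat, wcoef, if_neg, zero_mul]
    exact hτ
  · intro h; exact absurd (Finset.mem_univ _) h

theorem ehat_mem (e : MonoidAlgebra k G) (he : e ∈ Subalgebra.center k (MonoidAlgebra k G)) :
    ehat Q e ∈ Subalgebra.center k (MonoidAlgebra k (G ≀ᵣ Q)) := by
  classical
  have := Fintype.ofFinite (G ≀ᵣ Q)
  rw [P179C.mem_center_iff] at he ⊢
  intro x y
  simp only [coeff_ehat]
  by_cases hy : y.right = 1
  · obtain ⟨z, rfl⟩ : ∃ z, y = incl G Q z := ⟨_, eq_incl hy⟩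
    rw [wr_conj, wcoef_incl, wcoef_incl]
    have h1 : ∀ q, e.coeff (x.left q * z (x.right⁻¹ * q) * (x.left q)⁻¹) =
        e.coeff (z (x.right⁻¹ * q)) := fun q => he _ _
    simp only [h1]
    exact Equiv.prod_comp (Equiv.mulLeft x.right⁻¹) (fun q => e.coeff (z q))
  · have h2 : (x * y * x⁻¹).right ≠ 1 := by
      intro h
      apply hy
      rw [RegularWreathProduct.mul_right, RegularWreathProduct.mul_right, inv_right,
        mul_inv_eq_one] at h
      exact mul_left_cancel (a := x.right) (by rw [h, mul_one])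
    rw [wcoef, wcoef, if_neg hy, if_neg h2]

theorem ehat_idem (e : MonoidAlgebra k G) (hee : e * e = e) :
    ehat Q e * ehat Q e = ehat Q e := by
  classical
  have := Fintype.ofFinite (G ≀ᵣ Q)
  ext x
  rw [coeff_mul_eq_conv]
  unfold conv
  rw [sum_ehat]
  by_cases hx : x.right = 1
  · obtain ⟨z, rfl⟩ : ∃ z, x = incl G Q z := ⟨_, eq_incl hx⟩
    rw [coeff_ehat, wcoef_incl]
    have h1 : ∀ q, e.coeff (z q) = ∑ g : G, e.coeff g * e.coeff (g⁻¹ * z q) := by
      intro q
      conv_lhs => rw [← hee]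
      exact coeff_mul_eq_conv e e (z q)
    simp only [h1]
    rw [Finset.prod_univ_sum, Fintype.piFinset_univ]
    refine Finset.sum_congr rfl fun y _ => ?_
    rw [← map_inv, ← map_mul, coeff_ehat, wcoef_incl, ← Finset.prod_mul_distrib]
    rfl
  · rw [coeff_ehat, wcoef, if_neg hx]
    refine Finset.sum_eq_zero fun y _ => ?_
    have h2 : ((incl G Q y)⁻¹ * x).right ≠ 1 := by
      rw [RegularWreathProduct.mul_right, inv_right, incl_right, inv_one, one_mul]
      exact hx
    have h3 : (ehat Q e).coeff ((incl G Q y)⁻¹ * x) = 0 := by rw [coeff_ehat, wcoef, if_neg h2]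
    exact mul_eq_zero_of_right _ h3

end Ehat

section Main

variable {p : ℕ} [hp : Fact p.Prime] {k : Type u} [Field k] [IsAlgClosed k] [CharP k p]
  {G : Type} [Group G] [Fintype G] {Q : Type} [Group Q] [Fintype Q] [DecidableEq Q]

/-- the function on `Q → Om p G` attached to a function on the orbits -/
noncomputable def PF {r : ℕ} (v : Module.Basis (Fin r) k (Om p G → k)) (I : Finset (Fin r))
    (b : (Q → I) → k) (ω : Q → Om p G) : k := ∑ c : Q → I, b c * ∏ q, v (c q) (ω q)

omit [IsAlgClosed k] [CharP k p] hp [Fintype G] in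
theorem PF_shift {r : ℕ} (v : Module.Basis (Fin r) k (Om p G → k)) (I : Finset (Fin r))
    {b : (Q → I) → k} (hb : ∀ (τ : Q) (c : Q → I), b (fun q => c (τ⁻¹ * q)) = b c)
    (ω : Q → Om p G) (τ : Q) : PF v I b (fun q => ω (τ⁻¹ * q)) = PF v I b ω := by
  unfold PF
  let E : (Q → I) ≃ (Q → I) := (Equiv.mulLeft τ⁻¹).arrowCongr (Equiv.refl I) |>.symm
  rw [← E.sum_comp]
  refine Finset.sum_congr rfl fun c _ => ?_
  have hE : E c = fun q => c (τ⁻¹ * q) := rfl
  rw [hE, hb]
  congr 1
  exact Equiv.prod_comp (Equiv.mulLeft τ⁻¹) (fun q => v (c q) (ω q))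

theorem numSimpleIn_ehat_card (hQ : Nat.card Q = p) (e : MonoidAlgebra k G)
    (he : e ∈ Subalgebra.center k (MonoidAlgebra k G)) (hee : e * e = e) :
    ∃ (X : Type) (_ : Finite X), Nat.card X = numSimpleIn e ∧ numSimpleIn (ehat Q e) =
      Nat.card (@MulAction.orbitRel.Quotient Q (Q → X) _ (shift Q X)) := by
  classical
  obtain ⟨r, v, I, hI, hv⟩ := exists_basis p e he hee
  refine ⟨I, inferInstance, by rw [Nat.card_eq_fintype_card, Fintype.card_coe, hI], ?_⟩
  let _ := shift Q I
  have := Fintype.ofFinite (G ≀ᵣ Q)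
  have : Finite (Om p G) := Quotient.finite _
  have := Fintype.ofFinite (Om p G)
  have := Fintype.ofFinite (MulAction.orbitRel.Quotient Q (Q → I))
  rw [← finrank_VB p (ehat Q e) (ehat_mem e he) (ehat_idem e hee)]
  let mk : (Q → I) → MulAction.orbitRel.Quotient Q (Q → I) := Quotient.mk''
  have hmk : ∀ (b : MulAction.orbitRel.Quotient Q (Q → I) → k) (τ : Q) (c : Q → I),
      b (mk (fun q => c (τ⁻¹ * q))) = b (mk c) := by
    intro b τ c
    congr 1
    exact Quotient.sound' ⟨τ, rfl⟩
  -- the map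
  let Θ : (MulAction.orbitRel.Quotient Q (Q → I) → k) →ₗ[k] (Om p (G ≀ᵣ Q) → k) :=
    { toFun := fun b ω => PF v I (fun c => b (mk c)) (fun q => cls p (ω.out.1.left q))
      map_add' := fun a b => by
        funext ω
        simp only [PF, Pi.add_apply, add_mul, Finset.sum_add_distrib]
      map_smul' := fun a b => by
        funext ω
        simp only [PF, Pi.smul_apply, smul_eq_mul, RingHom.id_apply, Finset.mul_sum, mul_assoc] }
  have hΘ : ∀ b (y : Q → G), Θ b (cls p (incl G Q y)) =
      PF v I (fun c => b (mk c)) (fun q => cls p (y q)) := by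
    intro b y
    set ω := cls p (incl G Q y) with hω
    change PF v I (fun c => b (mk c)) (fun q => cls p (ω.out.1.left q)) = _
    have h1 : ω.out.1.right = 1 := right_eq_one hQ ω.out.2
    have h2 : cls p (incl G Q ω.out.1.left) = cls p (incl G Q y) := by
      rw [← eq_incl h1, C2.cls_reg, ← hω]
      exact Quotient.out_eq' ω
    obtain ⟨τ, hτ⟩ := cls_incl_iff h2
    simp only [hτ]
    exact PF_shift v I (hmk b) (fun q => cls p (y q)) τ
  -- sums over the group
  have hsum : ∀ (c : Q → Fin r) (y : Q → G), ∑ g : Q → G, (∏ q, e.coeff (g q)) *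
      ∏ q, v (c q) (cls p (g q * y q)) =
        if ∀ q, c q ∈ I then ∏ q, v (c q) (cls p (y q)) else 0 := by
    intro c y
    have h1 : ∀ g : Q → G, (∏ q, e.coeff (g q)) * ∏ q, v (c q) (cls p (g q * y q)) =
        ∏ q, (e.coeff (g q) * v (c q) (cls p (g q * y q))) := by
      intro g
      rw [Finset.prod_mul_distrib]
    rw [Finset.sum_congr rfl fun g _ => h1 g, ← Fintype.piFinset_univ, ← Finset.prod_univ_sum
      (fun _ => univ) (fun q g => e.coeff g * v (c q) (cls p (g * y q)))]
    simp only [hv]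
    split_ifs with h
    · exact Finset.prod_congr rfl fun q _ => if_pos (h q)
    · push Not at h
      obtain ⟨q, hq⟩ := h
      exact Finset.prod_eq_zero (mem_univ q) (if_neg hq)
  have hmem : ∀ b, Θ b ∈ VB p (ehat Q e) := by
    intro b x hx
    have hx1 := right_eq_one hQ hx
    obtain ⟨y, rfl⟩ : ∃ y, x = incl G Q y := ⟨_, eq_incl hx1⟩
    rw [sum_ehat, hΘ]
    have h1 : ∀ g : Q → G, (∏ q, e.coeff (g q)) * Θ b (cls p (incl G Q g * incl G Q y)) =
        ∑ c : Q → I, b (mk c) * ((∏ q, e.coeff (g q)) *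
          ∏ q, v (c q) (cls p (g q * y q))) := by
      intro g
      rw [← map_mul, hΘ, PF, Finset.mul_sum]
      refine Finset.sum_congr rfl fun c _ => ?_
      simp only [Pi.mul_apply]
      ring
    rw [Finset.sum_congr rfl fun g _ => h1 g, Finset.sum_comm, PF]
    refine Finset.sum_congr rfl fun c _ => ?_
    rw [← Finset.mul_sum, hsum (fun q => (c q : Fin r)) y, if_pos fun q => (c q).2]
  have hinj : Function.Injective Θ := by
    rw [injective_iff_map_eq_zero]
    intro b hb
    let a : (Q → Fin r) → k := fun c =>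
      if h : ∀ q, c q ∈ I then b (mk fun q => ⟨c q, h q⟩) else 0
    have h1 : prodMap v a = 0 := by
      funext ω
      choose y hy hyω using fun q => cls_surj p (ω q)
      have h2 := hΘ b y
      rw [hb] at h2
      have h3 : (fun q => cls p (y q)) = ω := funext hyω
      rw [h3, PF] at h2
      rw [prodMap_apply]
      change _ = (0 : k)
      rw [Pi.zero_apply] at h2
      rw [h2]
      have h4 : ∑ c : Q → Fin r, a c * ∏ q, v (c q) (ω q) =
          ∑ c ∈ univ.filter (fun c : Q → Fin r => ∀ q, c q ∈ I), a c * ∏ q, v (c q) (ω q) := by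
        rw [Finset.sum_filter]
        refine Finset.sum_congr rfl fun c _ => ?_
        split_ifs with h
        · rfl
        · simp only [a]
          rw [dif_neg h, zero_mul]
      rw [h4]
      symm
      refine Finset.sum_bij (fun c _ => fun q => (c q : Fin r)) ?_ ?_ ?_ ?_
      · intro c _
        rw [mem_filter]
        exact ⟨mem_univ _, fun q => (c q).2⟩
      · intro c _ c' _ h
        funext q
        exact Subtype.ext (congrFun h q)
      · intro c hc
        rw [mem_filter] at hc
        exact ⟨fun q => ⟨c q, hc.2 q⟩, mem_univ _, rfl⟩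
      · intro c _
        simp only [a]
        rw [dif_pos fun q => (c q).2]
    have h5 := (injective_iff_map_eq_zero _).1 (prodMap_bijective (Q := Q) v).1 a h1
    funext o
    induction o using Quotient.inductionOn' with
    | h c =>
    have h6 := congrFun h5 (fun q => (c q : Fin r))
    simp only [a] at h6
    rw [dif_pos fun q => (c q).2] at h6
    exact h6
  have hsurj : ∀ ψ ∈ VB p (ehat Q e), ∃ b, Θ b = ψ := by
    intro ψ hψ
    let F : (Q → Om p G) → k := fun ω => ψ (cls p (incl G Q (fun q => (ω q).out.1)))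
    have hF : ∀ y : Q → G, F (fun q => cls p (y q)) = ψ (cls p (incl G Q y)) := by
      intro y
      simp only [F]
      congr 1
      refine cls_incl fun q => ?_
      rw [C2.cls_reg]
      exact Quotient.out_eq' _
    obtain ⟨a, ha⟩ := (prodMap_bijective (Q := Q) v).2 F
    -- the support of `a`
    have h1 : ∀ c : Q → Fin r, ¬ (∀ q, c q ∈ I) → a c = 0 := by
      have h2 : prodMap v (fun c => if ∀ q, c q ∈ I then a c else 0) = prodMap v a := by
        funext ω
        choose y hy hyω using fun q => cls_surj p (ω q)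
        have hω : (fun q => cls p (y q)) = ω := funext hyω
        have h3 := hψ (incl G Q y) (reg_incl.2 hy)
        rw [sum_ehat, ← hF, hω, ← ha] at h3
        rw [← h3, prodMap_apply]
        have h4 : ∀ g : Q → G, (∏ q, e.coeff (g q)) * ψ (cls p (incl G Q g * incl G Q y)) =
            ∑ c : Q → Fin r, a c * ((∏ q, e.coeff (g q)) *
              ∏ q, v (c q) (cls p (g q * y q))) := by
          intro g
          rw [← map_mul, ← hF, ← ha, prodMap_apply, Finset.mul_sum]
          refine Finset.sum_congr rfl fun c _ => ?_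
          simp only [Pi.mul_apply]
          ring
        rw [Finset.sum_congr rfl fun g _ => h4 g, Finset.sum_comm]
        refine Finset.sum_congr rfl fun c _ => ?_
        rw [← Finset.mul_sum, hsum c y]
        simp only [hyω]
        split_ifs <;> ring
      have h3 := (prodMap_bijective (Q := Q) v).1 h2
      intro c hc
      have h4 := congrFun h3 c
      simp only [if_neg hc] at h4
      exact h4.symm
    -- invariance of `a`
    have h2 : ∀ (τ : Q) (c : Q → Fin r), a (fun q => c (τ⁻¹ * q)) = a c := by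
      intro τ c
      have h3 : prodMap v (fun c => a (fun q => c (τ⁻¹ * q))) = prodMap v a := by
        funext ω
        have h4 : F (fun q => ω (τ⁻¹ * q)) = F ω := by
          choose y hy hyω using fun q => cls_surj p (ω q)
          have hω : (fun q => cls p (y q)) = ω := funext hyω
          have hω' : (fun q => cls p (y (τ⁻¹ * q))) = fun q => ω (τ⁻¹ * q) :=
            funext fun q => hyω (τ⁻¹ * q)
          rw [← hω', ← hω, hF (fun q => y (τ⁻¹ * q)), hF y]
          exact congrArg ψ (cls_shift (p := p) y τ)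
        rw [← ha, prodMap_apply] at h4
        rw [← h4, prodMap_apply]
        let E : (Q → Fin r) ≃ (Q → Fin r) :=
          ((Equiv.mulLeft τ⁻¹).arrowCongr (Equiv.refl (Fin r))).symm
        rw [← E.sum_comp (fun c => a c * ∏ q, v (c q) (ω (τ⁻¹ * q)))]
        refine Finset.sum_congr rfl fun c _ => ?_
        have hE : E c = fun q => c (τ⁻¹ * q) := rfl
        rw [hE]
        congr 1
        exact (Equiv.prod_comp (Equiv.mulLeft τ⁻¹) (fun q => v (c q) (ω q))).symm
      exact congrFun ((prodMap_bijective (Q := Q) v).1 h3) c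
    refine ⟨fun o => Quotient.liftOn' o (fun c => a (fun q => (c q : Fin r))) ?_, ?_⟩
    · rintro c c' ⟨τ, rfl⟩
      exact h2 τ (fun q => (c' q : Fin r))
    · funext ω
      obtain ⟨y, hy, rfl⟩ := exists_cls_incl hQ ω
      rw [hΘ, ← hF, ← ha, prodMap_apply, PF]
      have h4 : ∑ c : Q → Fin r, a c * ∏ q, v (c q) (cls p (y q)) =
          ∑ c ∈ univ.filter (fun c : Q → Fin r => ∀ q, c q ∈ I),
            a c * ∏ q, v (c q) (cls p (y q)) := by
        rw [Finset.sum_filter]
        refine Finset.sum_congr rfl fun c _ => ?_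
        split_ifs with h
        · rfl
        · rw [h1 c h, zero_mul]
      rw [h4]
      refine Finset.sum_bij (fun c _ => fun q => (c q : Fin r)) ?_ ?_ ?_ ?_
      · intro c _
        rw [mem_filter]
        exact ⟨mem_univ _, fun q => (c q).2⟩
      · intro c _ c' _ h
        funext q
        exact Subtype.ext (congrFun h q)
      · intro c hc
        rw [mem_filter] at hc
        exact ⟨fun q => ⟨c q, hc.2 q⟩, mem_univ _, rfl⟩
      · intro c _
        rfl
  let L : (MulAction.orbitRel.Quotient Q (Q → I) → k) ≃ₗ[k] VB p (ehat Q e) :=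
    LinearEquiv.ofBijective (Θ.codRestrict _ hmem) ⟨fun a b h => hinj (congrArg Subtype.val h),
      fun ψ => by
        obtain ⟨b, hb⟩ := hsurj ψ.1 ψ.2
        exact ⟨b, Subtype.ext hb⟩⟩
  rw [← L.finrank_eq, Module.finrank_fintype_fun_eq_card, Nat.card_eq_fintype_card]

/-- **(R3c)** the exact number of simple modules of `G ≀ C_p` in `e ⊗ ... ⊗ e` -/
theorem numSimpleIn_ehat (hQ : Nat.card Q = p) (e : MonoidAlgebra k G)
    (he : e ∈ Subalgebra.center k (MonoidAlgebra k G)) (hee : e * e = e) :
    p * numSimpleIn (ehat Q e) = numSimpleIn e ^ p + (p - 1) * numSimpleIn e := by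
  obtain ⟨X, hX, h1, h2⟩ := numSimpleIn_ehat_card hQ e he hee
  rw [h2, card_orbits_shift hp.out Q hQ X, h1]

end Main

end P179R
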